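import Crest.Agent.R94.Frame

/-! # Row 94: Campanato iteration -/

set_option autoImplicit false

namespace Crest.Agent.R94

variable {E : Type*} [NormedAddCommGroup E] [InnerProductSpace ℝ E] [CompleteSpace E]

theorem camp_near {K l s : ℝ} (hK : 1 < K) (hs : 0 < s) (h : s ≤ l) :
    ∃ i : ℕ, l / K ^ (i + 1) ≤ s ∧ s ≤ l / K ^ i := by
  obtain ⟨n, h1, h2⟩ := exists_nat_pow_near ((one_le_div hs).2 h) hK
  have : 0 < K := by linarith
  rw [le_div_iff₀' hs] at h1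
  rw [div_lt_iff₀' hs] at h2
  exact ⟨n, (div_le_iff₀ (by positivity)).2 h2.le, (le_div_iff₀ (by positivity)).2 h1⟩

/-- One point. `l i = l0 / K^i`. `‖P i - P (i+1)‖ ≤ (A K + A) / 2^i` (`norm_le_of_inner`, radius `l (i+1)`), so
`P` is Cauchy (`cauchySeq_of_le_geometric_two'` or `cauchySeq_of_le_geometric`), with limit `g`,
`‖P i - g‖ ≤ 4 A K / 2^i`. For `l (i+1) ≤ ‖η‖ ≤ l i` the error with slope `g` is `≤ 5 A K ‖η‖ / 2^i`; hence
`HasGradientAt` (`hasGradientAt_iff_isLittleO_nhds_zero` or `hasFDerivAt_iff_isLittleO_nhds_zero`,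
`Asymptotics.isLittleO_iff`; find `i` by `Nat.find` / `exists_nat_pow_near`). -/
theorem camp_point {v : E → ℝ} {x : E} {K l0 A : ℝ} (hK : 2 ≤ K) (hl0 : 0 < l0) (hA : 0 ≤ A)
    (P : ℕ → E) (hP : ∀ (i : ℕ) (η : E), ‖η‖ ≤ 2 * (l0 / K ^ i) →
      |v (x + η) - v x - inner ℝ (P i) η| ≤ A * (1 / 2) ^ i * (l0 / K ^ i)) :
    ∃ g : E, HasGradientAt v g x ∧ ∀ i : ℕ, ‖P i - g‖ ≤ 4 * A * K * (1 / 2) ^ i := by
  have hK0 : 0 < K := by linarith
  have hl : ∀ i : ℕ, l0 / K ^ i = K * (l0 / K ^ (i + 1)) := fun i => by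
    rw [pow_succ]
    field_simp
  have hstep : ∀ i, dist (P i) (P (i + 1)) ≤ 2 * A * K * (1 / 2) ^ i := fun i => by
    have h0 : 0 < l0 / K ^ (i + 1) := by positivity
    rw [dist_eq_norm]
    refine norm_le_of_inner h0 (by positivity) fun ξ hξ => ?_
    have h1 := (abs_le.1 (hP i ξ (by rw [hξ, hl i]; nlinarith))).1
    have h2 := (abs_le.1 (hP (i + 1) ξ (by linarith))).2
    rw [hl i] at h1
    rw [pow_succ (1 / 2 : ℝ)] at h2
    have h3 : 0 ≤ A * (1 / 2) ^ i * (l0 / K ^ (i + 1)) := by positivity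
    rw [inner_sub_left]
    nlinarith
  obtain ⟨g, hg⟩ := cauchySeq_tendsto_of_complete
    (cauchySeq_of_le_geometric (1 / 2) _ (by norm_num) hstep)
  have hd : ∀ i, ‖P i - g‖ ≤ 4 * A * K * (1 / 2) ^ i := fun i => by
    have := dist_le_of_le_geometric_of_tendsto (1 / 2) _ (by norm_num) hstep hg i
    rw [dist_eq_norm] at this
    exact this.trans (le_of_eq (by ring))
  refine ⟨g, hasGradientAt_iff_isLittleO_nhds_zero.2 (Asymptotics.isLittleO_iff.2 fun c hc => ?_), hd⟩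
  obtain ⟨n, hn⟩ := exists_pow_lt_of_lt_one (show 0 < c / (5 * A * K + 1) by positivity)
    (show (1 / 2 : ℝ) < 1 by norm_num)
  rw [lt_div_iff₀ (by positivity)] at hn
  filter_upwards [Metric.closedBall_mem_nhds (0 : E) (show 0 < l0 / K ^ n by positivity)] with η hη
  rw [mem_closedBall_zero_iff] at hη
  rcases eq_or_lt_of_le (norm_nonneg η) with h0 | h0
  · rw [norm_eq_zero.1 h0.symm]
    simp
  obtain ⟨i, h1, h2⟩ := camp_near (K := K) (by linarith) h0 hη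
  rw [div_div, ← pow_add] at h1 h2
  have h3 := hP (n + i) η (by linarith)
  have h4 := (abs_real_inner_le_norm (P (n + i) - g) η).trans
    (mul_le_mul_of_nonneg_right (hd _) h0.le)
  have h5 : (1 / 2 : ℝ) ^ (n + i) ≤ (1 / 2) ^ n :=
    pow_le_pow_of_le_one (by norm_num) (by norm_num) (Nat.le_add_right _ _)
  have h6 : A * (1 / 2) ^ (n + i) * (l0 / K ^ (n + i)) ≤ A * K * (1 / 2) ^ (n + i) * ‖η‖ := by
    rw [hl (n + i), ← mul_assoc, mul_right_comm A]
    exact mul_le_mul_of_nonneg_left h1 (by positivity)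
  have h7 : 5 * A * K * (1 / 2) ^ (n + i) ≤ c := by
    have : 0 ≤ 5 * A * K := by positivity
    have : (0 : ℝ) < (1 / 2) ^ n := by positivity
    nlinarith
  rw [inner_sub_left] at h4
  rw [Real.norm_eq_abs, abs_le]
  rw [abs_le] at h3 h4
  have h8 := mul_le_mul_of_nonneg_right h7 h0.le
  constructor <;> linarith [h3.1, h3.2, h4.1, h4.2]

/-- Use `j = 2 i`: with `K = 2 M²`, `l i = r0 / K^i` the hypothesis gives the one of `camp_point` with `A = 5`
(`(1/2)^(2i) r0/M^(2i) = (1/2)^i l i`, and `4 (l i)²/(r0/M^(2i)) = 4 (1/2)^i l i`). `‖g x‖ ≤ ‖P 0‖ + 20 K`,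
`‖P 0‖ ≤ 7`. If `‖x - y‖ ≤ l i` then `‖P i x - P i y‖ ≤ 15 (1/2)^i` (compare `v (y+η) - v y` with the slope at
`y` and as a difference of two increments from `x`, `‖η‖ = l i`), so `‖g x - g y‖ ≤ (15 + 40 K)(1/2)^i`.
Take `α = min (1/3) (log 2 / log K)`; then `K^(-α) ≥ 1/2`, and for `l (i+1) ≤ ‖x-y‖ ≤ l i`,
`(1/2)^(i+1) ≤ (K^(-(i+1)))^α ≤ (‖x-y‖/r0)^α`. For `‖x - y‖ ≥ r0` use the bound on `‖g‖`; `x = y` is trivial. -/
theorem campanato {M r0 : ℝ} (hM : 2 ≤ M) (hr0 : 0 < r0) :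
    ∃ α : ℝ, 0 < α ∧ α ≤ 1 / 3 ∧ ∃ C : ℝ, 0 ≤ C ∧ ∀ v : E → ℝ, LipschitzWith 2 v →
      (∀ (j : ℕ) (x : E), ‖x‖ ≤ 1 / 2 → ∃ P : E, ∀ η : E,
        |v (x + η) - v x - inner ℝ P η| ≤ (1 / 2) ^ j * (r0 / M ^ j) + ‖η‖ ^ 2 / (r0 / M ^ j)) →
      ∃ g : E → E, (∀ x : E, ‖x‖ ≤ 1 / 2 → HasGradientAt v (g x) x ∧ ‖g x‖ ≤ C) ∧
        ∀ x y : E, ‖x‖ ≤ 1 / 2 → ‖y‖ ≤ 1 / 2 → ‖g x - g y‖ ≤ C * ‖x - y‖ ^ α := by
  obtain ⟨K, hK⟩ : ∃ K : ℝ, K = 2 * M ^ 2 := ⟨_, rfl⟩
  have hK2 : 2 ≤ K := by nlinarith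
  have hlog : 0 < Real.log K := Real.log_pos (by linarith)
  obtain ⟨α, hα⟩ : ∃ α : ℝ, α = min (1 / 3) (Real.log 2 / Real.log K) := ⟨_, rfl⟩
  have hα0 : 0 < α := hα ▸ lt_min (by norm_num) (div_pos (Real.log_pos one_lt_two) hlog)
  have hαK : K ^ α ≤ 2 := by
    rw [Real.rpow_def_of_pos (by linarith), ← Real.exp_log two_pos, Real.exp_le_exp,
      ← le_div_iff₀' hlog, hα]
    exact min_le_right _ _
  refine ⟨α, hα0, hα ▸ min_le_left _ _, 15 + 40 * K + 2 * (15 + 40 * K) / r0 ^ α, by positivity,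
    fun v hv h => ?_⟩
  choose! P hP using h
  have key : ∀ x : E, ‖x‖ ≤ 1 / 2 → ∀ (i : ℕ) (η : E), ‖η‖ ≤ 2 * (r0 / K ^ i) →
      |v (x + η) - v x - inner ℝ (P (2 * i) x) η| ≤ 5 * (1 / 2) ^ i * (r0 / K ^ i) :=
    fun x hx i η hη => by
      have hρ : 0 < r0 / M ^ (2 * i) := by positivity
      have e : r0 / K ^ i = (1 / 2) ^ i * (r0 / M ^ (2 * i)) := by
        rw [hK, mul_pow, pow_mul, one_div, inv_pow]
        field_simp
      refine (hP (2 * i) x hx η).trans ?_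
      rw [e] at hη ⊢
      have h1 : ‖η‖ ^ 2 / (r0 / M ^ (2 * i)) ≤ 4 * ((1 / 2) ^ i) ^ 2 * (r0 / M ^ (2 * i)) := by
        rw [div_le_iff₀ hρ]
        exact (pow_le_pow_left₀ (norm_nonneg _) hη 2).trans (le_of_eq (by ring))
      rw [pow_mul' (1 / 2 : ℝ)]
      linarith
  choose! g hg hd using fun x (hx : ‖x‖ ≤ 1 / 2) =>
    camp_point hK2 hr0 (by norm_num) (fun i => P (2 * i) x) (key x hx)
  have hb : ∀ x : E, ‖x‖ ≤ 1 / 2 → ‖g x‖ ≤ 7 + 20 * K := fun x hx => by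
    have h1 : ‖P (2 * 0) x‖ ≤ 7 := norm_le_of_inner hr0 (by norm_num) fun ξ hξ => by
      have h2 := (abs_le.1 (key x hx 0 ξ (by rw [pow_zero, div_one]; linarith))).1
      have h3 := hv.dist_le_mul (x + ξ) x
      rw [dist_self_add_left, hξ, Real.dist_eq] at h3
      simp only [pow_zero, div_one, mul_one, NNReal.coe_ofNat] at h2 h3
      linarith [(abs_le.1 h3).2]
    have h2 := hd x hx 0
    have h3 := norm_sub_norm_le (g x) (P (2 * 0) x)
    rw [norm_sub_rev] at h3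
    linarith
  have hr : 0 < r0 ^ α := by positivity
  have hB : 0 ≤ 2 * (15 + 40 * K) / r0 ^ α := by positivity
  refine ⟨g, fun x hx => ⟨hg x hx, by linarith [hb x hx]⟩, fun x y hx hy => ?_⟩
  rcases eq_or_lt_of_le (norm_nonneg (x - y)) with h0 | h0
  · rw [sub_eq_zero.1 (norm_eq_zero.1 h0.symm), sub_self, norm_zero]
    positivity
  suffices ‖g x - g y‖ ≤ 2 * (15 + 40 * K) * (‖x - y‖ / r0) ^ α by
    rw [Real.div_rpow h0.le hr0.le, ← mul_div_assoc, mul_div_right_comm] at this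
    exact this.trans (mul_le_mul_of_nonneg_right (by linarith) (by positivity))
  rcases le_total ‖x - y‖ r0 with h1 | h1
  · obtain ⟨i, h2, h3⟩ := camp_near (K := K) (by linarith) h0 h1
    have hl : 0 < r0 / K ^ i := by positivity
    have h4 : ‖P (2 * i) x - P (2 * i) y‖ ≤ 15 * (1 / 2) ^ i :=
      norm_le_of_inner hl (by positivity) fun η hη => by
        have a := (abs_le.1 (key y hy i η (by linarith))).2
        have b := (abs_le.1 (key x hx i (y - x + η)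
          ((norm_add_le _ _).trans (by rw [norm_sub_rev]; linarith)))).1
        have c := (abs_le.1 (key x hx i (y - x) (by rw [norm_sub_rev]; linarith))).2
        rw [← add_assoc, inner_add_right] at b
        rw [add_sub_cancel] at b c
        rw [inner_sub_left]
        linarith
    have h5 : (1 / 2 : ℝ) ^ (i + 1) ≤ (‖x - y‖ / r0) ^ α := by
      refine le_trans ?_ (Real.rpow_le_rpow (x := (1 / K) ^ (i + 1)) (by positivity) ?_ hα0.le)
      · rw [← Real.rpow_pow_comm (by positivity), Real.div_rpow zero_le_one (by linarith),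
          Real.one_rpow]
        exact pow_le_pow_left₀ (by norm_num) (one_div_le_one_div_of_le (by positivity) hαK) _
      · rw [le_div_iff₀' hr0, one_div, inv_pow, ← div_eq_mul_inv]
        exact h2
    have h6 := norm_add₃_le (a := g x - P (2 * i) x) (b := P (2 * i) x - P (2 * i) y)
      (c := P (2 * i) y - g y)
    rw [sub_add_sub_cancel, sub_add_sub_cancel, norm_sub_rev (g x) (P _ _)] at h6
    have h7 := mul_le_mul_of_nonneg_left h5 (show 0 ≤ 2 * (15 + 40 * K) by positivity)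
    rw [pow_succ] at h7
    linarith [hd x hx i, hd y hy i]
  · have h2 := Real.one_le_rpow ((one_le_div hr0).2 h1) hα0.le
    have h3 := le_mul_of_one_le_right (show 0 ≤ 2 * (15 + 40 * K) by positivity) h2
    linarith [norm_sub_le (g x) (g y), hb x hx, hb y hy]

end Crest.Agent.R94
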