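import Crest.Agent.R94.Frame

/-! # Row 94: finite configurations, duality, the defect `lam` -/

set_option autoImplicit false

namespace Crest.Agent.R94

variable {E : Type*} [NormedAddCommGroup E] [InnerProductSpace ℝ E]
variable {w : E → ℝ → ℝ} {g : E → ℝ} {x : E} {s a lam : ℝ}

theorem Ach.mono {a' : ℝ} (h : Ach g x s a) (ha : a' ≤ a) : Ach g x s a' := by
  obtain ⟨ι, _, c, y, h0, h1, h2, h3⟩ := h
  exact ⟨ι, _, c, y, h0, h1, h2, ha.trans h3⟩

/-- One atom (`ι = Unit`). -/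
theorem ach_self (g : E → ℝ) (x : E) (s : ℝ) : Ach g x s (g x) := by
  exact ⟨Unit, inferInstance, fun _ => 1, fun _ => x, fun _ => zero_le_one, by simp, by simp, by simp⟩

/-- `∑ c i * ⟪p, y i⟫ = ⟪p, ∑ c i • y i⟫`. -/
theorem sum_inner_eq {ι : Type} [Fintype ι] (c : ι → ℝ) (y : ι → E) (p : E) :
    ∑ i, c i * inner ℝ p (y i) = inner ℝ p (∑ i, c i • y i) := by
  simp only [inner_sum, real_inner_smul_right]

theorem cfg_center {ι : Type} [Fintype ι] {c : ι → ℝ} {y : ι → E} (h1 : ∑ i, c i = 1)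
    (hx : ∑ i, c i • y i = x) : ∑ i, c i • (y i - x) = 0 := by
  simp only [smul_sub, Finset.sum_sub_distrib, ← Finset.sum_smul, h1, hx, one_smul, sub_self]

/-- Bias-variance: expand `‖(y i - x) + v‖²`; the cross term vanishes. -/
theorem sum_sq_shift {ι : Type} [Fintype ι] {c : ι → ℝ} {y : ι → E} (h1 : ∑ i, c i = 1)
    (hx : ∑ i, c i • y i = x) (v : E) :
    ∑ i, c i * ‖y i - x + v‖ ^ 2 = ∑ i, c i * ‖y i - x‖ ^ 2 + ‖v‖ ^ 2 := by
  have h2 : ∑ i, c i * inner ℝ v (y i - x) = 0 := by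
    rw [sum_inner_eq, cfg_center h1 hx, inner_zero_right]
  have h3 : ∀ i, c i * ‖y i - x + v‖ ^ 2 =
      c i * ‖y i - x‖ ^ 2 + 2 * (c i * inner ℝ v (y i - x)) + c i * ‖v‖ ^ 2 := fun i => by
    rw [norm_add_sq_real, real_inner_comm]
    ring
  simp only [h3, Finset.sum_add_distrib, ← Finset.mul_sum, ← Finset.sum_mul, h1, h2]
  ring

/-- Variance after moving atom `i` by `k • p i`. Termwise `sq_split (y i - x) (k • (p i - q))`, then
`∑ c i ‖p i - q‖² = ∑ c i ‖p i‖² - ‖q‖²` (`sum_sq_shift` with `v = q`). -/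
theorem var_split {ι : Type} [Fintype ι] {c : ι → ℝ} {y p : ι → E} {q : E} {k : ℝ}
    (h0 : ∀ i, 0 ≤ c i) (h1 : ∑ i, c i = 1) (hq : ∑ i, c i • p i = q) (hs : 0 < s) (hk : 0 < k) :
    ∑ i, c i * (‖y i + k • p i - (x + k • q)‖ ^ 2 / (2 * (s + k))) ≤
      ∑ i, c i * (‖y i - x‖ ^ 2 / (2 * s)) + k * (∑ i, c i * ‖p i‖ ^ 2 - ‖q‖ ^ 2) / 2 := by
  have h2 := sum_sq_shift h1 hq q
  simp only [sub_add_cancel] at h2
  rw [h2, add_sub_cancel_right, Finset.mul_sum, Finset.sum_div, ← Finset.sum_add_distrib]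
  refine Finset.sum_le_sum fun i _ => ?_
  have h3 := sq_split (y i - x) (k • (p i - q)) hs hk
  rw [norm_smul, Real.norm_of_nonneg hk.le] at h3
  rw [show y i + k • p i - (x + k • q) = y i - x + k • (p i - q) by rw [smul_sub]; abel]
  refine (mul_le_mul_of_nonneg_left h3 (h0 i)).trans_eq ?_
  field_simp

/-- Weak duality: apply `hc (y i - x)`, average, `∑ c i ⟪p, y i - x⟫ = 0`. -/
theorem Ach.weak (h : Ach g x s a) (p : E) {c : ℝ}
    (hc : ∀ ξ : E, g (x + ξ) - ‖ξ‖ ^ 2 / (2 * s) - inner ℝ p ξ ≤ c) : a ≤ c := by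
  obtain ⟨ι, _, d, y, h0, h1, h2, h3⟩ := h
  have h4 : ∑ i, d i * inner ℝ p (y i - x) = 0 := by
    rw [sum_inner_eq, cfg_center h1 h2, inner_zero_right]
  calc a ≤ _ := h3
    _ ≤ ∑ i, (d i * c + d i * inner ℝ p (y i - x)) := Finset.sum_le_sum fun i _ => by
      have h5 := hc (y i - x)
      rw [add_sub_cancel] at h5
      rw [← mul_add]
      exact mul_le_mul_of_nonneg_left (by linarith) (h0 i)
    _ = c := by rw [Finset.sum_add_distrib, h4, ← Finset.sum_mul, h1, one_mul, add_zero]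

theorem cfg_pos {a b : ℝ} (h : 0 < a * b) (ha : 0 < a) : 0 < b :=
  (pos_iff_pos_of_mul_pos h).1 ha

/-- Strong duality. `A = {z : E × ℝ | z.2 < g z.1 - ‖z.1 - x‖²/(2s)}` is open, so `convexHull ℝ A` is open
(`IsOpen.convexHull`) and convex; `(x, c) ∉ convexHull ℝ A` (`mem_convexHull_iff_exists_fintype`; the strict
inequality survives averaging since `∑ c i = 1`, `Finset.sum_lt_sum`). `geometric_hahn_banach_open_point`
gives `L` with `L z < L (x,c)` on the hull. Write `L (y,v) = L (y,0) + v * γ`, `γ = L (0,1)`; the points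
`(x, v)`, `v < g x ≤ c` (`ach_self`) give `γ > 0`. Take `p = -γ⁻¹ •` (Riesz vector of `y ↦ L (y,0)`,
`InnerProductSpace.toDual`), and let `v ↑ g y - ‖y-x‖²/(2s)`. -/
theorem ach_strong [FiniteDimensional ℝ E] (hg : Continuous g) {c : ℝ}
    (hc : ∀ a, Ach g x s a → a ≤ c) :
    ∃ p : E, ∀ ξ : E, g (x + ξ) - ‖ξ‖ ^ 2 / (2 * s) - inner ℝ p ξ ≤ c := by
  have := FiniteDimensional.complete ℝ E
  set A : Set (E × ℝ) := {z | z.2 < g z.1 - ‖z.1 - x‖ ^ 2 / (2 * s)} with hA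
  have h1 : IsOpen A := isOpen_lt continuous_snd (by fun_prop)
  have h2 : (x, c) ∉ convexHull ℝ A := fun h => by
    obtain ⟨ι, _, d, z, h0, h3, h4, h5⟩ := mem_convexHull_iff_exists_fintype.1 h
    have h6 : ∑ i, d i • (z i).1 = x := by simpa [Prod.fst_sum] using congrArg Prod.fst h5
    have h7 : ∑ i, d i * (z i).2 = c := by simpa [Prod.snd_sum] using congrArg Prod.snd h5
    refine (hc _ ⟨ι, _, d, fun i => (z i).1, h0, h3, h6, le_rfl⟩).not_gt (h7 ▸ ?_)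
    obtain ⟨i, -, hi⟩ := Finset.exists_ne_zero_of_sum_ne_zero (h3.trans_ne one_ne_zero)
    exact Finset.sum_lt_sum (fun j _ => mul_le_mul_of_nonneg_left (h4 j).le (h0 j))
      ⟨i, Finset.mem_univ _, mul_lt_mul_of_pos_left (h4 i) ((h0 i).lt_of_ne' hi)⟩
  obtain ⟨L, hL⟩ := geometric_hahn_banach_open_point (convex_convexHull ℝ A) h1.convexHull h2
  have h3 : ∀ (ξ : E) (v : ℝ), v < g (x + ξ) - ‖ξ‖ ^ 2 / (2 * s) →
      L (ξ, 0) < (c - v) * L (0, 1) := fun ξ v hv => by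
    have h4 := hL (x + ξ, v) (subset_convexHull ℝ A (by simpa [hA] using hv))
    rw [show ((x, c) : E × ℝ) = (x + ξ, v) + ((c - v) • (0, 1) - (ξ, 0)) by simp, map_add, map_sub,
      map_smul, smul_eq_mul] at h4
    linarith
  have h4 : 0 < L (0, 1) := by
    have h5 := h3 0 (g x - 1) (by simp)
    rw [Prod.mk_zero_zero, map_zero] at h5
    exact cfg_pos h5 (by linarith [hc _ (ach_self g x s)])
  refine ⟨-(L (0, 1))⁻¹ • (InnerProductSpace.toDual ℝ E).symm (L.comp (.inl ℝ E ℝ)), fun ξ => ?_⟩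
  rw [real_inner_smul_left, InnerProductSpace.toDual_symm_apply]
  by_contra h
  have h5 := h3 ξ (c - (L (0, 1))⁻¹ * L (ξ, 0)) (by simp at h; linarith)
  rw [sub_sub_cancel, mul_right_comm, inv_mul_cancel₀ h4.ne', one_mul] at h5
  exact h5.false

/-- `Ach.weak` with a frame at scale `2 s`, `τ = 0`. -/
theorem Cls.lam_two (hw : Cls w) : Lam w 2 := by
  intro x t s a hs h
  obtain ⟨P, k, h1⟩ := hw.flat x t (2 * s) (by linarith)
  refine h.weak P fun ξ => ?_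
  have h2 := (abs_le.1 (h1 ξ 0 (by rw [abs_zero]; linarith))).2
  rw [add_zero, mul_zero, zero_smul, sub_zero, sub_zero] at h2
  linarith

/-- `lam = sSup {(a - w x t)/s | 0 < s, Ach (w · t) x s a}`; bounded by `2` (`lam_two`), contains `0`
(`ach_self`); `exists_lt_of_lt_csSup`. -/
theorem Cls.exists_lam (hw : Cls w) : ∃ lam : ℝ, 0 ≤ lam ∧ lam ≤ 2 ∧ Lam w lam ∧
    ∀ θ : ℝ, 0 < θ → ∃ (x : E) (t s a : ℝ), 0 < s ∧ Ach (fun y => w y t) x s a ∧
      w x t + (lam - θ) * s ≤ a := by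
  set S : Set ℝ := {l | ∃ (x : E) (t s a : ℝ), 0 < s ∧ Ach (fun y => w y t) x s a ∧ l = (a - w x t) / s}
  have h0 : (0 : ℝ) ∈ S := ⟨0, 0, 1, _, one_pos, ach_self _ _ _, by simp⟩
  have h2 : ∀ l ∈ S, l ≤ 2 := by
    rintro _ ⟨x, t, s, a, hs, h, rfl⟩
    rw [div_le_iff₀ hs]
    linarith [hw.lam_two x t s a hs h]
  refine ⟨sSup S, le_csSup ⟨2, h2⟩ h0, csSup_le ⟨0, h0⟩ h2, fun x t s a hs h => ?_, fun θ hθ => ?_⟩
  · have h3 := le_csSup ⟨2, h2⟩ (⟨x, t, s, a, hs, h, rfl⟩ : _ ∈ S)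
    rw [div_le_iff₀ hs] at h3
    linarith
  · obtain ⟨_, ⟨x, t, s, a, hs, h, rfl⟩, h3⟩ := exists_lt_of_lt_csSup ⟨0, h0⟩ (sub_lt_self (sSup S) hθ)
    rw [lt_div_iff₀ hs] at h3
    exact ⟨x, t, s, a, hs, h, by linarith⟩

theorem Lam.shift (hl : Lam w lam) (c : ℝ) : Lam (fun x t => w x (t + c)) lam := by
  exact fun x t => hl x (t + c)

/-- Two atoms `x ± ξ` of mass `1/2` (`ι = Bool` or `Fin 2`), `s → ∞`. -/
theorem Lam.midpoint (hl : Lam w 0) (x ξ : E) (t : ℝ) :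
    w (x + ξ) t + w (x - ξ) t ≤ 2 * w x t := by
  refine le_of_forall_pos_le_add fun ε hε => ?_
  have hs : 0 < ‖ξ‖ ^ 2 / ε + 1 := by positivity
  have h1 := hl x t _ _ hs ⟨Bool, inferInstance, fun _ => 1 / 2, fun b => bif b then x + ξ else x - ξ,
    fun _ => by norm_num, by norm_num, by simp [← smul_add, ← two_smul ℝ x, smul_smul], le_rfl⟩
  have h2 : ‖ξ‖ ^ 2 / (2 * (‖ξ‖ ^ 2 / ε + 1)) ≤ ε / 2 := by
    rw [div_le_iff₀ (by positivity)]
    field_simp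
    linarith
  simp only [Fintype.sum_bool, cond_true, cond_false, add_sub_cancel_left, sub_sub_cancel_left,
    norm_neg] at h1
  linarith

theorem G.mono {κ H t y y' : ℝ} (h : G w lam κ H x t y) (hκ : 0 < κ) (hy : y ≤ y') :
    G w lam κ H x t y' := by
  obtain ⟨a, h1, h2⟩ := h
  exact ⟨a, h1, h2.trans (mul_le_mul_of_nonneg_left hy hκ.le)⟩

end Crest.Agent.R94
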