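import Mathlib

/-!
# Row 94 (C^{1,α} for infinity-harmonic functions): definitions

`w : E → ℝ → ℝ` is a function of space `x` and time `t` (for the final application `w x t = v x`).
Overview of the proof (files `Crest/Agent/R94/*`):
* `Flat w x t r b P h`: in the tube `x + τ P`, `|τ| ≤ r`, `w` is within `b r + |ξ|²/r` of the affine
  function with gradient `P` and time slope `h - |P|²/2`. `(P, h)` is a *frame* at `(x,t)`, scale `r`.
* `Cls w`: flat with `b = 1` at all points and scales, and the Hopf-Lax slopes are monotone in the scale.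
* Liouville (`Lam.lean`, `Liou.lean`): `Cls w` implies `w` affine. Compactness (`Imp*.lean`) turns it
  into `b → b/2` decay (`Gal.lean`), Campanato (`Camp.lean`) gives C^{1,α}.
-/

set_option autoImplicit false

namespace Crest.Agent.R94

variable {E : Type*} [NormedAddCommGroup E] [InnerProductSpace ℝ E]

/-- `(P, h)` is a frame of flatness `b` for `w` at `(x, t)`, scale `r`. -/
def Flat (w : E → ℝ → ℝ) (x : E) (t r b : ℝ) (P : E) (h : ℝ) : Prop :=
  ∀ (η : E) (τ : ℝ), |τ| ≤ r →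
    |w (x + η) (t + τ) - w x t - inner ℝ P η - (h - ‖P‖ ^ 2 / 2) * τ| ≤
      b * r + ‖η - τ • P‖ ^ 2 / r

/-- Forward Hopf-Lax slope at scale `r` is at most the one at scale `ρ` (existence form). -/
def MP (w : E → ℝ → ℝ) (x : E) (t r ρ : ℝ) : Prop :=
  ∀ η : E, ∃ η' : E, (w (x + η) (t + r) - w x t - ‖η‖ ^ 2 / (2 * r)) / r ≤
    (w (x + η') (t + ρ) - w x t - ‖η'‖ ^ 2 / (2 * ρ)) / ρ

/-- Backward Hopf-Lax slope at scale `r` is at most the one at scale `ρ` (existence form). -/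
def MM (w : E → ℝ → ℝ) (x : E) (t r ρ : ℝ) : Prop :=
  ∀ η : E, ∃ η' : E, (w x t - w (x + η) (t - r) - ‖η‖ ^ 2 / (2 * r)) / r ≤
    (w x t - w (x + η') (t - ρ) - ‖η'‖ ^ 2 / (2 * ρ)) / ρ

/-- The class of entire blow-up limits. -/
structure Cls (w : E → ℝ → ℝ) : Prop where
  flat : ∀ (x : E) (t r : ℝ), 0 < r → ∃ P h, Flat w x t r 1 P h
  mp : ∀ (x : E) (t r ρ : ℝ), 0 < r → r < ρ → MP w x t r ρ
  mm : ∀ (x : E) (t r ρ : ℝ), 0 < r → r < ρ → MM w x t r ρ

/-- The class properties in the box of size `M`, for scales up to `M`. -/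
def LocCls (w : E → ℝ → ℝ) (M : ℝ) : Prop :=
  ∀ (x : E) (t : ℝ), ‖x‖ ≤ M → |t| ≤ M →
    (∀ r, 0 < r → r ≤ M → ∃ P h, Flat w x t r 1 P h) ∧
    (∀ r ρ, 0 < r → r < ρ → ρ ≤ M → MP w x t r ρ ∧ MM w x t r ρ)

/-- Mirror image: exchanges forward and backward. -/
def mir (w : E → ℝ → ℝ) : E → ℝ → ℝ := fun x t => -w x (-t)

/-- Forward Hopf-Lax operator. -/
noncomputable def Tup (w : E → ℝ → ℝ) (r : ℝ) (x : E) (t : ℝ) : ℝ :=
  ⨆ η : E, (w (x + η) (t + r) - ‖η‖ ^ 2 / (2 * r))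

/-- Backward Hopf-Lax operator. -/
noncomputable def Tlo (w : E → ℝ → ℝ) (r : ℝ) (x : E) (t : ℝ) : ℝ :=
  ⨅ η : E, (w (x + η) (t - r) + ‖η‖ ^ 2 / (2 * r))

/-- Forward slope. -/
noncomputable def Sp (w : E → ℝ → ℝ) (r : ℝ) (x : E) (t : ℝ) : ℝ := (Tup w r x t - w x t) / r

/-- Backward slope. -/
noncomputable def Sm (w : E → ℝ → ℝ) (r : ℝ) (x : E) (t : ℝ) : ℝ := (w x t - Tlo w r x t) / r

/-- Both slopes at scale `r` are at most `H`. -/
def Reg (w : E → ℝ → ℝ) (r H : ℝ) (x : E) (t : ℝ) : Prop := Sp w r x t ≤ H ∧ Sm w r x t ≤ H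

/-- A finite probability measure with barycentre `x` has `∫ g - Var / (2 s) ≥ a`. -/
def Ach (g : E → ℝ) (x : E) (s a : ℝ) : Prop :=
  ∃ (ι : Type) (_ : Fintype ι) (c : ι → ℝ) (y : ι → E), (∀ i, 0 ≤ c i) ∧ ∑ i, c i = 1 ∧
    ∑ i, c i • y i = x ∧ a ≤ ∑ i, c i * (g (y i) - ‖y i - x‖ ^ 2 / (2 * s))

/-- The horizontal concavity defect of `w` is at most `lam` at all points and scales. -/
def Lam (w : E → ℝ → ℝ) (lam : ℝ) : Prop :=
  ∀ (x : E) (t s a : ℝ), 0 < s → Ach (fun y => w y t) x s a → a ≤ w x t + lam * s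

/-- A configuration with barycentre `x` at time `t` has deficiency at most `y`. -/
def G (w : E → ℝ → ℝ) (lam κ H : ℝ) (x : E) (t y : ℝ) : Prop :=
  ∃ a, Ach (fun z => Tup w κ z t) x t a ∧ lam * (t + κ) + Tlo w κ x t + 2 * κ * H - a ≤ κ * y

/-- Penalty of the level lemma. -/
noncomputable def pen (A V : ℝ) (ζ : E) (τ : ℝ) : ℝ :=
  A * (‖ζ‖ ^ 2 + V ^ 2 * (3000 - 18 * τ ^ 2)) ^ 2

/-- Bound of the penalty on the axis. -/
noncomputable def psi0 (Y V R : ℝ) : ℝ := Y / R ^ 4 * (3000 * V ^ 2) ^ 2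

/-- Comparison with cones from above on balls. -/
def CC (u : E → ℝ) (Ω : Set E) : Prop :=
  ∀ (x : E) (R a : ℝ), 0 < R → Metric.closedBall x R ⊆ Ω →
    (∀ y, ‖y - x‖ = R → u y ≤ u x + a * R) → ∀ y, ‖y - x‖ ≤ R → u y ≤ u x + a * ‖y - x‖

end Crest.Agent.R94
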