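import Crest.Agent.R94.Defs

/-! # Row 94: elementary facts on frames (no Hopf-Lax operators here) -/

set_option autoImplicit false

namespace Crest.Agent.R94

variable {E : Type*} [NormedAddCommGroup E] [InnerProductSpace ℝ E]
variable {w : E → ℝ → ℝ} {x x' P P' : E} {t t' r r' b h h' ρ : ℝ}

theorem frame_sq (P η : E) (τ : ℝ) :
    ‖η - τ • P‖ ^ 2 = ‖η‖ ^ 2 - 2 * τ * inner ℝ P η + τ ^ 2 * ‖P‖ ^ 2 := by
  rw [norm_sub_sq_real, inner_smul_right, norm_smul, mul_pow, Real.norm_eq_abs, sq_abs,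
    real_inner_comm]
  ring

/-- Expand `‖η - τ • P‖ ^ 2` (`norm_sub_sq_real`, `inner_smul_right`, `norm_smul`), `field_simp`, `ring`. -/
theorem lin_id (P η : E) (h τ : ℝ) (hτ : τ ≠ 0) :
    inner ℝ P η + (h - ‖P‖ ^ 2 / 2) * τ - ‖η‖ ^ 2 / (2 * τ) =
      h * τ - ‖η - τ • P‖ ^ 2 / (2 * τ) := by
  rw [frame_sq]
  field_simp
  ring

/-- Test with `ξ = (r / ‖v‖) • v` when `v ≠ 0`. -/
theorem norm_le_of_inner {v : E} {r C : ℝ} (hr : 0 < r) (hC : 0 ≤ C)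
    (h : ∀ ξ : E, ‖ξ‖ = r → inner ℝ v ξ ≤ C * r) : ‖v‖ ≤ C := by
  by_cases hv : v = 0
  · rwa [hv, norm_zero]
  have hn : 0 < ‖v‖ := norm_pos_iff.2 hv
  have h1 := h ((r / ‖v‖) • v) (by
    rw [norm_smul, Real.norm_of_nonneg (by positivity), div_mul_cancel₀ _ hn.ne'])
  rw [inner_smul_right, real_inner_self_eq_norm_sq,
    show r / ‖v‖ * ‖v‖ ^ 2 = ‖v‖ * r by field_simp] at h1
  exact le_of_mul_le_mul_right h1 hr

/-- `‖a+b‖ ≤ ‖a‖+‖b‖` and `(p+q)²/(s+k) ≤ p²/s + q²/k` (difference is `(kp - sq)²/(sk(s+k))`). -/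
theorem sq_split (a b : E) {s k : ℝ} (hs : 0 < s) (hk : 0 < k) :
    ‖a + b‖ ^ 2 / (2 * (s + k)) ≤ ‖a‖ ^ 2 / (2 * s) + ‖b‖ ^ 2 / (2 * k) := by
  have h1 : ‖a + b‖ ^ 2 ≤ (‖a‖ + ‖b‖) ^ 2 := pow_le_pow_left₀ (norm_nonneg _) (norm_add_le a b) 2
  refine (div_le_div_of_nonneg_right h1 (by positivity)).trans ?_
  rw [div_add_div _ _ (by positivity) (by positivity), div_le_div_iff₀ (by positivity) (by positivity)]
  nlinarith [sq_nonneg (k * ‖a‖ - s * ‖b‖)]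

theorem Flat.mono_b {b' : ℝ} (h1 : Flat w x t r b P h) (hr : 0 < r) (hb : b ≤ b') :
    Flat w x t r b' P h := by
  intro η τ hτ
  have := mul_le_mul_of_nonneg_right hb hr.le
  linarith [h1 η τ hτ]

/-- Same point, comparable scales. `P`: test both frames at `τ = 0`, `‖η‖ = r`:
`⟪P - P', η⟫ ≤ r + r + r' + r²/r' ≤ 5 r`. `h`: test at `η = r • P`, `τ = r`; the difference of the two
affine values is `r (h - h' + ‖P - P'‖²/2)`, the errors are `r` and `r' + r² ‖P - P'‖²/r'`, so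
`|h - h'| ≤ 3 + 1.5 * 25`. -/
theorem Flat.near (h1 : Flat w x t r 1 P h) (h2 : Flat w x t r' 1 P' h') (hr : 0 < r)
    (hrr : r ≤ r') (hrr' : r' ≤ 2 * r) : ‖P - P'‖ ≤ 5 ∧ |h - h'| ≤ 41 := by
  have hr' : 0 < r' := by linarith
  have hd : ∀ a : ℝ, 0 ≤ a → r ^ 2 * a / r' ≤ r * a := fun a ha => by
    rw [div_le_iff₀ hr']
    nlinarith [mul_nonneg (mul_nonneg hr.le ha) (sub_nonneg.2 hrr)]
  have hP : ‖P - P'‖ ≤ 5 := by
    refine norm_le_of_inner hr (by norm_num) fun ξ hξ => ?_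
    have a1 := abs_le.1 (h1 ξ 0 (by rw [abs_zero]; exact hr.le))
    have a2 := abs_le.1 (h2 ξ 0 (by rw [abs_zero]; exact hr'.le))
    rw [zero_smul, sub_zero, hξ] at a1 a2
    have e1 : r ^ 2 / r = r := by field_simp
    have e2 := hd 1 zero_le_one
    rw [mul_one] at e2
    rw [inner_sub_left]
    linarith [a1.1, a2.2]
  refine ⟨hP, ?_⟩
  have a1 := abs_le.1 (h1 (r • P) r (by rw [abs_of_pos hr]))
  have a2 := abs_le.1 (h2 (r • P) r (by rw [abs_of_pos hr]; exact hrr))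
  rw [sub_self, norm_zero, inner_smul_right, real_inner_self_eq_norm_sq] at a1
  rw [← smul_sub, norm_smul, Real.norm_of_nonneg hr.le, mul_pow, inner_smul_right] at a2
  have e1 := hd _ (sq_nonneg ‖P - P'‖)
  have e2 : ‖P - P'‖ ^ 2 = ‖P‖ ^ 2 - 2 * inner ℝ P' P + ‖P'‖ ^ 2 := by
    rw [norm_sub_sq_real, real_inner_comm]
  have e3 : ‖P - P'‖ ^ 2 ≤ 25 := by nlinarith [norm_nonneg (P - P')]
  have e4 := mul_le_mul_of_nonneg_left e3 hr.le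
  have e5 := mul_nonneg hr.le (sq_nonneg ‖P - P'‖)
  have e6 : r * ‖P - P'‖ ^ 2 = r * ‖P‖ ^ 2 - 2 * (r * inner ℝ P' P) + r * ‖P'‖ ^ 2 := by
    rw [e2]
    ring
  have e7 : (0 : ℝ) ^ 2 / r = 0 := by simp
  rw [abs_le]
  constructor
  · refine le_of_mul_le_mul_left ?_ hr
    linarith [a1.1, a1.2, a2.1, a2.2]
  · refine le_of_mul_le_mul_left ?_ hr
    linarith [a1.1, a1.2, a2.1, a2.2]

/-- Dyadic chain: induction on `n` (generalizing `r' P' h'`); in the step use a frame (`hw.flat`) at the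
scale `max r (r'/2)`. -/
theorem Cls.chain (hw : Cls w) (n : ℕ) (h1 : Flat w x t r 1 P h) (h2 : Flat w x t r' 1 P' h')
    (hr : 0 < r) (hrr : r ≤ r') (hrr' : r' ≤ 2 ^ n * r) :
    ‖P - P'‖ ≤ 5 * (n + 1) ∧ |h - h'| ≤ 41 * (n + 1) := by
  induction n generalizing r' P' h' with
  | zero =>
    have := h1.near h2 hr hrr (by linarith)
    simpa using this
  | succ n ih =>
    have h2n : (1 : ℝ) ≤ 2 ^ n := one_le_pow₀ one_le_two
    have hs : 0 < max r (r' / 2) := lt_max_of_lt_left hr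
    obtain ⟨Q, k, h3⟩ := hw.flat x t _ hs
    obtain ⟨a1, a2⟩ := ih h3 (le_max_left _ _)
      (max_le (le_mul_of_one_le_left hr.le h2n) (by rw [pow_succ] at hrr'; linarith))
    obtain ⟨b1, b2⟩ := h3.near h2 hs (max_le hrr (by linarith))
      (by linarith [le_max_right r (r' / 2)])
    have c1 := norm_sub_le_norm_sub_add_norm_sub P Q P'
    have c2 := abs_sub_le h k h'
    push_cast
    constructor <;> linarith

theorem Flat.frame_at (h1 : Flat w x t r b P h) (y : E) (s : ℝ) (hs : |s - t| ≤ r) :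
    |w y s - w x t - inner ℝ P (y - x) - (h - ‖P‖ ^ 2 / 2) * (s - t)| ≤
      b * r + ‖y - x - (s - t) • P‖ ^ 2 / r := by
  have := h1 (y - x) (s - t) hs
  rwa [add_sub_cancel, add_sub_cancel] at this

/-- Two points, same scale. With `ξ0 = x' - x - (t'-t) • P` and `‖η‖ = r`, compare
`w (x'+η) t' - w x' t'` by `h2` (error `2r`) and as a difference of two increments from `(x,t)` by `h1`
(errors `r + ‖ξ0+η‖²/r ≤ 5r` and `2r`). -/
theorem Flat.two (h1 : Flat w x t r 1 P h) (h2 : Flat w x' t' r 1 P' h') (hr : 0 < r)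
    (ht : |t' - t| ≤ r) (hx : ‖x' - x - (t' - t) • P‖ ≤ r) : ‖P - P'‖ ≤ 9 := by
  refine norm_le_of_inner hr (by norm_num) fun ξ hξ => ?_
  have a1 := abs_le.1 (h1.frame_at (x' + ξ) t' ht)
  have a2 := abs_le.1 (h1.frame_at x' t' ht)
  have a3 := abs_le.1 (h2 ξ 0 (by rw [abs_zero]; exact hr.le))
  rw [zero_smul, sub_zero, hξ, add_zero] at a3
  rw [show x' + ξ - x - (t' - t) • P = x' - x - (t' - t) • P + ξ by abel,
    show x' + ξ - x = x' - x + ξ by abel, inner_add_right] at a1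
  have e1 : r ^ 2 / r = r := by field_simp
  have e2 : ‖x' - x - (t' - t) • P‖ ^ 2 / r ≤ r := by
    rw [div_le_iff₀ hr, ← sq]
    exact pow_le_pow_left₀ (norm_nonneg _) hx 2
  have e3 : ‖x' - x - (t' - t) • P + ξ‖ ^ 2 / r ≤ 4 * r := by
    have := norm_add_le (x' - x - (t' - t) • P) ξ
    rw [div_le_iff₀ hr, show 4 * r * r = (2 * r) ^ 2 by ring]
    exact pow_le_pow_left₀ (norm_nonneg _) (by linarith) 2
  rw [inner_sub_left]
  linarith [a1.1, a2.2, a3.2]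

theorem Flat.frame_two (h1 : Flat w x t (4 * ρ) 1 P h) (hρ : 0 < ρ) (ht : |t' - t| ≤ 3 * ρ) (η : E) :
    -(8 * ρ + (‖x' - x - (t' - t) • P + (η - ρ • P)‖ ^ 2 + ‖x' - x - (t' - t) • P‖ ^ 2) / (4 * ρ)) ≤
      w (x' + η) (t' + ρ) - w x' t' - inner ℝ P η - (h - ‖P‖ ^ 2 / 2) * ρ ∧
    w (x' + η) (t' + ρ) - w x' t' - inner ℝ P η - (h - ‖P‖ ^ 2 / 2) * ρ ≤
      8 * ρ + (‖x' - x - (t' - t) • P + (η - ρ • P)‖ ^ 2 + ‖x' - x - (t' - t) • P‖ ^ 2) / (4 * ρ) := by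
  have ht' := abs_le.1 ht
  have a1 := abs_le.1 (h1.frame_at (x' + η) (t' + ρ) (abs_le.2 ⟨by linarith, by linarith⟩))
  have a2 := abs_le.1 (h1.frame_at x' t' (abs_le.2 ⟨by linarith, by linarith⟩))
  rw [show x' + η - x - (t' + ρ - t) • P = x' - x - (t' - t) • P + (η - ρ • P) by module,
    show x' + η - x = x' - x + η by abel, inner_add_right] at a1
  rw [add_div]
  constructor <;> linarith [a1.1, a1.2, a2.1, a2.2]

/-- Big frame bound. Apply `h1` at `(x' + η - x, t' - t + ρ)` and at `(x' - x, t' - t)`, use `lin_id`.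
With `ξ = η - ρ • P`, `ξ0 = x' - x - (t'-t) • P` the errors are `4ρ + ‖ξ0+ξ‖²/(4ρ)` and
`4ρ + ‖ξ0‖²/(4ρ)`, and `‖ξ0+ξ‖² ≤ 3‖ξ0‖² + 1.5‖ξ‖²`. -/
theorem Flat.big (h1 : Flat w x t (4 * ρ) 1 P h) (hρ : 0 < ρ) (ht : |t' - t| ≤ 3 * ρ)
    (hx : ‖x' - x - (t' - t) • P‖ ≤ ρ) (η : E) :
    w (x' + η) (t' + ρ) - w x' t' - ‖η‖ ^ 2 / (2 * ρ) ≤
      (h + 9) * ρ - ‖η - ρ • P‖ ^ 2 / (8 * ρ) := by
  have a := (h1.frame_two (x' := x') hρ ht η).2
  have e := lin_id P η h ρ hρ.ne'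
  generalize x' - x - (t' - t) • P = ξ₀ at a hx
  generalize η - ρ • P = ξ at a e ⊢
  have e1 : ‖ξ₀ + ξ‖ ^ 2 ≤ (‖ξ₀‖ + ‖ξ‖) ^ 2 :=
    pow_le_pow_left₀ (norm_nonneg _) (norm_add_le _ _) 2
  have e2 : ‖ξ₀‖ ^ 2 ≤ ρ ^ 2 := pow_le_pow_left₀ (norm_nonneg _) hx 2
  have e3 : (‖ξ₀ + ξ‖ ^ 2 + ‖ξ₀‖ ^ 2) / (4 * ρ) ≤ (4 * ρ ^ 2 + 3 / 2 * ‖ξ‖ ^ 2) / (4 * ρ) :=
    div_le_div_of_nonneg_right (by nlinarith [sq_nonneg (2 * ‖ξ₀‖ - ‖ξ‖)]) (by positivity)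
  have e4 : (4 * ρ ^ 2 + 3 / 2 * ‖ξ‖ ^ 2) / (4 * ρ) =
      ρ + ‖ξ‖ ^ 2 / (2 * ρ) - ‖ξ‖ ^ 2 / (8 * ρ) := by
    field_simp
    ring
  linarith

/-- Companion lower bound of `Flat.big` at `η = ρ • P` (errors `8ρ + ‖ξ0‖²/(2ρ)`). -/
theorem Flat.big_low (h1 : Flat w x t (4 * ρ) 1 P h) (hρ : 0 < ρ) (ht : |t' - t| ≤ 3 * ρ)
    (hx : ‖x' - x - (t' - t) • P‖ ≤ ρ) :
    (h - 9) * ρ ≤ w (x' + ρ • P) (t' + ρ) - w x' t' - ‖ρ • P‖ ^ 2 / (2 * ρ) := by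
  have a := (h1.frame_two (x' := x') hρ ht (ρ • P)).1
  have e := lin_id P (ρ • P) h ρ hρ.ne'
  rw [sub_self, add_zero] at a
  rw [sub_self, norm_zero] at e
  generalize x' - x - (t' - t) • P = ξ₀ at a hx
  have e2 : ‖ξ₀‖ ^ 2 ≤ ρ ^ 2 := pow_le_pow_left₀ (norm_nonneg _) hx 2
  have e3 : (‖ξ₀‖ ^ 2 + ‖ξ₀‖ ^ 2) / (4 * ρ) ≤ ρ := by
    rw [div_le_iff₀ (by positivity)]
    nlinarith
  have e4 : (0 : ℝ) ^ 2 / (2 * ρ) = 0 := by simp
  linarith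

theorem mir_mir (w : E → ℝ → ℝ) : mir (mir w) = w := by
  funext x t
  simp only [mir, neg_neg]

/-- Use `h1 η (-τ)`. -/
theorem Flat.mir (h1 : Flat w x t r b P h) : Flat (mir w) x (-t) r b (-P) h := by
  intro η τ hτ
  have := h1 η (-τ) (by rwa [abs_neg])
  rw [← abs_neg] at this
  simp only [R94.mir, neg_neg, neg_add, inner_neg_left, norm_neg, smul_neg, neg_smul] at this ⊢
  convert this using 2
  ring

theorem MP.mir {r ρ : ℝ} (h1 : MP w x t r ρ) : MM (mir w) x (-t) r ρ := by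
  intro η
  obtain ⟨η', h⟩ := h1 η
  refine ⟨η', ?_⟩
  simp only [R94.mir, neg_neg, neg_sub, sub_neg_eq_add, add_comm r, add_comm ρ]
  convert h using 2 <;> ring

theorem MM.mir {r ρ : ℝ} (h1 : MM w x t r ρ) : MP (mir w) x (-t) r ρ := by
  intro η
  obtain ⟨η', h⟩ := h1 η
  refine ⟨η', ?_⟩
  simp only [R94.mir, neg_neg, neg_add, ← sub_eq_add_neg]
  convert h using 2 <;> ring

theorem Cls.mir (hw : Cls w) : Cls (mir w) := by
  refine ⟨fun x t r hr => ?_, fun x t r ρ hr hρ => ?_, fun x t r ρ hr hρ => ?_⟩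
  · obtain ⟨P, h, h1⟩ := hw.flat x (-t) r hr
    exact ⟨-P, h, neg_neg t ▸ h1.mir⟩
  · exact neg_neg t ▸ (hw.mm x (-t) r ρ hr hρ).mir
  · exact neg_neg t ▸ (hw.mp x (-t) r ρ hr hρ).mir

theorem LocCls.mir {M : ℝ} (hw : LocCls w M) : LocCls (mir w) M := by
  intro x t hx ht
  obtain ⟨h1, h2⟩ := hw x (-t) hx (by rwa [abs_neg])
  refine ⟨fun r hr hr' => ?_, fun r ρ hr hρ hρ' => ?_⟩
  · obtain ⟨P, h, h3⟩ := h1 r hr hr'
    exact ⟨-P, h, neg_neg t ▸ h3.mir⟩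
  · obtain ⟨h3, h4⟩ := h2 r ρ hr hρ hρ'
    exact ⟨neg_neg t ▸ h4.mir, neg_neg t ▸ h3.mir⟩

theorem LocCls.mono {M M' : ℝ} (hw : LocCls w M) (hM : M' ≤ M) : LocCls w M' := by
  intro x t hx ht
  obtain ⟨h1, h2⟩ := hw x t (hx.trans hM) (ht.trans hM)
  exact ⟨fun r hr hr' => h1 r hr (hr'.trans hM), fun r ρ hr hρ hρ' => h2 r ρ hr hρ (hρ'.trans hM)⟩

theorem Cls.shift (hw : Cls w) (c : ℝ) : Cls (fun x t => w x (t + c)) := by
  refine ⟨fun x t r hr => ?_, fun x t r ρ hr hρ η => ?_, fun x t r ρ hr hρ η => ?_⟩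
  · obtain ⟨P, h, h1⟩ := hw.flat x (t + c) r hr
    refine ⟨P, h, fun η τ hτ => ?_⟩
    simpa only [add_right_comm t c] using h1 η τ hτ
  · simpa only [add_right_comm t c] using hw.mp x (t + c) r ρ hr hρ η
  · simpa only [add_sub_right_comm t c] using hw.mm x (t + c) r ρ hr hρ η

/-- Continuity at `(x,t)`: for `ε > 0` take a frame at scale `r = ε/2`; then
`|w (x+η) (t+τ) - w x t| ≤ |⟪P,η⟫| + |h - ‖P‖²/2| |τ| + r + ‖η - τ•P‖²/r` for `|τ| ≤ r`, and the right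
side minus `r` is a continuous function of `(η,τ)` vanishing at `0`. -/
theorem Cls.cont (hw : Cls w) : Continuous fun z : E × ℝ => w z.1 z.2 := by
  refine continuous_iff_continuousAt.2 fun ⟨x, t⟩ => Metric.continuousAt_iff'.2 fun ε hε => ?_
  obtain ⟨P, h, h1⟩ := hw.flat x t (ε / 2) (by positivity)
  have hg : Continuous fun z : E × ℝ => |inner ℝ P (z.1 - x) + (h - ‖P‖ ^ 2 / 2) * (z.2 - t)| +
      ‖z.1 - x - (z.2 - t) • P‖ ^ 2 / (ε / 2) := by fun_prop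
  have hg' : Continuous fun z : E × ℝ => |z.2 - t| := by fun_prop
  filter_upwards [(hg.continuousAt (x := (x, t))).eventually_lt_const (u := ε / 2) (by simpa using hε),
    (hg'.continuousAt (x := (x, t))).eventually_lt_const (u := ε / 2) (by simpa using hε)] with z a1 a2
  have a3 := abs_le.1 (h1.frame_at z.1 z.2 a2.le)
  have a4 := le_abs_self (inner ℝ P (z.1 - x) + (h - ‖P‖ ^ 2 / 2) * (z.2 - t))
  have a5 := neg_abs_le (inner ℝ P (z.1 - x) + (h - ‖P‖ ^ 2 / 2) * (z.2 - t))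
  rw [Real.dist_eq, abs_lt]
  constructor <;> linarith [a3.1, a3.2]

end Crest.Agent.R94
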