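import Crest.Agent.R94.Imp2

/-! # Row 94: Galilean rescaling, and geometric decay of the flatness -/

set_option autoImplicit false

namespace Crest.Agent.R94

variable {E : Type*} [NormedAddCommGroup E] [InnerProductSpace ℝ E]

/-- Rescaling in the frame `(P,h)` at `(x,t)`: time unit `r`, horizontal unit `a r`, value unit `a² r`. -/
noncomputable def gal (w : E → ℝ → ℝ) (x : E) (t r a : ℝ) (P : E) (h : ℝ) : E → ℝ → ℝ :=
  fun ξ τ => (w (x + (a * r) • ξ + (r * τ) • P) (t + r * τ) - w x t - a * r * inner ℝ P ξ -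
    (h + ‖P‖ ^ 2 / 2) * (r * τ)) / (a ^ 2 * r)

variable {w : E → ℝ → ℝ} {x P : E} {t r a h : ℝ}

theorem Gal_diff (ξ η : E) (τ σ : ℝ) :
    gal w x t r a P h (ξ + η) (τ + σ) - gal w x t r a P h ξ τ =
      (w (x + (a * r) • ξ + (r * τ) • P + ((a * r) • η + (r * σ) • P)) (t + r * τ + r * σ)
        - w (x + (a * r) • ξ + (r * τ) • P) (t + r * τ) - a * r * inner ℝ P η
        - (h + ‖P‖ ^ 2 / 2) * (r * σ)) / (a ^ 2 * r) := by
  have e1 : x + (a * r) • (ξ + η) + (r * (τ + σ)) • P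
      = x + (a * r) • ξ + (r * τ) • P + ((a * r) • η + (r * σ) • P) := by
    rw [smul_add, mul_add, add_smul]; abel
  have e2 : t + r * (τ + σ) = t + r * τ + r * σ := by ring
  simp only [gal, e1, e2, inner_add_right]
  ring

theorem Gal_surj (hr : 0 < r) (ha : 0 < a) (P ζ : E) (c : ℝ) : ∃ η : E, ζ = (a * r) • η + c • P := by
  refine ⟨(a * r)⁻¹ • (ζ - c • P), ?_⟩
  rw [smul_smul, mul_inv_cancel₀ (mul_pos ha hr).ne', one_smul]
  abel

theorem Gal_norm (P η : E) (c d : ℝ) :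
    ‖c • η + d • P‖ ^ 2 = c ^ 2 * ‖η‖ ^ 2 + 2 * c * d * inner ℝ P η + d ^ 2 * ‖P‖ ^ 2 := by
  rw [norm_add_sq_real, norm_smul, norm_smul, inner_smul_left, inner_smul_right, real_inner_comm P η,
    mul_pow, mul_pow, Real.norm_eq_abs, Real.norm_eq_abs, sq_abs, sq_abs]
  simp only [conj_trivial]
  ring

theorem Gal_pt (hr : 0 < r) (ha : 0 < a) (ξ : E) (τ : ℝ) {r' : ℝ} (hr' : 0 < r') (b g : ℝ) (Q η : E)
    (σ : ℝ) :
    |gal w x t r a P h (ξ + η) (τ + σ) - gal w x t r a P h ξ τ - inner ℝ Q η - (g - ‖Q‖ ^ 2 / 2) * σ|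
        ≤ b * r' + ‖η - σ • Q‖ ^ 2 / r' ↔
      |w (x + (a * r) • ξ + (r * τ) • P + ((a * r) • η + (r * σ) • P)) (t + r * τ + r * σ)
        - w (x + (a * r) • ξ + (r * τ) • P) (t + r * τ)
        - inner ℝ (P + a • Q) ((a * r) • η + (r * σ) • P)
        - (h + a ^ 2 * g - ‖P + a • Q‖ ^ 2 / 2) * (r * σ)|
        ≤ a ^ 2 * b * (r * r') + ‖(a * r) • η + (r * σ) • P - (r * σ) • (P + a • Q)‖ ^ 2 / (r * r') := by
  have hpos : 0 < a ^ 2 * r := by positivity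
  have e0 : (a * r) • η + (r * σ) • P - (r * σ) • (P + a • Q) = (a * r) • (η - σ • Q) := by
    rw [smul_add, smul_sub, smul_smul, smul_smul, show r * σ * a = a * r * σ by ring]; abel
  have e1 : ‖P + a • Q‖ ^ 2 = ‖P‖ ^ 2 + 2 * a * inner ℝ P Q + a ^ 2 * ‖Q‖ ^ 2 := by
    have := Gal_norm P Q a 1
    rw [one_smul, add_comm] at this
    rw [this]; ring
  have e2 : inner ℝ (P + a • Q) ((a * r) • η + (r * σ) • P)
      = a * r * inner ℝ P η + r * σ * ‖P‖ ^ 2 + a * (a * r) * inner ℝ Q η + a * (r * σ) * inner ℝ P Q := by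
    simp only [inner_add_left, inner_add_right, inner_smul_left, inner_smul_right, conj_trivial,
      real_inner_self_eq_norm_sq, real_inner_comm P Q]
    ring
  rw [Gal_diff, e0, e1, e2, norm_smul, Real.norm_eq_abs, abs_of_pos (mul_pos ha hr)]
  generalize w (x + (a * r) • ξ + (r * τ) • P + ((a * r) • η + (r * σ) • P)) (t + r * τ + r * σ) = A
  generalize w (x + (a * r) • ξ + (r * τ) • P) (t + r * τ) = B
  generalize inner ℝ P η = p1
  generalize inner ℝ Q η = p2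
  generalize inner ℝ P Q = p3
  generalize ‖η - σ • Q‖ = n
  have f1 : A - B - (a * r * p1 + r * σ * ‖P‖ ^ 2 + a * (a * r) * p2 + a * (r * σ) * p3)
      - (h + a ^ 2 * g - (‖P‖ ^ 2 + 2 * a * p3 + a ^ 2 * ‖Q‖ ^ 2) / 2) * (r * σ)
      = a ^ 2 * r * ((A - B - a * r * p1 - (h + ‖P‖ ^ 2 / 2) * (r * σ)) / (a ^ 2 * r) - p2
        - (g - ‖Q‖ ^ 2 / 2) * σ) := by
    field_simp
    ring
  have f2 : a ^ 2 * b * (r * r') + (a * r * n) ^ 2 / (r * r') = a ^ 2 * r * (b * r' + n ^ 2 / r') := by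
    field_simp
  rw [f1, f2, abs_mul, abs_of_pos hpos, mul_le_mul_iff_right₀ hpos]

theorem Gal_iff (hr : 0 < r) (ha : 0 < a) (ξ : E) (τ : ℝ) {r' : ℝ} (hr' : 0 < r') (b g : ℝ) (Q : E) :
    Flat (gal w x t r a P h) ξ τ r' b Q g ↔
      Flat w (x + (a * r) • ξ + (r * τ) • P) (t + r * τ) (r * r') (a ^ 2 * b) (P + a • Q)
        (h + a ^ 2 * g) := by
  constructor
  · intro H ζ s hs
    obtain ⟨σ, rfl⟩ : ∃ σ, s = r * σ := ⟨s / r, by field_simp⟩
    obtain ⟨η, rfl⟩ := Gal_surj hr ha P ζ (r * σ)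
    rw [abs_mul, abs_of_pos hr, mul_le_mul_iff_right₀ hr] at hs
    exact (Gal_pt hr ha ξ τ hr' b g Q η σ).1 (H η σ hs)
  · intro H η σ hs
    refine (Gal_pt hr ha ξ τ hr' b g Q η σ).2 (H _ _ ?_)
    rw [abs_mul, abs_of_pos hr]
    exact mul_le_mul_of_nonneg_left hs hr.le

theorem Gal_qp (hr : 0 < r) (ha : 0 < a) (ξ η : E) (τ : ℝ) {s : ℝ} (hs : 0 < s) :
    (gal w x t r a P h (ξ + η) (τ + s) - gal w x t r a P h ξ τ - ‖η‖ ^ 2 / (2 * s)) / s =
      ((w (x + (a * r) • ξ + (r * τ) • P + ((a * r) • η + (r * s) • P)) (t + r * τ + r * s)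
        - w (x + (a * r) • ξ + (r * τ) • P) (t + r * τ)
        - ‖(a * r) • η + (r * s) • P‖ ^ 2 / (2 * (r * s))) / (r * s) - h) / a ^ 2 := by
  rw [Gal_diff, Gal_norm]
  field_simp
  ring

theorem Gal_qm (hr : 0 < r) (ha : 0 < a) (ξ η : E) (τ : ℝ) {s : ℝ} (hs : 0 < s) :
    (gal w x t r a P h ξ τ - gal w x t r a P h (ξ + η) (τ - s) - ‖η‖ ^ 2 / (2 * s)) / s =
      ((w (x + (a * r) • ξ + (r * τ) • P) (t + r * τ)
        - w (x + (a * r) • ξ + (r * τ) • P + ((a * r) • η + (r * -s) • P)) (t + r * τ - r * s)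
        - ‖(a * r) • η + (r * -s) • P‖ ^ 2 / (2 * (r * s))) / (r * s) - h) / a ^ 2 := by
  rw [← neg_sub (gal w x t r a P h (ξ + η) (τ - s)), sub_eq_add_neg τ s, Gal_diff, Gal_norm,
    show t + r * τ + r * -s = t + r * τ - r * s by ring]
  field_simp
  ring

/-- Displacement `η̃ = (a r)•η + (r τ)•P`, `τ̃ = r τ`; `η̃ - τ̃•P' = (a r)•(η - τ•Q)`, `Q = a⁻¹•(P' - P)`.
The two `Flat` inequalities differ by the factor `a² r`; `(η,τ) ↦ (η̃,τ̃)` is a bijection. -/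
theorem flat_gal_iff (hr : 0 < r) (ha : 0 < a) (ξ : E) (τ : ℝ) {r' b h' : ℝ} (hr' : 0 < r') (P' : E) :
    Flat (gal w x t r a P h) ξ τ r' b (a⁻¹ • (P' - P)) ((h' - h) / a ^ 2) ↔
      Flat w (x + (a * r) • ξ + (r * τ) • P) (t + r * τ) (r * r') (a ^ 2 * b) P' h' := by
  rw [Gal_iff hr ha ξ τ hr', smul_smul, mul_inv_cancel₀ ha.ne', one_smul, add_sub_cancel,
    show h + a ^ 2 * ((h' - h) / a ^ 2) = h' by field_simp; ring]

/-- With `η̃ = (a r)•η + (r s)•P` the quotient of `gal` at scale `s` is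
`(quotient of w at scale r s, displacement η̃) - h) / a²`. -/
theorem mp_gal (hr : 0 < r) (ha : 0 < a) (ξ : E) (τ : ℝ) {r1 r2 : ℝ} (h1 : 0 < r1) (h2 : 0 < r2)
    (hM : MP w (x + (a * r) • ξ + (r * τ) • P) (t + r * τ) (r * r1) (r * r2)) :
    MP (gal w x t r a P h) ξ τ r1 r2 := by
  intro η
  obtain ⟨ζ, hζ⟩ := hM ((a * r) • η + (r * r1) • P)
  obtain ⟨η', rfl⟩ := Gal_surj hr ha P ζ (r * r2)
  refine ⟨η', ?_⟩
  rw [Gal_qp hr ha ξ η τ h1, Gal_qp hr ha ξ η' τ h2]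
  exact div_le_div_of_nonneg_right (sub_le_sub_right hζ h) (by positivity)

/-- As `mp_gal`, with `η̃ = (a r)•η - (r s)•P`. -/
theorem mm_gal (hr : 0 < r) (ha : 0 < a) (ξ : E) (τ : ℝ) {r1 r2 : ℝ} (h1 : 0 < r1) (h2 : 0 < r2)
    (hM : MM w (x + (a * r) • ξ + (r * τ) • P) (t + r * τ) (r * r1) (r * r2)) :
    MM (gal w x t r a P h) ξ τ r1 r2 := by
  intro η
  obtain ⟨ζ, hζ⟩ := hM ((a * r) • η + (r * -r1) • P)
  obtain ⟨η', rfl⟩ := Gal_surj hr ha P ζ (r * -r2)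
  refine ⟨η', ?_⟩
  rw [Gal_qm hr ha ξ η τ h1, Gal_qm hr ha ξ η' τ h2]
  exact div_le_div_of_nonneg_right (sub_le_sub_right hζ h) (by positivity)

/-- Apply `imp` to `gal w x t r (√b) P h`, using `flat_gal_iff` in both directions (every frame `(Q,g)` of
`gal` is of the form `(a⁻¹•(P'-P), (h'-h)/a²)` with `P' = P + a•Q`, `h' = h + a² g`). -/
theorem imp_gen [FiniteDimensional ℝ E] : ∃ M : ℝ, 2 ≤ M ∧
    ∀ (w : E → ℝ → ℝ) (x : E) (t r b : ℝ) (P : E) (h : ℝ), 0 < r → 0 < b → Flat w x t r b P h →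
      (∀ (x' : E) (t' : ℝ), ‖x' - x - (t' - t) • P‖ ≤ √b * (M * r) → |t' - t| ≤ M * r →
        (∀ r', 0 < r' → r' ≤ M * r → ∃ P' h', Flat w x' t' r' b P' h') ∧
        (∀ r1 r2, 0 < r1 → r1 < r2 → r2 ≤ M * r → MP w x' t' r1 r2 ∧ MM w x' t' r1 r2)) →
      ∃ P' h', Flat w x t r (b / 2) P' h' := by
  obtain ⟨M, hM, H⟩ := imp (E := E)
  refine ⟨M, hM, fun w x t r b P h hr hb hF hloc => ?_⟩
  have ha : 0 < √b := Real.sqrt_pos.2 hb
  have ha2 : √b ^ 2 = b := Real.sq_sqrt hb.le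
  have h1 : LocCls (gal w x t r (√b) P h) M := by
    intro ξ τ hξ hτ
    obtain ⟨k1, k2⟩ := hloc (x + (√b * r) • ξ + (r * τ) • P) (t + r * τ) (by
      rw [show x + (√b * r) • ξ + (r * τ) • P - x - (t + r * τ - t) • P = (√b * r) • ξ by
        rw [add_sub_cancel_left]; abel, norm_smul, Real.norm_eq_abs, abs_of_pos (mul_pos ha hr)]
      calc √b * r * ‖ξ‖ ≤ √b * r * M := mul_le_mul_of_nonneg_left hξ (mul_pos ha hr).le
        _ = √b * (M * r) := by ring) (by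
      rw [add_sub_cancel_left, abs_mul, abs_of_pos hr, mul_comm]
      exact mul_le_mul_of_nonneg_right hτ hr.le)
    constructor
    · intro r' hr' hr'M
      obtain ⟨P', h', hF'⟩ := k1 (r * r') (mul_pos hr hr') (by
        rw [mul_comm]; exact mul_le_mul_of_nonneg_right hr'M hr.le)
      refine ⟨_, _, (flat_gal_iff (h' := h') hr ha ξ τ hr' P').2 ?_⟩
      rwa [ha2, mul_one]
    · intro r1 r2 h1 h12 h2
      obtain ⟨m1, m2⟩ := k2 (r * r1) (r * r2) (mul_pos hr h1) (mul_lt_mul_of_pos_left h12 hr) (by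
        rw [mul_comm]; exact mul_le_mul_of_nonneg_right h2 hr.le)
      exact ⟨mp_gal hr ha ξ τ h1 (h1.trans h12) m1, mm_gal hr ha ξ τ h1 (h1.trans h12) m2⟩
  have h2 : Flat (gal w x t r (√b) P h) 0 0 1 1 0 0 := by
    rw [Gal_iff hr ha 0 0 one_pos]
    simpa [ha2] using hF
  obtain ⟨Q, g, h3⟩ := H _ h1 h2 (by simp [gal])
  rw [Gal_iff hr ha 0 0 one_pos] at h3
  refine ⟨P + √b • Q, h + b * g, ?_⟩
  simpa [ha2, div_eq_mul_inv] using h3

/-- `M` from `imp_gen`, `w = fun y _ => v y`. Induction on `j` on the statement: for all `x` with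
`‖x‖ ≤ 1/2 + (1/8)/M^j`, all `t` and `0 < r ≤ (1/80)/M^j` there is a frame with `b = (1/2)^j`.
`j = 0`: frame `(0,0)`, `2‖η‖ ≤ r + ‖η‖²/r`. Step: a frame `(P,h)` with `b ≤ 1` has `‖P‖ ≤ 4` (`τ = 0`,
`‖η‖ = r`, Lipschitz bound, `norm_le_of_inner`), so the points `x'` of `imp_gen` have
`‖x' - x‖ ≤ 5 M r ≤ (1/16)/M^j ≤ (1/8)/M^j - (1/8)/M^(j+1)`. Finally take `τ = 0`. -/
theorem decay [FiniteDimensional ℝ E] : ∃ M : ℝ, 2 ≤ M ∧ ∀ v : E → ℝ, LipschitzWith 2 v →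
    (∀ x : E, ‖x‖ ≤ 5 / 8 → ∀ t r ρ : ℝ, 0 < r → r < ρ → ρ ≤ 1 / 80 →
      MP (fun y _ => v y) x t r ρ ∧ MM (fun y _ => v y) x t r ρ) →
    ∀ (j : ℕ) (x : E), ‖x‖ ≤ 1 / 2 → ∃ P : E, ∀ η : E,
      |v (x + η) - v x - inner ℝ P η| ≤ (1 / 2) ^ j * (1 / 80 / M ^ j) + ‖η‖ ^ 2 / (1 / 80 / M ^ j) := by
  obtain ⟨M, hM, H⟩ := imp_gen (E := E)
  refine ⟨M, hM, fun v hv hm => ?_⟩
  have hM0 : 0 < M := by linarith
  have hlip : ∀ x η : E, |v (x + η) - v x| ≤ 2 * ‖η‖ := by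
    intro x η
    have := hv.dist_le_mul (x + η) x
    rw [Real.dist_eq, dist_eq_norm, add_sub_cancel_left] at this
    exact_mod_cast this
  have main : ∀ (j : ℕ) (x : E), ‖x‖ ≤ 1 / 2 + 1 / 8 / M ^ j → ∀ t r : ℝ, 0 < r → r ≤ 1 / 80 / M ^ j →
      ∃ P h, Flat (fun y (_ : ℝ) => v y) x t r ((1 / 2) ^ j) P h := by
    intro j
    induction j with
    | zero =>
      intro x _ t r hr _
      refine ⟨0, 0, fun η τ _ => ?_⟩
      have h1 := hlip x η
      have h2 : 2 * ‖η‖ ≤ r + ‖η‖ ^ 2 / r := by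
        rw [← sub_le_iff_le_add', le_div_iff₀ hr]
        nlinarith [sq_nonneg (‖η‖ - r)]
      simpa using h1.trans h2
    | succ j ih =>
      intro x hx t r hr hrj
      have hMj : 1 ≤ M ^ j := one_le_pow₀ (by linarith)
      have hMj0 : 0 < M ^ j := by positivity
      set u : ℝ := 1 / M ^ j with hu
      have hu0 : 0 < u := by positivity
      have hu1 : u ≤ 1 := by rw [hu, div_le_one hMj0]; exact hMj
      have e1 : 1 / 8 / M ^ j = u / 8 := by rw [hu]; ring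
      have e2 : 1 / 80 / M ^ j = u / 80 := by rw [hu]; ring
      rw [e1, e2] at ih
      have hMr : M * r ≤ u / 80 := by
        have : 1 / 80 / M ^ (j + 1) = u / 80 / M := by rw [hu, pow_succ]; field_simp
        rw [this, le_div_iff₀ hM0] at hrj
        linarith
      have hx' : ‖x‖ ≤ 1 / 2 + u / 16 := by
        have : 1 / 8 / M ^ (j + 1) = u / 8 / M := by rw [hu, pow_succ]; field_simp
        rw [this] at hx
        have : u / 8 / M ≤ u / 16 := by rw [div_le_iff₀ hM0]; nlinarith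
        linarith
      have hb0 : (0 : ℝ) < (1 / 2) ^ j := by positivity
      have hb1 : ((1 / 2 : ℝ)) ^ j ≤ 1 := pow_le_one₀ (by norm_num) (by norm_num)
      obtain ⟨P, h, hF⟩ := ih x (by linarith) t r hr (by nlinarith)
      have hP : ‖P‖ ≤ 4 := by
        refine norm_le_of_inner hr (by norm_num) fun ξ hξ => ?_
        have h1 := hF ξ 0 (by simpa using hr.le)
        simp only [mul_zero, sub_zero, zero_smul, hξ] at h1
        have h2 := hlip x ξ
        rw [hξ] at h2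
        have h3 : r ^ 2 / r = r := by field_simp
        rw [h3] at h1
        have h4 := (abs_le.1 h1).1
        have h5 := (abs_le.1 h2).2
        nlinarith
      obtain ⟨P', h', hF'⟩ := H _ x t r _ P h hr hb0 hF (fun x' t' hx1 ht1 => by
        have hs : √((1 / 2 : ℝ) ^ j) ≤ 1 := Real.sqrt_le_one.2 hb1
        have hMr0 : 0 < M * r := mul_pos hM0 hr
        have k1 : ‖x' - x - (t' - t) • P‖ ≤ M * r := hx1.trans (by nlinarith)
        have k2 : ‖(t' - t) • P‖ ≤ M * r * 4 := by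
          rw [norm_smul, Real.norm_eq_abs]
          exact mul_le_mul ht1 hP (norm_nonneg _) hMr0.le
        have k3 : ‖x'‖ ≤ 1 / 2 + u / 8 := by
          have : x' = x + (x' - x - (t' - t) • P) + (t' - t) • P := by abel
          have k4 : ‖x'‖ ≤ ‖x‖ + ‖x' - x - (t' - t) • P‖ + ‖(t' - t) • P‖ := by
            conv_lhs => rw [this]
            exact norm_add₃_le
          linarith
        exact ⟨fun r' hr' hr'M => ih x' k3 t' r' hr' (hr'M.trans hMr),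
          fun r1 r2 h1 h12 h2 => hm x' (by linarith) t' r1 r2 h1 h12 (by linarith)⟩)
      refine ⟨P', h', ?_⟩
      rwa [pow_succ, mul_one_div]
  intro j x hx
  have hpos : 0 < 1 / 80 / M ^ j := by positivity
  have hpos' : 0 ≤ 1 / 8 / M ^ j := by positivity
  obtain ⟨P, h, hF⟩ := main j x (by linarith) 0 _ hpos le_rfl
  refine ⟨P, fun η => ?_⟩
  have h1 := hF η 0 (by rw [abs_zero]; exact hpos.le)
  simpa only [mul_zero, sub_zero, zero_smul] using h1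

end Crest.Agent.R94
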