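import Crest.Agent.R94.Frame

/-! # Row 94: API of the Hopf-Lax operators `Tup`, `Tlo` and slopes `Sp`, `Sm` -/

set_option autoImplicit false

namespace Crest.Agent.R94

variable {E : Type*} [NormedAddCommGroup E] [InnerProductSpace ℝ E]
variable {w : E → ℝ → ℝ} {x x' P : E} {t t' r h ρ κ : ℝ}

/-- `ciSup_le`. -/
theorem Tup_le {c : ℝ} (hc : ∀ η : E, w (x + η) (t + r) - ‖η‖ ^ 2 / (2 * r) ≤ c) :
    Tup w r x t ≤ c := by
  exact ciSup_le hc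

/-- `le_ciInf`. -/
theorem le_Tlo {c : ℝ} (hc : ∀ η : E, c ≤ w (x + η) (t - r) + ‖η‖ ^ 2 / (2 * r)) :
    c ≤ Tlo w r x t := by
  exact le_ciInf hc

/-- In `ℝ`, `sInf s = - sSup (-s)` unconditionally (`Real.sInf_def`, `Real.sSup_neg`, or `Real.iSup_neg`-like
lemmas); rewrite the ranges with `Set.range`/`Set.neg_range`. -/
theorem Tup_mir (w : E → ℝ → ℝ) (r : ℝ) (x : E) (t : ℝ) :
    Tup (mir w) r x (-t) = -Tlo w r x t := by
  rw [Tup, Tlo, iSup, iInf, ← Real.sSup_neg, Set.neg_range]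
  congr 2
  funext η
  rw [mir, show -(-t + r) = t - r by ring]
  ring

theorem Tlo_mir (w : E → ℝ → ℝ) (r : ℝ) (x : E) (t : ℝ) :
    Tlo (mir w) r x (-t) = -Tup w r x t := by
  have := Tup_mir (mir w) r x (-t)
  rw [mir_mir, neg_neg] at this
  rw [this, neg_neg]

theorem Sp_mir (w : E → ℝ → ℝ) (r : ℝ) (x : E) (t : ℝ) : Sp (mir w) r x (-t) = Sm w r x t := by
  rw [Sp, Sm, Tup_mir, mir, neg_neg]
  ring

theorem Sm_mir (w : E → ℝ → ℝ) (r : ℝ) (x : E) (t : ℝ) : Sm (mir w) r x (-t) = Sp w r x t := by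
  rw [Sp, Sm, Tlo_mir, mir, neg_neg]
  ring

theorem Tup_eq (w : E → ℝ → ℝ) (hr : 0 < r) (x : E) (t : ℝ) :
    Tup w r x t = w x t + r * Sp w r x t := by
  rw [Sp, mul_div_cancel₀ _ hr.ne']
  ring

theorem Tlo_eq (w : E → ℝ → ℝ) (hr : 0 < r) (x : E) (t : ℝ) :
    Tlo w r x t = w x t - r * Sm w r x t := by
  rw [Sm, mul_div_cancel₀ _ hr.ne']
  ring

/-- `le_ciSup` with `η = x' - x`; bounded above by `Flat.big` (frame at scale `4 r`, `x' := x`). -/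
theorem Cls.le_Tup (hw : Cls w) (hr : 0 < r) (x : E) (t : ℝ) (x' : E) {t' : ℝ} (ht : t' = t + r) :
    w x' t' - ‖x' - x‖ ^ 2 / (2 * r) ≤ Tup w r x t := by
  obtain ⟨P, h, hF⟩ := hw.flat x t (4 * r) (by positivity)
  have hb : BddAbove (Set.range fun η : E => w (x + η) (t + r) - ‖η‖ ^ 2 / (2 * r)) := by
    refine ⟨w x t + (h + 9) * r, ?_⟩
    rintro _ ⟨η, rfl⟩
    have h1 := hF.big (x' := x) (t' := t) hr (by simp; positivity) (by simp; positivity) η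
    have h2 : 0 ≤ ‖η - r • P‖ ^ 2 / (8 * r) := by positivity
    dsimp only
    linarith
  have := le_ciSup hb (x' - x)
  rw [add_sub_cancel] at this
  rw [ht]
  exact this

/-- Mirror of `Cls.le_Tup`. -/
theorem Cls.Tlo_le (hw : Cls w) (hr : 0 < r) (x : E) (t : ℝ) (x' : E) {t' : ℝ} (ht : t' = t - r) :
    Tlo w r x t ≤ w x' t' + ‖x' - x‖ ^ 2 / (2 * r) := by
  have := hw.mir.le_Tup hr x (-t) x' (t' := -t') (by rw [ht]; ring)
  rw [Tup_mir, R94.mir, neg_neg] at this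
  linarith

theorem Cls.le_Tup_vel (hw : Cls w) (hr : 0 < r) (x : E) (t : ℝ) (p : E) :
    w (x + r • p) (t + r) - r * ‖p‖ ^ 2 / 2 ≤ Tup w r x t := by
  have := hw.le_Tup hr x t (x + r • p) rfl
  rw [add_sub_cancel_left, norm_smul, Real.norm_of_nonneg hr.le] at this
  have e : (r * ‖p‖) ^ 2 / (2 * r) = r * ‖p‖ ^ 2 / 2 := by field_simp
  rwa [e] at this

theorem Cls.Tlo_le_vel (hw : Cls w) (hr : 0 < r) (x : E) (t : ℝ) (p : E) :
    Tlo w r x t ≤ w (x - r • p) (t - r) + r * ‖p‖ ^ 2 / 2 := by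
  have := hw.Tlo_le hr x t (x - r • p) rfl
  rw [sub_sub_cancel_left, norm_neg, norm_smul, Real.norm_of_nonneg hr.le] at this
  have e : (r * ‖p‖) ^ 2 / (2 * r) = r * ‖p‖ ^ 2 / 2 := by field_simp
  rwa [e] at this

/-- From `hw.mp`, `Tup_le`, `Cls.le_Tup`. -/
theorem Cls.Sp_mono (hw : Cls w) (hr : 0 < r) (hρ : r ≤ ρ) (x : E) (t : ℝ) :
    Sp w r x t ≤ Sp w ρ x t := by
  rcases hρ.eq_or_lt with rfl | hlt
  · exact le_rfl
  have hρ0 : 0 < ρ := hr.trans hlt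
  have h1 : Tup w r x t ≤ w x t + r * Sp w ρ x t := Tup_le fun η => by
    obtain ⟨η', h2⟩ := hw.mp x t r ρ hr hlt η
    have h3 := hw.le_Tup hρ0 x t (x + η') rfl
    rw [add_sub_cancel_left] at h3
    have h4 : (w (x + η') (t + ρ) - w x t - ‖η'‖ ^ 2 / (2 * ρ)) / ρ ≤ Sp w ρ x t :=
      div_le_div_of_nonneg_right (by linarith) hρ0.le
    have h5 := (div_le_iff₀' hr).1 (h2.trans h4)
    linarith
  rw [Sp, div_le_iff₀' hr]
  linarith

theorem Cls.Sm_mono (hw : Cls w) (hr : 0 < r) (hρ : r ≤ ρ) (x : E) (t : ℝ) :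
    Sm w r x t ≤ Sm w ρ x t := by
  rw [← Sp_mir, ← Sp_mir]
  exact hw.mir.Sp_mono hr hρ x (-t)

theorem Cls.reg_mono {H : ℝ} (hw : Cls w) (hr : 0 < r) (hρ : r ≤ ρ) (h1 : Reg w ρ H x t) :
    Reg w r H x t := by
  exact ⟨(hw.Sp_mono hr hρ x t).trans h1.1, (hw.Sm_mono hr hρ x t).trans h1.2⟩

theorem HL_Sp_big (hF : Flat w x t (4 * ρ) 1 P h) (hρ : 0 < ρ) (ht : |t' - t| ≤ 3 * ρ)
    (hx : ‖x' - x - (t' - t) • P‖ ≤ ρ) : Sp w ρ x' t' ≤ h + 9 := by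
  have h1 : Tup w ρ x' t' ≤ w x' t' + (h + 9) * ρ := Tup_le fun η => by
    have h1 := hF.big hρ ht hx η
    have h2 : 0 ≤ ‖η - ρ • P‖ ^ 2 / (8 * ρ) := by positivity
    linarith
  rw [Sp, div_le_iff₀ hρ]
  linarith

/-- `Flat.big` for `w`, and for `mir w` with `Flat.mir` (frame `-P`, times `-t`, `-t'`). -/
theorem reg_big (hF : Flat w x t (4 * ρ) 1 P h) (hρ : 0 < ρ) (ht : |t' - t| ≤ 3 * ρ)
    (hx : ‖x' - x - (t' - t) • P‖ ≤ ρ) : Reg w ρ (h + 9) x' t' := by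
  refine ⟨HL_Sp_big hF hρ ht hx, ?_⟩
  rw [← Sp_mir]
  refine HL_Sp_big hF.mir hρ ?_ ?_
  · rwa [← neg_sub', abs_neg]
  · rwa [← neg_sub', neg_smul_neg]

/-- Test `η = r • P`, `τ = r`. -/
theorem Cls.Sp_ge (hw : Cls w) (hr : 0 < r) (hF : Flat w x t r 1 P h) : h - 1 ≤ Sp w r x t := by
  have h1 := (abs_le.1 (hF (r • P) r (abs_of_pos hr).le)).1
  have h2 := hw.le_Tup_vel hr x t P
  rw [sub_self, norm_zero, inner_smul_right, real_inner_self_eq_norm_sq] at h1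
  rw [Sp, le_div_iff₀ hr]
  have : (0 : ℝ) ^ 2 / r = 0 := by simp
  linarith

/-- Test the point `x + ξ + κ • P` at time `t + κ` (`η = ξ + κ • P`, `τ = κ`). -/
theorem Cls.Tup_ge (hw : Cls w) (hF : Flat w x t r 1 P h) (hκ : 0 < κ) (hκr : κ ≤ r) (ξ : E) :
    w x t + inner ℝ P ξ + κ * h - r - ‖ξ‖ ^ 2 / r ≤ Tup w κ (x + ξ) t := by
  have h1 := (abs_le.1 (hF (ξ + κ • P) κ ((abs_of_pos hκ).trans_le hκr))).1
  have h2 := hw.le_Tup_vel hκ (x + ξ) t P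
  rw [add_sub_cancel_right, inner_add_right, inner_smul_right, real_inner_self_eq_norm_sq,
    ← add_assoc] at h1
  linarith

/-- `Sp w κ ≤ Sp w (r/2) ≤ h + 2`, the latter from `hF η (r/2)` and `lin_id` (the quadratic terms cancel). -/
theorem Cls.Tup_le_frame (hw : Cls w) (hF : Flat w x t r 1 P h) (hκ : 0 < κ) (hκr : 2 * κ ≤ r) :
    Tup w κ x t ≤ w x t + κ * (h + 2) := by
  have hr : 0 < r / 2 := by linarith
  have h1 : Tup w (r / 2) x t ≤ w x t + r / 2 * (h + 2) := Tup_le fun η => by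
    have h2 := (abs_le.1 (hF η (r / 2) ((abs_of_pos hr).trans_le (by linarith)))).2
    have h3 := lin_id P η h (r / 2) hr.ne'
    rw [show 2 * (r / 2) = r by ring] at h3 ⊢
    linarith
  have h2 : Sp w (r / 2) x t ≤ h + 2 := by
    rw [Sp, div_le_iff₀' hr]
    linarith
  rw [Tup_eq w hκ]
  have := mul_le_mul_of_nonneg_left ((hw.Sp_mono hκ (by linarith) x t).trans h2) hκ.le
  linarith

end Crest.Agent.R94
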