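import Crest.Agent.R94.HL

/-! # Row 94: maximisers, continuity of `Tup`, increasing slope estimate -/

set_option autoImplicit false

namespace Crest.Agent.R94

variable {E : Type*} [NormedAddCommGroup E] [InnerProductSpace ℝ E] [FiniteDimensional ℝ E]
variable {w : E → ℝ → ℝ} {x P p : E} {t r h κ : ℝ}

omit [FiniteDimensional ℝ E] in
theorem HL2_contF (hw : Cls w) (r : ℝ) :
    Continuous fun q : (E × ℝ) × E => w (q.1.1 + q.2) (q.1.2 + r) - ‖q.2‖ ^ 2 / (2 * r) := by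
  have h1 : Continuous fun q : (E × ℝ) × E => ((q.1.1 + q.2, q.1.2 + r) : E × ℝ) := by fun_prop
  have h2 := hw.cont.comp h1
  have h3 : Continuous fun q : (E × ℝ) × E => ‖q.2‖ ^ 2 / (2 * r) := by fun_prop
  exact h2.sub h3

/-- By `hF η r` and `lin_id`, `F η := w (x+η) (t+r) - ‖η‖²/(2r)` satisfies
`F η ≤ w x t + h r + 4 r - ‖η - r•P‖²/(4r)` and `F (r•P) ≥ w x t + h r - 4 r`. Maximise the continuous `F`
(`Cls.cont`) on the compact `closedBall (r•P) (6r)`; outside the ball `F < F (r•P)` since `36/4 > 8`.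
Take `p = r⁻¹ • η`. -/
theorem Cls.exists_max (hw : Cls w) (hr : 0 < r) (hF : Flat w x t (4 * r) 1 P h) :
    ∃ p : E, ‖p - P‖ ≤ 6 ∧ Tup w r x t = w (x + r • p) (t + r) - r * ‖p‖ ^ 2 / 2 := by
  have hcont : Continuous fun η : E => w (x + η) (t + r) - ‖η‖ ^ 2 / (2 * r) := by
    have h1 : Continuous fun η : E => (((x, t), η) : (E × ℝ) × E) := by fun_prop
    exact (HL2_contF hw r).comp h1
  have hK : IsCompact (Metric.closedBall (r • P) (6 * r)) := isCompact_closedBall _ _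
  have hne : r • P ∈ Metric.closedBall (r • P) (6 * r) := Metric.mem_closedBall_self (by positivity)
  obtain ⟨η0, hη0, hmax⟩ := hK.exists_isMaxOn ⟨_, hne⟩ hcont.continuousOn
  have habs : |r| ≤ 4 * r := by rw [abs_of_pos hr]; linarith
  have hup : ∀ η : E, w (x + η) (t + r) - ‖η‖ ^ 2 / (2 * r) ≤
      w x t + h * r + 4 * r - ‖η - r • P‖ ^ 2 / (4 * r) := by
    intro η
    have h1 := (abs_le.1 (hF η r habs)).2
    have h2 := lin_id P η h r hr.ne'
    have h3 : ‖η - r • P‖ ^ 2 / (2 * r) = 2 * (‖η - r • P‖ ^ 2 / (4 * r)) := by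
      field_simp; ring
    linarith
  have hlow : w x t + h * r - 4 * r ≤ w (x + r • P) (t + r) - ‖r • P‖ ^ 2 / (2 * r) := by
    have h1 := (abs_le.1 (hF (r • P) r habs)).1
    have h2 := lin_id P (r • P) h r hr.ne'
    simp only [sub_self, norm_zero, ne_eq, OfNat.ofNat_ne_zero, not_false_eq_true, zero_pow,
      zero_div, add_zero, sub_zero] at h1 h2
    linarith
  have hall : ∀ η : E, w (x + η) (t + r) - ‖η‖ ^ 2 / (2 * r) ≤
      w (x + η0) (t + r) - ‖η0‖ ^ 2 / (2 * r) := by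
    intro η
    by_cases hη : η ∈ Metric.closedBall (r • P) (6 * r)
    · exact hmax hη
    · rw [mem_closedBall_iff_norm, not_le] at hη
      have h1 : 9 * r ≤ ‖η - r • P‖ ^ 2 / (4 * r) := by
        rw [le_div_iff₀ (by positivity)]
        nlinarith
      have h2 : w (x + r • P) (t + r) - ‖r • P‖ ^ 2 / (2 * r) ≤
          w (x + η0) (t + r) - ‖η0‖ ^ 2 / (2 * r) := hmax hne
      have := hup η
      linarith
  have hsm : r • (r⁻¹ • η0) = η0 := by rw [smul_smul, mul_inv_cancel₀ hr.ne', one_smul]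
  refine ⟨r⁻¹ • η0, ?_, ?_⟩
  · rw [mem_closedBall_iff_norm] at hη0
    have h1 : r • (r⁻¹ • η0 - P) = η0 - r • P := by rw [smul_sub, hsm]
    have h2 : r * ‖r⁻¹ • η0 - P‖ ≤ 6 * r := by
      have := norm_smul r (r⁻¹ • η0 - P)
      rw [h1, Real.norm_eq_abs, abs_of_pos hr] at this
      linarith
    nlinarith
  · apply le_antisymm
    · refine Tup_le fun η => (hall η).trans (le_of_eq ?_)
      rw [hsm, norm_smul, Real.norm_eq_abs, abs_of_pos (inv_pos.2 hr)]
      field_simp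
    · exact hw.le_Tup_vel hr x t _

/-- Mirror of `Cls.exists_max` (frame `-P`, take `-p`). -/
theorem Cls.exists_min (hw : Cls w) (hr : 0 < r) (hF : Flat w x t (4 * r) 1 P h) :
    ∃ p : E, ‖p - P‖ ≤ 6 ∧ Tlo w r x t = w (x - r • p) (t - r) + r * ‖p‖ ^ 2 / 2 := by
  obtain ⟨p, hp, he⟩ := hw.mir.exists_max hr hF.mir
  refine ⟨-p, ?_, ?_⟩
  · have : -p - P = -(p - -P) := by abel
    rw [this, norm_neg]; exact hp
  · rw [Tup_mir] at he
    simp only [R94.mir] at he
    have h1 : -(-t + r) = t - r := by ring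
    rw [h1] at he
    rw [smul_neg, sub_neg_eq_add, norm_neg]
    linarith

theorem Cls.exists_max' (hw : Cls w) (hr : 0 < r) (x : E) (t : ℝ) :
    ∃ p : E, Tup w r x t = w (x + r • p) (t + r) - r * ‖p‖ ^ 2 / 2 := by
  obtain ⟨P, h, hF⟩ := hw.flat x t (4 * r) (by positivity)
  obtain ⟨p, -, hp⟩ := hw.exists_max hr hF
  exact ⟨p, hp⟩

theorem Cls.exists_min' (hw : Cls w) (hr : 0 < r) (x : E) (t : ℝ) :
    ∃ p : E, Tlo w r x t = w (x - r • p) (t - r) + r * ‖p‖ ^ 2 / 2 := by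
  obtain ⟨P, h, hF⟩ := hw.flat x t (4 * r) (by positivity)
  obtain ⟨p, -, hp⟩ := hw.exists_min hr hF
  exact ⟨p, hp⟩

/-- Near `z0 = (x,t)` (frame `(P,h)` at scale `4r`; neighbourhood `|t'-t| ≤ 3r`, `‖x'-x-(t'-t)•P‖ ≤ r`),
`Flat.big` and `Flat.big_low` show that the supremum may be restricted to the compact
`K = closedBall (r•P) (12 r)` (`18 r ≥ ‖η - r•P‖²/(8r)`), so `Tup = sSup (f z '' K)` near `z0`; use
`IsCompact.continuous_sSup` and `ContinuousAt.congr`. -/
theorem Cls.Tup_cont (hw : Cls w) (hr : 0 < r) :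
    Continuous fun z : E × ℝ => Tup w r z.1 z.2 := by
  rw [continuous_iff_continuousAt]
  rintro ⟨x, t⟩
  obtain ⟨P, h, hF⟩ := hw.flat x t (4 * r) (by positivity)
  set f : E × ℝ → E → ℝ := fun z η => w (z.1 + η) (z.2 + r) - ‖η‖ ^ 2 / (2 * r) with hf
  have hfc : Continuous (Function.HasUncurry.uncurry f) := HL2_contF hw r
  have hK : IsCompact (Metric.closedBall (r • P) (12 * r)) := isCompact_closedBall _ _
  have hne : r • P ∈ Metric.closedBall (r • P) (12 * r) :=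
    Metric.mem_closedBall_self (by positivity)
  have hS := hK.continuous_sSup hfc
  refine hS.continuousAt.congr ?_
  have e1 : ∀ᶠ z : E × ℝ in nhds (x, t), |z.2 - t| ≤ 3 * r := by
    have hc : Continuous fun z : E × ℝ => |z.2 - t| := by fun_prop
    have := hc.continuousAt (x := (x, t)) |>.eventually
      (gt_mem_nhds (a := 3 * r) (by simp; positivity))
    exact this.mono fun z hz => le_of_lt hz
  have e2 : ∀ᶠ z : E × ℝ in nhds (x, t), ‖z.1 - x - (z.2 - t) • P‖ ≤ r := by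
    have hc : Continuous fun z : E × ℝ => ‖z.1 - x - (z.2 - t) • P‖ := by fun_prop
    have := hc.continuousAt (x := (x, t)) |>.eventually
      (gt_mem_nhds (a := r) (by simpa using hr))
    exact this.mono fun z hz => le_of_lt hz
  filter_upwards [e1, e2] with z h1 h2
  have hfz : Continuous (f z) := by
    have h1 : Continuous fun η : E => ((z, η) : (E × ℝ) × E) := by fun_prop
    exact (HL2_contF hw r).comp h1
  have hbdd : BddAbove (f z '' Metric.closedBall (r • P) (12 * r)) :=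
    (hK.image hfz).bddAbove
  apply le_antisymm
  · refine csSup_le ⟨_, _, hne, rfl⟩ ?_
    rintro _ ⟨η, -, rfl⟩
    have := hw.le_Tup hr z.1 z.2 (z.1 + η) rfl
    rw [add_sub_cancel_left] at this
    exact this
  · refine Tup_le fun η => ?_
    by_cases hη : η ∈ Metric.closedBall (r • P) (12 * r)
    · exact le_csSup hbdd ⟨η, hη, rfl⟩
    · refine le_trans ?_ (le_csSup hbdd ⟨r • P, hne, rfl⟩)
      rw [mem_closedBall_iff_norm, not_le] at hη
      have h3 : 18 * r ≤ ‖η - r • P‖ ^ 2 / (8 * r) := by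
        rw [le_div_iff₀ (by positivity)]
        nlinarith
      have h4 := hF.big hr h1 h2 η
      have h5 := hF.big_low hr h1 h2
      simp only [hf]
      linarith

/-- Increasing slope estimate. Let `S = Sp w κ x t`, `y = x + κ•p`. For `0 < δ < κ` put
`zδ = (y - δ•p, t + κ - δ) = (x + (κ-δ)•p, t + (κ-δ))`. `le_Tup_vel` and `Sp_mono` give
`w zδ ≤ w x t + (κ-δ)(S + ‖p‖²/2)`; `hp` says `w y (t+κ) = w x t + κ (S + ‖p‖²/2)`; so
`Sp w δ zδ ≥ S` (`le_Tup_vel` at `zδ`), hence `Sp w κ zδ ≥ S`. Let `δ → 0⁺` using `Tup_cont`, `Cls.cont`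
(`ge_of_tendsto` along `𝓝[>] 0`). -/
theorem Cls.is_up (hw : Cls w) (hκ : 0 < κ)
    (hp : Tup w κ x t = w (x + κ • p) (t + κ) - κ * ‖p‖ ^ 2 / 2) :
    Sp w κ x t ≤ Sp w κ (x + κ • p) (t + κ) := by
  have hcont : Continuous fun δ : ℝ => Sp w κ (x + (κ - δ) • p) (t + (κ - δ)) := by
    have h1 : Continuous fun δ : ℝ => ((x + (κ - δ) • p, t + (κ - δ)) : E × ℝ) := by fun_prop
    have h2 := (hw.Tup_cont hκ).comp h1
    have h3 := hw.cont.comp h1
    exact (h2.sub h3).div_const κ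
  have ht : Filter.Tendsto (fun δ : ℝ => Sp w κ (x + (κ - δ) • p) (t + (κ - δ)))
      (nhdsWithin 0 (Set.Ioi 0)) (nhds (Sp w κ (x + κ • p) (t + κ))) := by
    have := (hcont.tendsto 0).mono_left (nhdsWithin_le_nhds (s := Set.Ioi 0))
    simpa only [sub_zero] using this
  refine ge_of_tendsto ht ?_
  filter_upwards [Ioo_mem_nhdsGT hκ] with δ hδ
  obtain ⟨hδ0, hδκ⟩ := hδ
  have hs : 0 < κ - δ := by linarith
  have h1 := hw.le_Tup_vel hs x t p
  rw [Tup_eq w hs] at h1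
  have h2 := hw.Sp_mono hs (ρ := κ) (by linarith) x t
  have h3 := hw.le_Tup_vel hδ0 (x + (κ - δ) • p) (t + (κ - δ)) p
  rw [Tup_eq w hδ0] at h3
  have e1 : x + (κ - δ) • p + δ • p = x + κ • p := by
    rw [add_assoc, ← add_smul, sub_add_cancel]
  have e2 : t + (κ - δ) + δ = t + κ := by ring
  rw [e1, e2] at h3
  have h4 := hw.Sp_mono hδ0 hδκ.le (x + (κ - δ) • p) (t + (κ - δ))
  rw [Tup_eq w hκ] at hp
  have h5 : (κ - δ) * Sp w (κ - δ) x t ≤ (κ - δ) * Sp w κ x t :=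
    mul_le_mul_of_nonneg_left h2 hs.le
  have h6 : δ * Sp w κ x t ≤ δ * Sp w δ (x + (κ - δ) • p) (t + (κ - δ)) := by
    nlinarith
  exact (le_of_mul_le_mul_left h6 hδ0).trans h4

/-- Mirror of `Cls.is_up`. -/
theorem Cls.is_lo (hw : Cls w) (hκ : 0 < κ)
    (hp : Tlo w κ x t = w (x - κ • p) (t - κ) + κ * ‖p‖ ^ 2 / 2) :
    Sm w κ x t ≤ Sm w κ (x - κ • p) (t - κ) := by
  have h1 : Tup (R94.mir w) κ x (-t) = R94.mir w (x + κ • (-p)) (-t + κ) - κ * ‖-p‖ ^ 2 / 2 := by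
    rw [Tup_mir, hp]
    simp only [R94.mir]
    have h1 : -(-t + κ) = t - κ := by ring
    rw [h1, smul_neg, ← sub_eq_add_neg, norm_neg]
    ring
  have h2 := hw.mir.is_up hκ h1
  have h3 : -t + κ = -(t - κ) := by ring
  rw [h3, Sp_mir, Sp_mir, smul_neg, ← sub_eq_add_neg] at h2
  exact h2

end Crest.Agent.R94
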