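import Crest.Agent.R94.Frame

/-! # Row 94: uniform bounds for normalised local class members (no compactness here) -/

set_option autoImplicit false

namespace Crest.Agent.R94

variable {E : Type*} [NormedAddCommGroup E] [InnerProductSpace ℝ E]

theorem imp1_norm_sub_sq (η P : E) (τ : ℝ) :
    ‖η - τ • P‖ ^ 2 ≤ 2 * ‖η‖ ^ 2 + 2 * (τ ^ 2 * ‖P‖ ^ 2) := by
  have h1 : ‖η - τ • P‖ ≤ ‖η‖ + |τ| * ‖P‖ := by
    calc ‖η - τ • P‖ ≤ ‖η‖ + ‖τ • P‖ := norm_sub_le _ _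
      _ = ‖η‖ + |τ| * ‖P‖ := by rw [norm_smul, Real.norm_eq_abs]
  have h2 : ‖η - τ • P‖ ^ 2 ≤ (‖η‖ + |τ| * ‖P‖) ^ 2 :=
    pow_le_pow_left₀ (norm_nonneg _) h1 2
  have h3 : τ ^ 2 = |τ| ^ 2 := (sq_abs τ).symm
  rw [h3]
  nlinarith [sq_nonneg (‖η‖ - |τ| * ‖P‖)]

theorem imp1_flat0 {w : E → ℝ → ℝ} (h : Flat w 0 0 1 1 0 0) (η : E) (τ : ℝ) (hτ : |τ| ≤ 1) :
    |w η τ - w 0 0| ≤ 1 + ‖η‖ ^ 2 := by
  have := h η τ hτ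
  simpa using this

theorem imp1_flat_zero {w : E → ℝ → ℝ} {r b g : ℝ} {Q : E} (h : Flat w 0 0 r b Q g) (η : E) (τ : ℝ)
    (hτ : |τ| ≤ r) :
    |w η τ - w 0 0 - inner ℝ Q η - (g - ‖Q‖ ^ 2 / 2) * τ| ≤ b * r + ‖η - τ • Q‖ ^ 2 / r := by
  have := h η τ hτ
  simpa only [zero_add] using this

/-- Growth bound. A frame `(Q,g)` at `(0,0)`, scale `Λ`: testing both frames at `τ = 0`, `‖η‖ = 1` gives
`‖Q‖ ≤ Λ + 3` (`norm_le_of_inner`), testing at `η = 0`, `τ = 1` gives `|g - ‖Q‖²/2| ≤ 1 + Λ + ‖Q‖²`. Then use the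
frame `(Q,g)`: `‖η - τ•Q‖² ≤ 2‖η‖² + 2Λ²‖Q‖²`, `‖η‖ ≤ 1 + ‖η‖²`. -/
theorem growth (Λ : ℝ) (hΛ : 1 ≤ Λ) : ∃ K : ℝ, 0 ≤ K ∧ ∀ (w : E → ℝ → ℝ) (M : ℝ), Λ ≤ M →
    LocCls w M → Flat w 0 0 1 1 0 0 → ∀ (η : E) (τ : ℝ), |τ| ≤ Λ →
      |w η τ - w 0 0| ≤ K * (1 + ‖η‖ ^ 2) := by
  refine ⟨(Λ + 3) + (1 + Λ + (Λ + 3) ^ 2) * Λ + Λ + 2 + 2 * (Λ ^ 2 * (Λ + 3) ^ 2), by positivity,
    fun w M hM hw h0 η τ hτ => ?_⟩
  have hΛ0 : 0 < Λ := by linarith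
  obtain ⟨Q, g, hQ⟩ := (hw 0 0 (by rw [norm_zero]; linarith) (by rw [abs_zero]; linarith)).1 Λ hΛ0 hM
  have hdiv : ∀ a : ℝ, 0 ≤ a → a / Λ ≤ a := fun a ha => div_le_self ha hΛ
  have hQn : ‖Q‖ ≤ Λ + 3 := by
    refine norm_le_of_inner (r := 1) one_pos (by linarith) fun ξ hξ => ?_
    have a1 := imp1_flat0 h0 ξ 0 (by simp)
    have a2 := imp1_flat_zero hQ ξ 0 (by rw [abs_zero]; linarith)
    rw [zero_smul, sub_zero, hξ, mul_zero, sub_zero] at a2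
    rw [hξ] at a1
    have a3 := hdiv (1 ^ 2) (by norm_num)
    have a4 := (abs_le.1 a1).2
    have a5 := (abs_le.1 a2).1
    linarith
  have hQ2 : ‖Q‖ ^ 2 ≤ (Λ + 3) ^ 2 := pow_le_pow_left₀ (norm_nonneg _) hQn 2
  have hg : |g - ‖Q‖ ^ 2 / 2| ≤ 1 + Λ + (Λ + 3) ^ 2 := by
    have a1 := imp1_flat0 h0 0 1 (by simp)
    have a2 := imp1_flat_zero hQ 0 1 (by rw [abs_one]; exact hΛ)
    rw [one_smul, zero_sub, norm_neg, inner_zero_right, sub_zero, mul_one] at a2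
    rw [norm_zero] at a1
    have a3 := hdiv (‖Q‖ ^ 2) (by positivity)
    have a4 := abs_le.1 a1
    have a5 := abs_le.1 a2
    rw [abs_le]
    constructor <;> nlinarith [a4.1, a4.2, a5.1, a5.2]
  have a2 := imp1_flat_zero hQ η τ hτ
  have a3 := hdiv (‖η - τ • Q‖ ^ 2) (by positivity)
  have a4 := imp1_norm_sub_sq η Q τ
  have hτ2 : τ ^ 2 ≤ Λ ^ 2 := by
    rw [← sq_abs τ]; exact pow_le_pow_left₀ (abs_nonneg _) hτ 2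
  have a5 : τ ^ 2 * ‖Q‖ ^ 2 ≤ Λ ^ 2 * (Λ + 3) ^ 2 :=
    mul_le_mul hτ2 hQ2 (by positivity) (by positivity)
  have a6 : |inner ℝ Q η| ≤ (Λ + 3) * (1 + ‖η‖ ^ 2) := by
    calc |inner ℝ Q η| ≤ ‖Q‖ * ‖η‖ := abs_real_inner_le_norm _ _
      _ ≤ (Λ + 3) * (1 + ‖η‖ ^ 2) :=
        mul_le_mul hQn (by nlinarith [sq_nonneg (‖η‖ - 1)]) (norm_nonneg _) (by linarith)
  have a7 : |(g - ‖Q‖ ^ 2 / 2) * τ| ≤ (1 + Λ + (Λ + 3) ^ 2) * Λ := by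
    rw [abs_mul]
    exact mul_le_mul hg hτ (abs_nonneg _) (by positivity)
  have b1 := abs_le.1 a2
  have b2 := abs_le.1 a6
  have b3 := abs_le.1 a7
  have hD : 0 ≤ (1 + Λ + (Λ + 3) ^ 2) * Λ + Λ + 2 * (Λ ^ 2 * (Λ + 3) ^ 2) := by positivity
  have hE : 0 ≤ ((1 + Λ + (Λ + 3) ^ 2) * Λ + Λ + 2 * (Λ ^ 2 * (Λ + 3) ^ 2)) * ‖η‖ ^ 2 := by positivity
  rw [abs_le]
  constructor <;> nlinarith [b1.1, b1.2, b2.1, b2.2, b3.1, b3.2]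

/-- `growth` with `Λ = |t| + r + 1`. `P`: test `τ = 0`, `‖η‖ = r`; `h`: test `η = 0`, `τ = r`. -/
theorem frame_bdd (x : E) (t r : ℝ) (hr : 0 < r) : ∃ C M0 : ℝ, ∀ (w : E → ℝ → ℝ) (M : ℝ), M0 ≤ M →
    LocCls w M → Flat w 0 0 1 1 0 0 → ∀ (P : E) (h : ℝ), Flat w x t r 1 P h →
      ‖P‖ ≤ C ∧ |h| ≤ C := by
  obtain ⟨K, hK, hgr⟩ := growth (E := E) (|t| + r + 1) (by have := abs_nonneg t; linarith)
  set C1 : ℝ := (K * (1 + (‖x‖ + r) ^ 2) + K * (1 + ‖x‖ ^ 2) + 2 * r) / r with hC1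
  have hC10 : 0 ≤ C1 := by positivity
  refine ⟨C1 + (C1 ^ 2 / 2 + 2 * K * (1 + ‖x‖ ^ 2) / r + 1 + C1 ^ 2), |t| + r + 1,
    fun w M hM hw h0 P h hP => ?_⟩
  have ht0 : |t| ≤ |t| + r + 1 := by linarith
  have htr : |t + r| ≤ |t| + r + 1 := by
    have := abs_add_le t r
    rw [abs_of_pos hr] at this
    linarith
  have g0 := abs_le.1 (hgr w M hM hw h0 x t ht0)
  have hPn : ‖P‖ ≤ C1 := by
    refine norm_le_of_inner hr hC10 fun ξ hξ => ?_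
    have a1 := hP ξ 0 (by rw [abs_zero]; exact hr.le)
    rw [zero_smul, sub_zero, hξ, mul_zero, sub_zero, add_zero, one_mul, sq, mul_div_assoc,
      div_self hr.ne', mul_one] at a1
    have a2 := abs_le.1 (hgr w M hM hw h0 (x + ξ) t ht0)
    have a3 : ‖x + ξ‖ ^ 2 ≤ (‖x‖ + r) ^ 2 :=
      pow_le_pow_left₀ (norm_nonneg _) (by rw [← hξ]; exact norm_add_le _ _) 2
    have a4 : K * (1 + ‖x + ξ‖ ^ 2) ≤ K * (1 + (‖x‖ + r) ^ 2) :=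
      mul_le_mul_of_nonneg_left (by linarith) hK
    have a5 := (abs_le.1 a1).1
    rw [hC1, div_mul_cancel₀ _ hr.ne']
    linarith [a2.2, g0.1]
  have hP2 : ‖P‖ ^ 2 ≤ C1 ^ 2 := pow_le_pow_left₀ (norm_nonneg _) hPn 2
  have hh : |h - ‖P‖ ^ 2 / 2| ≤ 2 * K * (1 + ‖x‖ ^ 2) / r + 1 + C1 ^ 2 := by
    have a1 := hP 0 r (by rw [abs_of_pos hr])
    have e1 : ‖(0 : E) - r • P‖ ^ 2 / r = r * ‖P‖ ^ 2 := by
      rw [zero_sub, norm_neg, norm_smul, Real.norm_eq_abs, abs_of_pos hr]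
      field_simp
    rw [e1, add_zero, inner_zero_right, sub_zero, one_mul] at a1
    have a2 := abs_le.1 (hgr w M hM hw h0 x (t + r) htr)
    have a3 := abs_le.1 a1
    have a4 : r * ‖P‖ ^ 2 ≤ r * C1 ^ 2 := mul_le_mul_of_nonneg_left hP2 hr.le
    have a5 : |h - ‖P‖ ^ 2 / 2| * r ≤ (2 * K * (1 + ‖x‖ ^ 2) / r + 1 + C1 ^ 2) * r := by
      have e2 : (2 * K * (1 + ‖x‖ ^ 2) / r + 1 + C1 ^ 2) * r =
          2 * K * (1 + ‖x‖ ^ 2) + r + r * C1 ^ 2 := by field_simp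
      have e3 : |h - ‖P‖ ^ 2 / 2| * r = |(h - ‖P‖ ^ 2 / 2) * r| := by
        rw [abs_mul, abs_of_pos hr]
      rw [e2, e3, abs_le]
      constructor <;> linarith [a2.1, a2.2, a3.1, a3.2, g0.1, g0.2]
    exact le_of_mul_le_mul_right a5 hr
  have hpos : 0 ≤ 2 * K * (1 + ‖x‖ ^ 2) / r := by positivity
  have hh' := abs_le.1 hh
  have hP0 : 0 ≤ ‖P‖ ^ 2 := by positivity
  have hC2 : 0 ≤ C1 ^ 2 := by positivity
  refine ⟨by linarith, ?_⟩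
  rw [abs_le]
  constructor <;> linarith [hh'.1, hh'.2]

/-- `frame_bdd` together with the existence of the frame, with a nonnegative bound. -/
theorem imp1_frame (x : E) (t r : ℝ) (hr : 0 < r) : ∃ C : ℝ, 0 ≤ C ∧ ∃ M0 : ℝ,
    ∀ (w : E → ℝ → ℝ) (M : ℝ), M0 ≤ M → LocCls w M → Flat w 0 0 1 1 0 0 →
      ∃ (P : E) (h : ℝ), Flat w x t r 1 P h ∧ ‖P‖ ≤ C ∧ |h| ≤ C := by
  obtain ⟨C, M0, hC⟩ := frame_bdd x t r hr
  refine ⟨max C 0, le_max_right _ _, max M0 (max ‖x‖ (max |t| r)), fun w M hM hw h0 => ?_⟩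
  simp only [max_le_iff] at hM
  obtain ⟨m1, m2, m3, m4⟩ := hM
  obtain ⟨P, h, hP⟩ := (hw x t m2 m3).1 r hr m4
  obtain ⟨c1, c2⟩ := hC w M m1 hw h0 P h hP
  exact ⟨P, h, hP, c1.trans (le_max_left _ _), c2.trans (le_max_left _ _)⟩

omit [InnerProductSpace ℝ E] in
theorem imp1_slope {P : E} {h C : ℝ} (hP : ‖P‖ ≤ C) (hh : |h| ≤ C) :
    |h - ‖P‖ ^ 2 / 2| ≤ C + C ^ 2 / 2 := by
  have h1 : ‖P‖ ^ 2 ≤ C ^ 2 := pow_le_pow_left₀ (norm_nonneg _) hP 2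
  have h2 : 0 ≤ ‖P‖ ^ 2 := by positivity
  have h3 := abs_le.1 hh
  rw [abs_le]
  constructor <;> linarith [h3.1, h3.2]

/-- Frame at `(x,t)`, scale `r = ε/2` (exists once `M ≥ ‖x‖, |t|, r`), bounded by `frame_bdd`. -/
theorem equi (x : E) (t ε : ℝ) (hε : 0 < ε) : ∃ δ : ℝ, 0 < δ ∧ ∃ M0 : ℝ,
    ∀ (w : E → ℝ → ℝ) (M : ℝ), M0 ≤ M → LocCls w M → Flat w 0 0 1 1 0 0 →
      ∀ (x' : E) (t' : ℝ), ‖x' - x‖ ≤ δ → |t' - t| ≤ δ → |w x' t' - w x t| ≤ ε := by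
  have hr : 0 < ε / 2 := by linarith
  obtain ⟨C, hC, M0, hfr⟩ := imp1_frame x t (ε / 2) hr
  set D : ℝ := 2 * C + C ^ 2 / 2 + (1 + C) ^ 2 with hD
  have hD1 : 1 ≤ D := by nlinarith
  have hD0 : 0 < D := by linarith
  set δ : ℝ := ε / 2 / D with hδ
  have hδ0 : 0 < δ := by positivity
  have hδr : δ ≤ ε / 2 := div_le_self hr.le hD1
  have hδD : δ * D = ε / 2 := by rw [hδ]; field_simp
  refine ⟨δ, hδ0, M0, fun w M hM hw h0 x' t' hx ht => ?_⟩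
  obtain ⟨P, h, hP, hPC, hhC⟩ := hfr w M hM hw h0
  have a1 := hP (x' - x) (t' - t) (ht.trans hδr)
  rw [add_sub_cancel, add_sub_cancel, one_mul] at a1
  have a2 : |inner ℝ P (x' - x)| ≤ C * δ :=
    (abs_real_inner_le_norm _ _).trans (mul_le_mul hPC hx (norm_nonneg _) hC)
  have a3 : |(h - ‖P‖ ^ 2 / 2) * (t' - t)| ≤ (C + C ^ 2 / 2) * δ := by
    rw [abs_mul]
    exact mul_le_mul (imp1_slope hPC hhC) ht (abs_nonneg _) (by positivity)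
  have a4 : ‖x' - x - (t' - t) • P‖ ≤ δ * (1 + C) := by
    calc ‖x' - x - (t' - t) • P‖ ≤ ‖x' - x‖ + ‖(t' - t) • P‖ := norm_sub_le _ _
      _ = ‖x' - x‖ + |t' - t| * ‖P‖ := by rw [norm_smul, Real.norm_eq_abs]
      _ ≤ δ + δ * C := add_le_add hx (mul_le_mul ht hPC (norm_nonneg _) hδ0.le)
      _ = δ * (1 + C) := by ring
  have a5 : ‖x' - x - (t' - t) • P‖ ^ 2 / (ε / 2) ≤ δ * (1 + C) ^ 2 := by
    rw [div_le_iff₀ hr]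
    calc ‖x' - x - (t' - t) • P‖ ^ 2 ≤ (δ * (1 + C)) ^ 2 := pow_le_pow_left₀ (norm_nonneg _) a4 2
      _ = δ * (1 + C) ^ 2 * δ := by ring
      _ ≤ δ * (1 + C) ^ 2 * (ε / 2) := mul_le_mul_of_nonneg_left hδr (by positivity)
  have b1 := abs_le.1 a1
  have b2 := abs_le.1 a2
  have b3 := abs_le.1 a3
  have e : δ * D = C * δ + (C + C ^ 2 / 2) * δ + δ * (1 + C) ^ 2 := by rw [hD]; ring
  rw [abs_le]
  constructor <;> linarith [b1.1, b1.2, b2.1, b2.2, b3.1, b3.2]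

/-- Frame `(Q,g)` at `(0,0)`, scale `4`, bounded by `C` (`frame_bdd`): the left side is at most
`4 + ‖η - τ•Q‖²/4 + C'(1 + ‖η‖) ≤ ‖η‖²/2 + C''(1 + ‖η‖)`, the right side is at least `‖η‖² - 2‖P‖‖η‖`. -/
theorem tail (P : E) (h : ℝ) : ∃ L M0 : ℝ, ∀ (w : E → ℝ → ℝ) (M : ℝ), M0 ≤ M → LocCls w M →
    Flat w 0 0 1 1 0 0 → ∀ (η : E) (τ : ℝ), |τ| ≤ 1 → L ≤ ‖η‖ →
      |w η τ - w 0 0 - inner ℝ P η - (h - ‖P‖ ^ 2 / 2) * τ| ≤ ‖η - τ • P‖ ^ 2 := by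
  obtain ⟨C, hC, M0, hfr⟩ := imp1_frame (0 : E) 0 4 (by norm_num)
  set D : ℝ := 4 + C ^ 2 / 2 + (C + C ^ 2 / 2) + (|h| + ‖P‖ ^ 2 / 2) with hD
  have hD0 : 0 ≤ D := by positivity
  refine ⟨1 + 2 * (C + 3 * ‖P‖ + D), M0, fun w M hM hw h0 η τ hτ hη => ?_⟩
  obtain ⟨Q, g, hQ, hQC, hgC⟩ := hfr w M hM hw h0
  have hP0 := norm_nonneg P
  have hη1 : 1 ≤ ‖η‖ := by linarith
  have a1 := imp1_flat_zero hQ η τ (hτ.trans (by norm_num))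
  have a2 := imp1_norm_sub_sq η Q τ
  have hτ2 : τ ^ 2 ≤ 1 := by
    rw [← sq_abs τ]; exact pow_le_one₀ (abs_nonneg _) hτ
  have a3 : τ ^ 2 * ‖Q‖ ^ 2 ≤ 1 * C ^ 2 :=
    mul_le_mul hτ2 (pow_le_pow_left₀ (norm_nonneg _) hQC 2) (by positivity) zero_le_one
  have a4 : |inner ℝ Q η| ≤ C * ‖η‖ :=
    (abs_real_inner_le_norm _ _).trans (mul_le_mul_of_nonneg_right hQC (norm_nonneg _))
  have a5 : |inner ℝ P η| ≤ ‖P‖ * ‖η‖ := abs_real_inner_le_norm _ _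
  have a6 : |(g - ‖Q‖ ^ 2 / 2) * τ| ≤ (C + C ^ 2 / 2) * 1 := by
    rw [abs_mul]
    exact mul_le_mul (imp1_slope hQC hgC) hτ (abs_nonneg _) (by positivity)
  have a7 : |(h - ‖P‖ ^ 2 / 2) * τ| ≤ (|h| + ‖P‖ ^ 2 / 2) * 1 := by
    rw [abs_mul]
    refine mul_le_mul ?_ hτ (abs_nonneg _) (by positivity)
    calc |h - ‖P‖ ^ 2 / 2| ≤ |h| + |‖P‖ ^ 2 / 2| := abs_sub _ _
      _ = |h| + ‖P‖ ^ 2 / 2 := by rw [abs_of_nonneg (a := ‖P‖ ^ 2 / 2) (by positivity)]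
  have a8 : ‖η‖ ^ 2 - 2 * (‖P‖ * ‖η‖) ≤ ‖η - τ • P‖ ^ 2 := by
    rw [norm_sub_sq_real, inner_smul_right]
    have c1 : |τ * inner ℝ η P| ≤ 1 * (‖η‖ * ‖P‖) := by
      rw [abs_mul]
      exact mul_le_mul hτ (abs_real_inner_le_norm _ _) (abs_nonneg _) zero_le_one
    have c2 := (abs_le.1 c1).2
    have c3 : 0 ≤ ‖τ • P‖ ^ 2 := by positivity
    linarith
  have a9 : (1 + 2 * (C + 3 * ‖P‖ + D)) * ‖η‖ ≤ ‖η‖ * ‖η‖ :=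
    mul_le_mul_of_nonneg_right hη (norm_nonneg _)
  have a10 : D * 1 ≤ D * ‖η‖ := mul_le_mul_of_nonneg_left hη1 hD0
  have b1 := abs_le.1 a1
  have b4 := abs_le.1 a4
  have b5 := abs_le.1 a5
  have b6 := abs_le.1 a6
  have b7 := abs_le.1 a7
  have e : ‖η‖ ^ 2 = ‖η‖ * ‖η‖ := sq _
  rw [abs_le]
  constructor <;> nlinarith [b1.1, b1.2, b4.1, b4.2, b5.1, b5.2, b6.1, b6.2, b7.1, b7.2]

/-- Frame at `(x,t)`, scale `4ρ`, bounded by `frame_bdd`; `Flat.big` with `x' = x`, `t' = t`. -/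
theorem mp_bdd (x : E) (t ρ B : ℝ) (hρ : 0 < ρ) : ∃ C M0 : ℝ, ∀ (w : E → ℝ → ℝ) (M : ℝ), M0 ≤ M →
    LocCls w M → Flat w 0 0 1 1 0 0 → ∀ η : E,
      -B ≤ (w (x + η) (t + ρ) - w x t - ‖η‖ ^ 2 / (2 * ρ)) / ρ → ‖η‖ ≤ C := by
  obtain ⟨C, hC, M0, hfr⟩ := imp1_frame x t (4 * ρ) (by positivity)
  refine ⟨ρ * C + 1 + 8 * ρ ^ 2 * (C + 9 + B), M0, fun w M hM hw h0 η hη => ?_⟩
  obtain ⟨P, h, hP, hPC, hhC⟩ := hfr w M hM hw h0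
  have a1 := hP.big (x' := x) (t' := t) hρ (by rw [sub_self, abs_zero]; positivity)
    (by rw [sub_self, sub_self, zero_smul, sub_zero, norm_zero]; exact hρ.le) η
  rw [le_div_iff₀ hρ] at hη
  have a2 : ‖η - ρ • P‖ ^ 2 / (8 * ρ) ≤ (C + 9 + B) * ρ := by
    have := mul_le_mul_of_nonneg_right (abs_le.1 hhC).2 hρ.le
    nlinarith
  rw [div_le_iff₀ (by positivity)] at a2
  have a3 : ‖η‖ ≤ ‖η - ρ • P‖ + ρ * ‖P‖ := by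
    calc ‖η‖ = ‖(η - ρ • P) + ρ • P‖ := by rw [sub_add_cancel]
      _ ≤ ‖η - ρ • P‖ + ‖ρ • P‖ := norm_add_le _ _
      _ = ‖η - ρ • P‖ + ρ * ‖P‖ := by rw [norm_smul, Real.norm_eq_abs, abs_of_pos hρ]
  have a4 : ρ * ‖P‖ ≤ ρ * C := mul_le_mul_of_nonneg_left hPC hρ.le
  nlinarith [sq_nonneg (‖η - ρ • P‖ - 1), norm_nonneg (η - ρ • P)]

/-- Mirror of `mp_bdd` (`LocCls.mir`, `Flat.mir`, at time `-t`). -/
theorem mm_bdd (x : E) (t ρ B : ℝ) (hρ : 0 < ρ) : ∃ C M0 : ℝ, ∀ (w : E → ℝ → ℝ) (M : ℝ), M0 ≤ M →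
    LocCls w M → Flat w 0 0 1 1 0 0 → ∀ η : E,
      -B ≤ (w x t - w (x + η) (t - ρ) - ‖η‖ ^ 2 / (2 * ρ)) / ρ → ‖η‖ ≤ C := by
  obtain ⟨C, M0, hC⟩ := mp_bdd x (-t) ρ B hρ
  refine ⟨C, M0, fun w M hM hw h0 η hη => ?_⟩
  have h1 : Flat (mir w) 0 0 1 1 0 0 := by
    have := h0.mir
    rwa [neg_zero, neg_zero] at this
  refine hC (mir w) M hM hw.mir h1 η ?_
  have e1 : -(-t + ρ) = t - ρ := by ring
  have e2 : mir w (x + η) (-t + ρ) - mir w x (-t) = w x t - w (x + η) (t - ρ) := by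
    simp only [mir, e1, neg_neg]
    ring
  rwa [e2]

end Crest.Agent.R94
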