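import Crest.Agent.R94.Frame

/-! # Row 94: horizontally affine members of the class are affine -/

set_option autoImplicit false

namespace Crest.Agent.R94

variable {E : Type*} [NormedAddCommGroup E] [InnerProductSpace ℝ E] [FiniteDimensional ℝ E]

/-- `f x = φ x - φ 0` satisfies `f (2x) = 2 f x` and `f u + f v = 2 f ((u+v)/2) = f (u+v)`; a continuous
additive map is real linear (`AddMonoidHom.toRealLinearMap`); Riesz (`InnerProductSpace.toDual`). -/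
theorem affine_of_mid {φ : E → ℝ} (hc : Continuous φ)
    (hmid : ∀ x ξ : E, φ (x + ξ) + φ (x - ξ) = 2 * φ x) : ∃ P : E, ∀ x, φ x = inner ℝ P x + φ 0 := by
  have : CompleteSpace E := FiniteDimensional.complete ℝ E
  have hadd : ∀ u v : E, φ (u + v) - φ 0 = (φ u - φ 0) + (φ v - φ 0) := by
    intro u v
    have h1 := hmid ((1 / 2 : ℝ) • (u + v)) ((1 / 2 : ℝ) • (u - v))
    have h2 := hmid ((1 / 2 : ℝ) • (u + v)) ((1 / 2 : ℝ) • (u + v))
    have e1 : (1 / 2 : ℝ) • (u + v) + (1 / 2 : ℝ) • (u - v) = u := by module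
    have e2 : (1 / 2 : ℝ) • (u + v) - (1 / 2 : ℝ) • (u - v) = v := by module
    have e3 : (1 / 2 : ℝ) • (u + v) + (1 / 2 : ℝ) • (u + v) = u + v := by module
    rw [e1, e2] at h1
    rw [e3, sub_self] at h2
    linarith
  let F : E →+ ℝ := AddMonoidHom.mk' (fun x => φ x - φ 0) hadd
  have hF : Continuous F := hc.sub continuous_const
  refine ⟨(InnerProductSpace.toDual ℝ E).symm (F.toRealLinearMap hF), fun x => ?_⟩
  rw [InnerProductSpace.toDual_symm_apply]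
  have : (F.toRealLinearMap hF) x = φ x - φ 0 := rfl
  rw [this]; ring

omit [FiniteDimensional ℝ E] in
theorem liou_young (P η : E) {ρ : ℝ} (hρ : 0 < ρ) :
    inner ℝ P η - ‖η‖ ^ 2 / (2 * ρ) ≤ ρ * ‖P‖ ^ 2 / 2 := by
  have h1 : inner ℝ P η ≤ ‖P‖ * ‖η‖ := real_inner_le_norm P η
  have h2 : ‖P‖ * ‖η‖ - ‖η‖ ^ 2 / (2 * ρ) ≤ ρ * ‖P‖ ^ 2 / 2 := by
    have : ρ * ‖P‖ ^ 2 / 2 - (‖P‖ * ‖η‖ - ‖η‖ ^ 2 / (2 * ρ)) = (ρ * ‖P‖ - ‖η‖) ^ 2 / (2 * ρ) := by
      field_simp; ring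
    have h3 : 0 ≤ (ρ * ‖P‖ - ‖η‖) ^ 2 / (2 * ρ) := by positivity
    linarith
  linarith

omit [FiniteDimensional ℝ E] in
theorem liou_young_eq (P : E) {r : ℝ} (hr : 0 < r) :
    inner ℝ P (r • P) - ‖r • P‖ ^ 2 / (2 * r) = r * ‖P‖ ^ 2 / 2 := by
  rw [inner_smul_right, real_inner_self_eq_norm_sq, norm_smul, Real.norm_eq_abs, abs_of_pos hr]
  field_simp; ring

omit [FiniteDimensional ℝ E] in
theorem liou_eq_zero {v : E} {C : ℝ} (h : ∀ x : E, inner ℝ v x ≤ C) : v = 0 := by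
  by_contra hv
  have hp : 0 < ‖v‖ ^ 2 := by positivity
  have h1 := h (((|C| + 1) / ‖v‖ ^ 2) • v)
  rw [inner_smul_right, real_inner_self_eq_norm_sq, div_mul_cancel₀ _ hp.ne'] at h1
  have := le_abs_self C
  linarith

omit [FiniteDimensional ℝ E] in
theorem liou_near {w : E → ℝ → ℝ} (hw : Cls w) {P : ℝ → E}
    (hP : ∀ t x, w x t = inner ℝ (P t) x + w 0 t) (t τ : ℝ) : ‖P (t + τ) - P t‖ ≤ 4 := by
  have hr : 0 < |τ| + 1 := by positivity
  obtain ⟨Q, h, hQ⟩ := hw.flat 0 t (|τ| + 1) hr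
  have key : ∀ σ : ℝ, |σ| ≤ |τ| + 1 → ‖P (t + σ) - Q‖ ≤ 2 := by
    intro σ hσ
    refine norm_le_of_inner hr (by norm_num) fun ξ hξ => ?_
    have h1 := hQ (σ • Q + ξ) σ hσ
    have h2 := hQ (σ • Q - ξ) σ hσ
    have e1 : σ • Q + ξ - σ • Q = ξ := by abel
    have e2 : σ • Q - ξ - σ • Q = -ξ := by abel
    have e3 : (|τ| + 1) ^ 2 / (|τ| + 1) = |τ| + 1 := by field_simp
    rw [e1, hξ, e3, zero_add, hP (t + σ) (σ • Q + ξ), inner_add_right, inner_add_right] at h1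
    rw [e2, norm_neg, hξ, e3, zero_add, hP (t + σ) (σ • Q - ξ), inner_sub_right,
      inner_sub_right] at h2
    rw [inner_sub_left]
    have h3 := (abs_le.1 h1).2
    have h4 := (abs_le.1 h2).1
    linarith
  have k1 := key τ (by linarith)
  have k2 := key 0 (by rw [abs_zero]; exact hr.le)
  rw [add_zero] at k2
  calc ‖P (t + τ) - P t‖ = ‖(P (t + τ) - Q) - (P t - Q)‖ := by congr 1; abel
    _ ≤ ‖P (t + τ) - Q‖ + ‖P t - Q‖ := norm_sub_le _ _
    _ ≤ 4 := by linarith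

omit [FiniteDimensional ℝ E] in
theorem liou_mp {w : E → ℝ → ℝ} (hw : Cls w) {P : ℝ → E}
    (hP : ∀ t x, w x t = inner ℝ (P t) x + w 0 t) (x : E) (t : ℝ) {r ρ : ℝ} (hr : 0 < r)
    (hρ : r < ρ) :
    (inner ℝ (P (t + r) - P t) x + w 0 (t + r) - w 0 t) / r + ‖P (t + r)‖ ^ 2 / 2 ≤
      (inner ℝ (P (t + ρ) - P t) x + w 0 (t + ρ) - w 0 t) / ρ + ‖P (t + ρ)‖ ^ 2 / 2 := by
  have hρ0 : 0 < ρ := hr.trans hρ
  obtain ⟨η', hη'⟩ := hw.mp x t r ρ hr hρ (r • P (t + r))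
  rw [hP (t + r) (x + _), hP (t + ρ) (x + _), hP t x, inner_add_right, inner_add_right] at hη'
  have e1 := liou_young_eq (P (t + r)) hr
  have e2 := liou_young (P (t + ρ)) η' hρ0
  have l1 : (inner ℝ (P (t + r) - P t) x + w 0 (t + r) - w 0 t) / r + ‖P (t + r)‖ ^ 2 / 2 =
      (inner ℝ (P (t + r)) x + inner ℝ (P (t + r)) (r • P (t + r)) + w 0 (t + r) -
        (inner ℝ (P t) x + w 0 t) - ‖r • P (t + r)‖ ^ 2 / (2 * r)) / r := by
    have : inner ℝ (P (t + r)) x + inner ℝ (P (t + r)) (r • P (t + r)) + w 0 (t + r) -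
        (inner ℝ (P t) x + w 0 t) - ‖r • P (t + r)‖ ^ 2 / (2 * r) =
        (inner ℝ (P (t + r) - P t) x + w 0 (t + r) - w 0 t) + r * ‖P (t + r)‖ ^ 2 / 2 := by
      rw [inner_sub_left]; linarith
    rw [this]; field_simp
  have l2 : (inner ℝ (P (t + ρ)) x + inner ℝ (P (t + ρ)) η' + w 0 (t + ρ) -
        (inner ℝ (P t) x + w 0 t) - ‖η'‖ ^ 2 / (2 * ρ)) / ρ ≤
      (inner ℝ (P (t + ρ) - P t) x + w 0 (t + ρ) - w 0 t) / ρ + ‖P (t + ρ)‖ ^ 2 / 2 := by
    have e3 : (inner ℝ (P (t + ρ) - P t) x + w 0 (t + ρ) - w 0 t) / ρ + ‖P (t + ρ)‖ ^ 2 / 2 =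
        ((inner ℝ (P (t + ρ) - P t) x + w 0 (t + ρ) - w 0 t) + ρ * ‖P (t + ρ)‖ ^ 2 / 2) / ρ := by
      field_simp
    rw [e3]
    refine div_le_div_of_nonneg_right ?_ hρ0.le
    rw [inner_sub_left]; linarith
  rw [l1]
  exact hη'.trans l2

omit [FiniteDimensional ℝ E] in
theorem liou_const {w : E → ℝ → ℝ} (hw : Cls w) {P : ℝ → E}
    (hP : ∀ t x, w x t = inner ℝ (P t) x + w 0 t) (t s : ℝ) : P t = P s := by
  have key : ∀ t r : ℝ, 0 < r → P (t + r) = P t := by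
    intro t r hr
    have h1 : ∀ ρ, r < ρ → ‖P (t + r) - P t‖ ≤ 4 * r / ρ := by
      intro ρ hρ
      have hρ0 : 0 < ρ := hr.trans hρ
      have hz : r⁻¹ • (P (t + r) - P t) - ρ⁻¹ • (P (t + ρ) - P t) = 0 := by
        refine liou_eq_zero (C := (w 0 (t + ρ) - w 0 t) / ρ + ‖P (t + ρ)‖ ^ 2 / 2 -
          ((w 0 (t + r) - w 0 t) / r + ‖P (t + r)‖ ^ 2 / 2)) fun x => ?_
        have h2 := liou_mp hw hP x t hr hρ
        rw [inner_sub_left, real_inner_smul_left, real_inner_smul_left]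
        rw [add_sub_assoc, add_div, add_sub_assoc (inner ℝ (P (t + ρ) - P t) x), add_div] at h2
        rw [div_eq_inv_mul (inner ℝ (P (t + r) - P t) x),
          div_eq_inv_mul (inner ℝ (P (t + ρ) - P t) x)] at h2
        linarith
      have h3 : P (t + r) - P t = (r / ρ) • (P (t + ρ) - P t) := by
        have h4 : r⁻¹ • (P (t + r) - P t) = ρ⁻¹ • (P (t + ρ) - P t) := sub_eq_zero.1 hz
        calc P (t + r) - P t = r • (r⁻¹ • (P (t + r) - P t)) := by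
              rw [smul_smul, mul_inv_cancel₀ hr.ne', one_smul]
          _ = (r / ρ) • (P (t + ρ) - P t) := by rw [h4, smul_smul, div_eq_mul_inv]
      rw [h3, norm_smul, Real.norm_eq_abs, abs_of_pos (div_pos hr hρ0)]
      have h5 := liou_near hw hP t ρ
      calc r / ρ * ‖P (t + ρ) - P t‖ ≤ r / ρ * 4 :=
            mul_le_mul_of_nonneg_left h5 (div_pos hr hρ0).le
        _ = 4 * r / ρ := by ring
    by_contra hne
    have hd : 0 < ‖P (t + r) - P t‖ := norm_pos_iff.2 (sub_ne_zero.2 hne)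
    set d := ‖P (t + r) - P t‖ with hdd
    have hρ : r < r + 8 * r / d := by
      have : 0 < 8 * r / d := by positivity
      linarith
    have h6 := h1 _ hρ
    rw [le_div_iff₀ (hr.trans hρ)] at h6
    have h7 : d * (r + 8 * r / d) = d * r + 8 * r := by field_simp
    have h8 : 0 < d * r := by positivity
    linarith
  rcases lt_trichotomy t s with h | h | h
  · have := key t (s - t) (by linarith)
    rw [add_sub_cancel] at this
    exact this.symm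
  · rw [h]
  · have := key s (t - s) (by linarith)
    rw [add_sub_cancel] at this
    exact this

theorem liou_lin {k : ℝ → ℝ}
    (hk : ∀ a b c : ℝ, a < b → b < c → k b * (c - a) = k a * (c - b) + k c * (b - a)) (t : ℝ) :
    k t = (k 1 - k 0) * t + k 0 := by
  rcases lt_trichotomy t 0 with h | h | h
  · have := hk t 0 1 h one_pos
    linarith
  · rw [h]; ring
  · rcases lt_trichotomy t 1 with h' | h' | h'
    · have := hk 0 t 1 h h'
      linarith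
    · rw [h']; ring
    · have := hk 0 1 t one_pos h'
      linarith

/-- `w x t = ⟪P t, x⟫ + k t` (`affine_of_mid`, `Cls.cont`). (1) `‖P (t+τ) - P t‖ ≤ 4`: frame `(Q,h)` at `(0,t)`,
scale `r ≥ |τ|`, test `η = τ•Q ± ξ`, `‖ξ‖ = r`, subtract: `‖P (t+τ) - Q‖ ≤ 2` (also for `τ = 0`).
(2) `hw.mp x t r ρ` with `η = r • P (t+r)` gives for all `x`
`(⟪P (t+r) - P t, x⟫ + k (t+r) - k t)/r + ‖P (t+r)‖²/2 ≤ (⟪P (t+ρ) - P t, x⟫ + k (t+ρ) - k t)/ρ + ‖P (t+ρ)‖²/2`,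
hence `r⁻¹ • (P (t+r) - P t) = ρ⁻¹ • (P (t+ρ) - P t)`, of norm `≤ 4/ρ → 0`: `P` is constant.
(3) then `mp` says `(k (t+r) - k t)/r ≤ (k (t+ρ) - k t)/ρ` and `mm` says
`(k t - k (t-r))/r ≤ (k t - k (t-ρ))/ρ` for `0 < r < ρ`: for `a < b < c` the first (at `t = a`) and the second
(at `t = c`) give `k b (c - a) = k a (c - b) + k c (b - a)`; conclude `k t = k 0 + t (k 1 - k 0)`. -/
theorem Cls.affine_of_mid {w : E → ℝ → ℝ} (hw : Cls w)
    (hmid : ∀ (x ξ : E) (t : ℝ), w (x + ξ) t + w (x - ξ) t = 2 * w x t) :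
    ∃ (P : E) (k c : ℝ), ∀ x t, w x t = inner ℝ P x + k * t + c := by
  have hc := hw.cont
  have hex : ∀ t : ℝ, ∃ P : E, ∀ x, w x t = inner ℝ P x + w 0 t := fun t =>
    Crest.Agent.R94.affine_of_mid (φ := fun x => w x t)
      (hc.comp (continuous_id.prodMk continuous_const)) fun x ξ => hmid x ξ t
  choose P hP using hex
  have hconst := liou_const hw hP
  have hP0 : ∀ t x, w x t = inner ℝ (P 0) x + w 0 t := fun t x => by
    rw [hP t x, hconst t 0]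
  have hup : ∀ t r ρ : ℝ, 0 < r → r < ρ →
      (w 0 (t + r) - w 0 t) / r ≤ (w 0 (t + ρ) - w 0 t) / ρ := by
    intro t r ρ hr hρ
    have h1 := liou_mp hw hP 0 t hr hρ
    rw [inner_zero_right, inner_zero_right, zero_add, zero_add, hconst (t + r) 0,
      hconst (t + ρ) 0] at h1
    linarith
  have hdown : ∀ t r ρ : ℝ, 0 < r → r < ρ →
      (w 0 t - w 0 (t - r)) / r ≤ (w 0 t - w 0 (t - ρ)) / ρ := by
    intro t r ρ hr hρ
    have hρ0 : 0 < ρ := hr.trans hρ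
    obtain ⟨η', hη'⟩ := hw.mm 0 t r ρ hr hρ (r • (-P 0))
    rw [zero_add, zero_add, hP0 (t - r) (r • _), hP0 (t - ρ) η'] at hη'
    have e1 := liou_young_eq (-P 0) hr
    have e2 := liou_young (-P 0) η' hρ0
    rw [inner_neg_left, norm_neg] at e1 e2
    have l1 : (w 0 t - w 0 (t - r)) / r + ‖P 0‖ ^ 2 / 2 =
        (w 0 t - (inner ℝ (P 0) (r • -P 0) + w 0 (t - r)) - ‖r • -P 0‖ ^ 2 / (2 * r)) / r := by
      have : w 0 t - (inner ℝ (P 0) (r • -P 0) + w 0 (t - r)) - ‖r • -P 0‖ ^ 2 / (2 * r) =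
          (w 0 t - w 0 (t - r)) + r * ‖P 0‖ ^ 2 / 2 := by linarith
      rw [this]; field_simp
    have l2 : (w 0 t - (inner ℝ (P 0) η' + w 0 (t - ρ)) - ‖η'‖ ^ 2 / (2 * ρ)) / ρ ≤
        (w 0 t - w 0 (t - ρ)) / ρ + ‖P 0‖ ^ 2 / 2 := by
      have e3 : (w 0 t - w 0 (t - ρ)) / ρ + ‖P 0‖ ^ 2 / 2 =
          ((w 0 t - w 0 (t - ρ)) + ρ * ‖P 0‖ ^ 2 / 2) / ρ := by field_simp
      rw [e3]
      refine div_le_div_of_nonneg_right ?_ hρ0.le
      linarith
    linarith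
  have hk : ∀ a b c : ℝ, a < b → b < c →
      w 0 b * (c - a) = w 0 a * (c - b) + w 0 c * (b - a) := by
    intro a b c hab hbc
    have h1 := hup a (b - a) (c - a) (by linarith) (by linarith)
    have h2 := hdown c (c - b) (c - a) (by linarith) (by linarith)
    rw [add_sub_cancel, add_sub_cancel,
      div_le_div_iff₀ (by linarith) (by linarith)] at h1
    rw [sub_sub_cancel, sub_sub_cancel,
      div_le_div_iff₀ (by linarith) (by linarith)] at h2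
    nlinarith
  refine ⟨P 0, w 0 1 - w 0 0, w 0 0, fun x t => ?_⟩
  rw [hP0 t x, liou_lin (k := fun s => w 0 s) hk t]
  ring

end Crest.Agent.R94
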