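import Crest.Agent.R94.Move

/-! # Row 94: the deficiency predicate `G`: lower bound, one time step, non-flatness -/

set_option autoImplicit false

namespace Crest.Agent.R94

variable {E : Type*} [NormedAddCommGroup E] [InnerProductSpace ℝ E] [FiniteDimensional ℝ E]
variable {w : E → ℝ → ℝ} {x P p : E} {t κ a lam h H y Y : ℝ}

/-- Speed bound. `norm_le_of_inner` for `P - p`, radius `t`. For `‖ξ‖ = t` use `hv ξ (κ/t)` and
`Cls.ach_le` (bound `U = lam (t+κ) + Tup w κ x t`): `Tup w κ (x+ξ) t - ⟪p,ξ⟫ - t/2 - U ≤ (Y + 3/2) t`.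
Then `Cls.Tup_ge` (`≥ w x t + ⟪P,ξ⟫ + κ h - 2t`), `Cls.Tup_le_frame`, `lam (t+κ) ≤ 3 t`, `2κ ≤ t`. -/
theorem Cls.speed (hw : Cls w) (hl : Lam w lam) (hl2 : lam ≤ 2) (hκ : 0 < κ) (ht : 2 * κ ≤ t)
    (hF : Flat w x t t 1 P h) (hY : 0 ≤ Y) (ha : lam * (t + κ) + Tup w κ x t - Y * κ ≤ a)
    (hv : ∀ (ξ : E) (e : ℝ), 0 < e → e ≤ 1 / 2 → Ach (fun y => Tup w κ y t) x t
      ((1 - e) * a + e * (Tup w κ (x + ξ) t - inner ℝ p ξ - ‖ξ‖ ^ 2 / (2 * t)) -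
        e ^ 2 * ‖ξ‖ ^ 2 * (1 / κ + 1 / t))) : ‖p - P‖ ≤ Y + 8 := by
  have ht0 : 0 < t := by linarith
  rw [norm_sub_rev]
  refine norm_le_of_inner ht0 (by linarith) fun ξ hξ => ?_
  obtain ⟨e, he⟩ : ∃ e, e = κ / t := ⟨_, rfl⟩
  have he0 : 0 < e := he ▸ div_pos hκ ht0
  have het : κ = e * t := by rw [he]; field_simp
  have he1 : e ≤ 1 / 2 := by rw [he, div_le_iff₀ ht0]; linarith
  have h1 := hw.ach_le hl hκ ht0 (hv ξ e he0 he1)
  have h2 := hw.Tup_ge hF hκ (by linarith) ξ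
  have h3 := hw.Tup_le_frame hF hκ ht
  have e1 : t ^ 2 / (2 * t) = t / 2 := by field_simp
  have e2 : t ^ 2 / t = t := by field_simp
  have e3 : e ^ 2 * t ^ 2 * (1 / κ + 1 / t) = e * (t + e * t) := by
    rw [het]; field_simp
  rw [hξ, e1, e3] at h1
  rw [hξ, e2] at h2
  have h4 : lam * (t + κ) ≤ 2 * (t + κ) := mul_le_mul_of_nonneg_right hl2 (by linarith)
  have h5 : (1 - e) * (lam * (t + κ) + Tup w κ x t - Y * κ) ≤ (1 - e) * a :=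
    mul_le_mul_of_nonneg_left ha (by linarith)
  have h6 : 0 ≤ e * (Y * κ) := by positivity
  have h7 : Y * κ = e * (Y * t) := by rw [het]; ring
  have h8 : e * (Tup w κ (x + ξ) t - inner ℝ p ξ - t / 2 - (lam * (t + κ) + Tup w κ x t)) ≤
      e * (Y * t + t + κ) := by
    have : e * (e * t) = e * κ := by rw [het]
    nlinarith
  have h9 := le_of_mul_le_mul_left h8 he0
  rw [inner_sub_left]
  nlinarith

/-- `Cls.ach_le`, `Tup_eq`, `Tlo_eq`. -/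
theorem G.sum_ge (hG : G w lam κ H x t y) (hw : Cls w) (hl : Lam w lam) (hκ : 0 < κ) (ht : 0 < t) :
    2 * H - y ≤ Sp w κ x t + Sm w κ x t := by
  obtain ⟨a, h1, h2⟩ := hG
  have h3 := hw.ach_le hl hκ ht h1
  rw [Tup_eq w hκ] at h3
  rw [Tlo_eq w hκ] at h2
  refine le_of_mul_le_mul_left ?_ hκ
  linarith

theorem G.nonneg (hG : G w lam κ H x t y) (hw : Cls w) (hl : Lam w lam) (hκ : 0 < κ) (ht : 0 < t)
    (hreg : Reg w κ H x t) : 0 ≤ y := by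
  have := hG.sum_ge hw hl hκ ht
  linarith [hreg.1, hreg.2]

omit [FiniteDimensional ℝ E] in
theorem Step_up (hκ : 0 < κ) (hreg : Reg w κ H x t) : Tup w κ x t ≤ Tlo w κ x t + 2 * κ * H := by
  rw [Tup_eq w hκ, Tlo_eq w hκ]
  linarith [mul_le_mul_of_nonneg_left hreg.1 hκ.le, mul_le_mul_of_nonneg_left hreg.2 hκ.le]

/-- One step. `a0` the witness of `hG`; `a = p`, `B` from `Cls.move`; `b` from `Cls.exists_min'`
(`Tlo w κ x t = w (x - κ•b) (t-κ) + κ‖b‖²/2`). Define `y1`, `y2` so that the defining inequalities of `G`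
are equalities for the head and the tail configurations. Use `Tlo w κ (x+κ•a) (t+κ) ≤ w x t + κ‖a‖²/2`
(`Cls.Tlo_le`), `Tlo w κ (x-κ•b) (t-κ) ≤ 2 Tlo w κ x t - w x t - κ‖b‖²/2` (`Cls.is_lo`, `Tlo_eq`);
`B` cancels in `y1 + y2`. Translation: `Tlo w κ (x+κ•η) t ≤ w (x-κ•b) (t-κ) + κ‖b+η‖²/2`.
Speeds: `hreg` gives `Tup w κ x t ≤ Tlo w κ x t + 2κH`, so `Cls.speed` with `Y = y` (`G.nonneg`) gives
`‖a - P‖ ≤ y + 8`; `G.nonneg` at `x + κ•η`, `‖η‖ = 1`, and `norm_le_of_inner` give `‖a - b‖ ≤ y + 1`. -/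
theorem G.step (hG : G w lam κ H x t y) (hw : Cls w) (hl : Lam w lam) (hl2 : lam ≤ 2) (hκ : 0 < κ)
    (ht : 2 * κ ≤ t) (hF : Flat w x t t 1 P h) (hreg : Reg w κ H x t)
    (hreg' : ∀ η : E, ‖η‖ ≤ 1 → Reg w κ H (x + κ • η) t) :
    ∃ (a b : E) (y1 y2 : ℝ), ‖a - P‖ ≤ 2 * y + 9 ∧ ‖b - P‖ ≤ 2 * y + 9 ∧
      G w lam κ H (x + κ • a) (t + κ) y1 ∧ G w lam κ H (x - κ • b) (t - κ) y2 ∧
      y1 + y2 ≤ 2 * y ∧
      ∀ η : E, G w lam κ H (x + κ • η) t (y - inner ℝ (a - b) η + ‖η‖ ^ 2) := by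
  have ht0 : 0 < t := by linarith
  have hy := hG.nonneg hw hl hκ ht0 hreg
  obtain ⟨a0, h1, h2⟩ := hG
  obtain ⟨p, B, -, m2, m3, m4, m5⟩ := hw.move hκ (by linarith) h1
  obtain ⟨b, hb⟩ := hw.exists_min' hκ x t
  have tr : ∀ η : E, G w lam κ H (x + κ • η) t (y - inner ℝ (p - b) η + ‖η‖ ^ 2) := fun η => by
    refine ⟨_, m4 η, ?_⟩
    have k := hw.Tlo_le_vel hκ (x + κ • η) t (b + η)
    rw [show x + κ • η - κ • (b + η) = x - κ • b by module, norm_add_sq_real] at k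
    rw [inner_sub_left]
    linarith
  have s1 : ‖p - P‖ ≤ y + 8 :=
    hw.speed hl hl2 hκ ht hF hy (by linarith [Step_up hκ hreg]) m5
  have s2 : ‖p - b‖ ≤ y + 1 := by
    refine norm_le_of_inner one_pos (by linarith) fun η hη => ?_
    have k := (tr η).nonneg hw hl hκ ht0 (hreg' η hη.le)
    rw [hη] at k
    linarith
  have s3 : ‖b - P‖ ≤ ‖p - P‖ + ‖p - b‖ := by
    rw [show b - P = (p - P) - (p - b) by abel]
    exact norm_sub_le _ _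
  refine ⟨p, b, (lam * (t + κ + κ) + Tlo w κ (x + κ • p) (t + κ) + 2 * κ * H -
      (2 * a0 - B + κ * ‖p‖ ^ 2 / 2)) / κ,
    (lam * (t - κ + κ) + Tlo w κ (x - κ • b) (t - κ) + 2 * κ * H - (B - κ * ‖b‖ ^ 2 / 2)) / κ,
    by linarith, by linarith, ⟨_, m2, by rw [mul_div_cancel₀ _ hκ.ne']⟩,
    ⟨_, m3 b, by rw [mul_div_cancel₀ _ hκ.ne']⟩, ?_, tr⟩
  have k1 := hw.Tlo_le_vel hκ (x + κ • p) (t + κ) p
  rw [add_sub_cancel_right, add_sub_cancel_right] at k1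
  have k2 := mul_le_mul_of_nonneg_left (hw.is_lo hκ hb) hκ.le
  have k3 := Tlo_eq w hκ x t
  have k4 := Tlo_eq w hκ (x - κ • b) (t - κ)
  rw [← add_div, div_le_iff₀ hκ]
  linarith

/-- Non-flatness. `Ach.weak` with slope `q` and `c = Tup w (t+κ) (x - t•q) 0 + t‖q‖²/2`: for each `ξ` write
`Tup w κ (x+ξ) t` by its maximiser `z = x + ξ + κ•p`, note
`‖ξ‖²/(2t) + ⟪q,ξ⟫ + t‖q‖²/2 = ‖ξ + t•q‖²/(2t)`, use `sq_split (ξ + t•q) (κ•p)` and `Cls.le_Tup`.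
Then `Tlo w κ x t + 2κH ≥ Tup w κ x t ≥ w (x+κ•q) (t+κ) - κ‖q‖²/2` (`hreg`, `le_Tup_vel`). -/
theorem G.nf (hG : G w lam κ H x t y) (hw : Cls w) (hκ : 0 < κ) (ht : 0 < t)
    (hreg : Reg w κ H x t) (q : E) :
    lam * (t + κ) - y * κ ≤
      Tup w (t + κ) (x - t • q) 0 + (t + κ) * ‖q‖ ^ 2 / 2 - w (x + κ • q) (t + κ) := by
  obtain ⟨a0, h1, h2⟩ := hG
  have h3 : a0 ≤ Tup w (t + κ) (x - t • q) 0 + t * ‖q‖ ^ 2 / 2 := h1.weak q fun ξ => by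
    obtain ⟨p, hp⟩ := hw.exists_max' hκ (x + ξ) t
    have k1 := hw.le_Tup (add_pos ht hκ) (x - t • q) 0 (x + ξ + κ • p) (zero_add _).symm
    rw [show x + ξ + κ • p - (x - t • q) = ξ + t • q + κ • p by abel] at k1
    have k2 := sq_split (ξ + t • q) (κ • p) ht hκ
    have k3 : ‖ξ + t • q‖ ^ 2 / (2 * t) = ‖ξ‖ ^ 2 / (2 * t) + inner ℝ q ξ + t * ‖q‖ ^ 2 / 2 := by
      rw [norm_add_sq_real, inner_smul_right, norm_smul, Real.norm_of_nonneg ht.le,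
        real_inner_comm q ξ]
      field_simp
    have k4 : ‖κ • p‖ ^ 2 / (2 * κ) = κ * ‖p‖ ^ 2 / 2 := by
      rw [norm_smul, Real.norm_of_nonneg hκ.le]
      field_simp
    simp only [hp]
    linarith
  linarith [Step_up hκ hreg, hw.le_Tup_vel hκ x t q]

end Crest.Agent.R94
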