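import Crest.Agent.R94.UB
import Crest.Agent.R94.Step

/-! # Row 94: rigidity in a window of scales where the slopes hardly change -/

set_option autoImplicit false

namespace Crest.Agent.R94

variable {E : Type*} [NormedAddCommGroup E] [InnerProductSpace ℝ E] [FiniteDimensional ℝ E]
variable {w : E → ℝ → ℝ} {x x' P a b : E} {t t' T ε l D : ℝ}

omit [FiniteDimensional ℝ E] in
theorem RL_lower (hw : Cls w) (hT : 0 < T) (hε : 0 ≤ ε)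
    (ha : Tup w T x t = w (x + T • a) (t + T) - T * ‖a‖ ^ 2 / 2) {θ : E} {τ : ℝ} (hτ : 2 * |τ| ≤ T)
    (hS : Sp w (T - τ) (x + θ + τ • a) (t + τ) ≤ Sp w T x t + ε) :
    w x t + τ * (Sp w T x t + ‖a‖ ^ 2 / 2) + inner ℝ a θ - 3 / 2 * (ε * T) - ‖θ‖ ^ 2 / T ≤
      w (x + θ + τ • a) (t + τ) := by
  have h1 := le_abs_self τ
  have h2 := neg_abs_le τ
  have hr : 0 < T - τ := by linarith
  have h3 := hw.le_Tup hr (x + θ + τ • a) (t + τ) (x + T • a) (t' := t + T) (by ring)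
  have e : x + T • a - (x + θ + τ • a) = (T - τ) • a - θ := by
    rw [sub_smul]
    abel
  have e2 : ‖(T - τ) • a - θ‖ ^ 2 / (2 * (T - τ)) =
      (T - τ) * ‖a‖ ^ 2 / 2 - inner ℝ a θ + ‖θ‖ ^ 2 / (2 * (T - τ)) := by
    rw [norm_sub_sq_real, real_inner_smul_left, norm_smul, Real.norm_of_nonneg hr.le]
    field_simp
  rw [e, e2, Tup_eq w hr] at h3
  rw [Tup_eq w hT] at ha
  have h4 := mul_le_mul_of_nonneg_left hS hr.le
  have h5 : ‖θ‖ ^ 2 / (2 * (T - τ)) ≤ ‖θ‖ ^ 2 / T := by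
    gcongr
    linarith
  have h6 : (T - τ) * ε ≤ 3 / 2 * T * ε := mul_le_mul_of_nonneg_right (by linarith) hε
  linarith

omit [FiniteDimensional ℝ E] in
theorem RL_upper (hw : Cls w) (hT : 0 < T) (hε : 0 ≤ ε)
    (hb : Tlo w T x t = w (x - T • b) (t - T) + T * ‖b‖ ^ 2 / 2) {θ : E} {τ : ℝ} (hτ : 2 * |τ| ≤ T)
    (hS : Sm w (T + τ) (x + θ + τ • b) (t + τ) ≤ Sm w T x t + ε) :
    w (x + θ + τ • b) (t + τ) ≤ w x t + τ * (Sm w T x t + ‖b‖ ^ 2 / 2) + inner ℝ b θ +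
      3 / 2 * (ε * T) + ‖θ‖ ^ 2 / T := by
  have h1 := le_abs_self τ
  have h2 := neg_abs_le τ
  have hr : 0 < T + τ := by linarith
  have h3 := hw.Tlo_le hr (x + θ + τ • b) (t + τ) (x - T • b) (t' := t - T) (by ring)
  have e : x - T • b - (x + θ + τ • b) = -((T + τ) • b + θ) := by
    rw [add_smul]
    abel
  have e2 : ‖(T + τ) • b + θ‖ ^ 2 / (2 * (T + τ)) =
      (T + τ) * ‖b‖ ^ 2 / 2 + inner ℝ b θ + ‖θ‖ ^ 2 / (2 * (T + τ)) := by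
    rw [norm_add_sq_real, real_inner_smul_left, norm_smul, Real.norm_of_nonneg hr.le]
    field_simp
  rw [e, norm_neg, e2, Tlo_eq w hr] at h3
  rw [Tlo_eq w hT] at hb
  have h4 := mul_le_mul_of_nonneg_left hS hr.le
  have h5 : ‖θ‖ ^ 2 / (2 * (T + τ)) ≤ ‖θ‖ ^ 2 / T := by
    gcongr
    linarith
  have h6 : (T + τ) * ε ≤ 3 / 2 * T * ε := mul_le_mul_of_nonneg_right (by linarith) hε
  linarith

/-- `S⁺ = Sp w T x t`, `S⁻ = Sm w T x t`. For `|τ| ≤ σ`, `‖θ‖ ≤ μ` and `z = x + θ + τ•a` (offset from the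
`P`-axis `≤ μ + Dσ ≤ l`):
lower: `w z (t+τ) ≥ w x t + τ(S⁺ + ‖a‖²/2) + ⟪a,θ⟫ - 1.5 εT - ‖θ‖²/T`, from `Cls.le_Tup` at `(z,t+τ)`, scale
`T - τ ∈ [T/2, 3T/2]`, target `(x + T•a, t+T)`, `Tup_eq`, `hU`;
upper: with `θ' = θ + τ•(a-b)`, `w z (t+τ) ≤ w x t + τ(S⁻ + ‖b‖²/2) + ⟪b,θ'⟫ + 1.5 εT + ‖θ'‖²/T`, from
`Cls.Tlo_le` at scale `T + τ`, target `(x - T•b, t-T)`.
`L(θ,τ) = τ(S⁺ - S⁻ + ‖a-b‖²/2) + ⟪a-b,θ⟫` is (lower affine part) - (upper affine part); lower ≤ upper at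
`(-η,-τ2)` gives `L(η,τ2) ≥ -(3εT + ‖η‖²/T + ‖η'‖²/T)`. Now use lower at `(η,τ1)`, upper at `(η,τ2)`, and
`Tup w s z2 ≤ w z2 + s (S⁺ + ε)` (`hU`, `s = τ1 - τ2 ≤ T`); `‖η‖, ‖η'‖ ≤ μ + 2Dσ`. -/
theorem Cls.rl (hw : Cls w) (hT : 0 < T) (hε : 0 ≤ ε) (hl : 2 * l ≤ T)
    (ha : Tup w T x t = w (x + T • a) (t + T) - T * ‖a‖ ^ 2 / 2)
    (hb : Tlo w T x t = w (x - T • b) (t - T) + T * ‖b‖ ^ 2 / 2)
    (haP : ‖a - P‖ ≤ D) (hbP : ‖b - P‖ ≤ D)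
    (hU : ∀ (x' : E) (t' r : ℝ), |t' - t| ≤ l → ‖x' - x - (t' - t) • P‖ ≤ l → 0 < r → r ≤ 2 * T →
      Sp w r x' t' ≤ Sp w T x t + ε ∧ Sm w r x' t' ≤ Sm w T x t + ε)
    (η : E) {τ1 τ2 σ μ : ℝ} (hτ : τ2 < τ1) (h1 : |τ1| ≤ σ) (h2 : |τ2| ≤ σ) (hη : ‖η‖ ≤ μ)
    (hσ : σ ≤ l) (hμ : μ + D * σ ≤ l) :
    Tup w (τ1 - τ2) (x + η + τ2 • a) (t + τ2) + (τ1 - τ2) * ‖a‖ ^ 2 / 2 -
      w (x + η + τ1 • a) (t + τ1) ≤ 7 * ε * T + 4 * (μ + 2 * D * σ) ^ 2 / T := by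
  have hσ0 : 0 ≤ σ := (abs_nonneg _).trans h1
  have hD0 : 0 ≤ D := (norm_nonneg _).trans haP
  have hμ0 : 0 ≤ μ := (norm_nonneg _).trans hη
  have hU' : ∀ (θ : E) (τ r : ℝ), |τ| ≤ σ → ‖θ‖ ≤ μ → 0 < r → r ≤ 2 * T →
      Sp w r (x + θ + τ • a) (t + τ) ≤ Sp w T x t + ε ∧
        Sm w r (x + θ + τ • a) (t + τ) ≤ Sm w T x t + ε := by
    intro θ τ r hτ' hθ hr hr'
    refine hU _ _ r ?_ ?_ hr hr'
    · rw [add_sub_cancel_left]
      exact hτ'.trans hσ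
    · have e : x + θ + τ • a - x - (t + τ - t) • P = θ + τ • (a - P) := by
        rw [add_sub_cancel_left, smul_sub]
        abel
      rw [e]
      refine (norm_add_le _ _).trans (le_trans (add_le_add hθ ?_) hμ)
      rw [norm_smul, Real.norm_eq_abs, mul_comm]
      exact mul_le_mul haP hτ' (abs_nonneg _) hD0
  have lo : ∀ (θ : E) (τ : ℝ), |τ| ≤ σ → ‖θ‖ ≤ μ →
      w x t + τ * (Sp w T x t + ‖a‖ ^ 2 / 2) + inner ℝ a θ - 3 / 2 * (ε * T) - ‖θ‖ ^ 2 / T ≤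
        w (x + θ + τ • a) (t + τ) := by
    intro θ τ hτ' hθ
    have h3 := abs_le.1 hτ'
    exact RL_lower hw hT hε ha (by linarith)
      (hU' θ τ _ hτ' hθ (by linarith) (by linarith)).1
  have up : ∀ (θ : E) (τ : ℝ), |τ| ≤ σ → ‖θ‖ ≤ μ →
      w (x + θ + τ • a) (t + τ) ≤ w x t + τ * (Sm w T x t + ‖b‖ ^ 2 / 2) +
        inner ℝ b (θ + τ • (a - b)) + 3 / 2 * (ε * T) + ‖θ + τ • (a - b)‖ ^ 2 / T := by
    intro θ τ hτ' hθ
    have h3 := abs_le.1 hτ'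
    have e : x + θ + τ • a = x + (θ + τ • (a - b)) + τ • b := by
      rw [smul_sub]
      abel
    have h4 := (hU' θ τ (T + τ) hτ' hθ (by linarith) (by linarith)).2
    rw [e] at h4 ⊢
    exact RL_upper hw hT hε hb (by linarith) h4
  have k1 := lo η τ1 h1 hη
  have k2 := up η τ2 h2 hη
  have k3 := (lo (-η) (-τ2) (by rwa [abs_neg]) (by rwa [norm_neg])).trans
    (up (-η) (-τ2) (by rwa [abs_neg]) (by rwa [norm_neg]))
  have e : -η + -τ2 • (a - b) = -(η + τ2 • (a - b)) := by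
    rw [neg_smul, neg_add]
  rw [e, inner_neg_right, inner_neg_right, norm_neg, norm_neg] at k3
  have h3 := abs_le.1 h1
  have h4 := abs_le.1 h2
  have hs : 0 < τ1 - τ2 := sub_pos.2 hτ
  have k4 := mul_le_mul_of_nonneg_left (hU' η τ2 (τ1 - τ2) h2 hη hs (by linarith)).1 hs.le
  have k5 : (τ1 - τ2) * ε ≤ T * ε := mul_le_mul_of_nonneg_right (by linarith) hε
  have n1 : ‖η‖ ^ 2 / T ≤ (μ + 2 * D * σ) ^ 2 / T := by
    have : 0 ≤ D * σ := mul_nonneg hD0 hσ0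
    gcongr
    linarith
  have n2 : ‖η + τ2 • (a - b)‖ ^ 2 / T ≤ (μ + 2 * D * σ) ^ 2 / T := by
    gcongr
    refine (norm_add_le _ _).trans (add_le_add hη ?_)
    rw [norm_smul, Real.norm_eq_abs, mul_comm]
    refine mul_le_mul ?_ h2 (abs_nonneg _) (by linarith)
    have := norm_sub_le (a - P) (b - P)
    rw [sub_sub_sub_cancel_right] at this
    linarith
  rw [Tup_eq w hs, mul_div_assoc 4]
  linarith

/-- `ρ = 2^q σ`, `l = 2Rσ`, `D = 5q + 11`. Frames `(P1,h1)` at `(x',t')` scale `4ρ` (`Flat.two`: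
`‖P - P1‖ ≤ 9`) and `(P2,h2)` at `(x',t')` scale `4 (Tσ)` (`Cls.chain` with `n = q`); `a`, `b` from
`Cls.exists_max`, `Cls.exists_min` at scale `Tσ`, so `‖a - P1‖, ‖b - P1‖ ≤ D`. `hU` of `Cls.rl` with
`ε + 400 (q+3)² R/2^q` follows from `ub_up`, `ub_lo` (`n = q + 2`), `hgap` and `Sp_mono`, `Sm_mono`.
Apply `Cls.rl` at `(x',t')` with `η = x - x' - (σ - t')•a`, `τ2 = -t'`, `τ1 = σ + κ - t'`, `σ := 2σ`,
`μ = (R + 10 + D)σ` (`μ + 4Dσ ≤ 2Rσ`), compare with `G.nf` (`q := a`), divide by `σ`. -/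
theorem Cls.window (hw : Cls w) {lam κ H σ y Y h R : ℝ} (hl0 : 0 ≤ lam) (q : ℕ) (hκ : 0 < κ)
    (hκσ : κ ≤ σ) (hG : G w lam κ H x σ y) (hreg : Reg w κ H x σ) (hy : y ≤ Y)
    (hF : Flat w x σ (4 * (2 ^ q * σ)) 1 P h) (ht0 : 0 ≤ t') (ht1 : t' ≤ σ)
    (htube : ‖x' - x - (t' - σ) • P‖ ≤ (R + 1) * σ) (hR : 25 * q + 65 ≤ R) (hT1 : 4 * R ≤ T)
    (hT2 : 4 * T ≤ 2 ^ q) (hε : 0 ≤ ε)
    (hgap : Sp w (2 ^ q * σ) x' t' + Sm w (2 ^ q * σ) x' t' ≤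
      Sp w (T * σ) x' t' + Sm w (T * σ) x' t' + ε) :
    lam ≤ Y * κ / σ + 7 * (ε + 400 * (q + 3) ^ 2 * R / 2 ^ q) * T + 16 * R ^ 2 / T := by
  have hσ : 0 < σ := hκ.trans_le hκσ
  have hq : (0 : ℝ) ≤ q := Nat.cast_nonneg q
  have h2q : (0 : ℝ) < 2 ^ q := by positivity
  have hR0 : 0 < R := by linarith
  have hT0 : 0 < T := by linarith
  have hρ : 0 < 2 ^ q * σ := by positivity
  have hTσ : 0 < T * σ := by positivity
  have m1 : 4 * R * σ ≤ T * σ := mul_le_mul_of_nonneg_right hT1 hσ.le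
  have m2 : 4 * T * σ ≤ 2 ^ q * σ := mul_le_mul_of_nonneg_right hT2 hσ.le
  have m3 : (25 * q + 65) * σ ≤ R * σ := mul_le_mul_of_nonneg_right hR hσ.le
  have m4 : 0 ≤ q * σ := by positivity
  obtain ⟨P1, h1, hF1⟩ := hw.flat x' t' (4 * (2 ^ q * σ)) (by positivity)
  obtain ⟨P2, h2, hF2⟩ := hw.flat x' t' (4 * (T * σ)) (by positivity)
  have d1 : ‖P - P1‖ ≤ 9 := hF.two hF1 (by positivity)
    (abs_le.2 ⟨by linarith, by linarith⟩) (htube.trans (by linarith))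
  have d2 : ‖P2 - P1‖ ≤ 5 * (q + 1) := (hw.chain q hF2 hF1 (by positivity) (by linarith) (by
    have : 2 ^ q * σ * 1 ≤ 2 ^ q * σ * T := mul_le_mul_of_nonneg_left (by linarith) hρ.le
    linarith)).1
  obtain ⟨a, ha1, ha⟩ := hw.exists_max hTσ hF2
  obtain ⟨b, hb1, hb⟩ := hw.exists_min hTσ hF2
  have d3 : ‖a - P1‖ ≤ 5 * q + 11 := (norm_sub_le_norm_sub_add_norm_sub a P2 P1).trans (by linarith)
  have d4 : ‖b - P1‖ ≤ 5 * q + 11 := (norm_sub_le_norm_sub_add_norm_sub b P2 P1).trans (by linarith)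
  have g1 := hw.Sp_mono hTσ (show T * σ ≤ 2 ^ q * σ by linarith) x' t'
  have g2 := hw.Sm_mono hTσ (show T * σ ≤ 2 ^ q * σ by linarith) x' t'
  have e0 : 200 * (((q + 2 : ℕ) : ℝ) + 1) ^ 2 * (2 * R * σ) / (2 ^ q * σ) =
      400 * (q + 3) ^ 2 * R / 2 ^ q := by
    push_cast
    field_simp
    ring
  have hb2 : 4 * (2 ^ q * σ) ≤ 2 ^ (q + 2) * (2 * R * σ) := by
    have : 2 ^ q * σ * 1 ≤ 2 ^ q * σ * R := mul_le_mul_of_nonneg_left (by linarith) hρ.le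
    rw [pow_add]
    nlinarith
  have hη : ‖x - x' - (σ - t') • a‖ ≤ (R + 10 + (5 * q + 11)) * σ := by
    have e : x - x' - (σ - t') • a = (σ - t') • (P - a) - (x' - x - (t' - σ) • P) := by
      simp only [smul_sub, sub_smul]
      abel
    have d5 : ‖P - a‖ ≤ 9 + (5 * q + 11) := by
      refine (norm_sub_le_norm_sub_add_norm_sub P P1 a).trans (add_le_add d1 ?_)
      rwa [norm_sub_rev]
    have d6 : ‖(σ - t') • (P - a)‖ ≤ σ * (9 + (5 * q + 11)) := by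
      rw [norm_smul, Real.norm_of_nonneg (by linarith)]
      exact mul_le_mul (by linarith) d5 (norm_nonneg _) hσ.le
    rw [e]
    exact (norm_sub_le _ _).trans (by linarith)
  have key := hw.rl (ε := ε + 400 * (q + 3) ^ 2 * R / 2 ^ q) (l := 2 * R * σ) hTσ (by positivity)
    (by linarith) ha hb d3 d4 (fun x'' t'' r k1 k2 k3 k4 => by
      have u1 := hw.ub_up (q + 2) hF1 (by positivity) (by linarith) hb2 k1 k2 k3 (by linarith)
      have u2 := hw.ub_lo (q + 2) hF1 (by positivity) (by linarith) hb2 k1 k2 k3 (by linarith)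
      rw [e0] at u1 u2
      constructor <;> linarith)
    (x - x' - (σ - t') • a) (τ1 := σ + κ - t') (τ2 := -t') (σ := 2 * σ) (by linarith)
    (abs_le.2 ⟨by linarith, by linarith⟩) (abs_le.2 ⟨by linarith, by linarith⟩) hη
    (by linarith) (by linarith)
  have e1 : σ + κ - t' - -t' = σ + κ := by ring
  have e2 : x' + (x - x' - (σ - t') • a) + -t' • a = x - σ • a := by
    simp only [sub_smul, neg_smul]
    abel
  have e3 : x' + (x - x' - (σ - t') • a) + (σ + κ - t') • a = x + κ • a := by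
    simp only [sub_smul, add_smul]
    abel
  have e4 : t' + (σ + κ - t') = σ + κ := by ring
  rw [e1, e2, e3, e4, add_neg_cancel] at key
  have k1 := (hG.nf hw hκ hσ hreg a).trans key
  have k2 : 4 * ((R + 10 + (5 * q + 11)) * σ + 2 * (5 * q + 11) * (2 * σ)) ^ 2 / (T * σ) ≤
      16 * R ^ 2 / T * σ := by
    have : 16 * R ^ 2 / T * σ = 4 * (2 * R * σ) ^ 2 / (T * σ) := by
      field_simp
      ring
    rw [this]
    gcongr
    linarith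
  have k3 : y * κ ≤ Y * κ := mul_le_mul_of_nonneg_right hy hκ.le
  have k4 : 0 ≤ lam * κ := mul_nonneg hl0 hκ.le
  refine le_of_mul_le_mul_right ?_ hσ
  rw [add_mul, add_mul, div_mul_cancel₀ _ hσ.ne']
  linarith

end Crest.Agent.R94
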