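import Crest.Agent.R94.Step

/-! # Row 94: the first configuration of bounded deficiency -/

set_option autoImplicit false

namespace Crest.Agent.R94

variable {E : Type*} [NormedAddCommGroup E] [InnerProductSpace ℝ E] [FiniteDimensional ℝ E]
variable {w : E → ℝ → ℝ} {x P : E} {t κ a0 lam h : ℝ}

/-- By contradiction, `c = a0 + κ (h - 32)` bounds all achieved values; `ach_strong` (continuity from
`Cls.Tup_cont`) gives `p` with `Tup w κ (x+ξ) t - ‖ξ‖²/(2t) - ⟪p,ξ⟫ ≤ c` for all `ξ`.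
(1) `‖P - p‖ ≤ 9/2`: `norm_le_of_inner`, radius `t`, `Cls.Tup_ge`, `a0 ≤ w x t + 2t` (`Cls.lam_two`).
(2) `z = x - t•p`. `Tup w (t+κ) z 0 ≤ c - t‖p‖²/2`: write it by its maximiser `z + (t+κ)•v` and use the
intermediate point `x + ξ = z + t•v` (`le_Tup_vel` at `(z + t•v, t)` with velocity `v`).
(3) `Tup w (t+κ) z 0 ≥ Tup w t z 0 + κ Sp w t z 0` (`Tup_eq`, `Sp_mono`), `Tup w t z 0 + t‖p‖²/2 ≥ a0`
(`Ach.weak` with slope `p`, `Cls.le_Tup`), and `Sp w t z 0 ≥ h - 1 - 1.5‖P-p‖²` (`le_Tup` at the point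
`(x,t)`, `hF (-(t•p)) (-t)`). Since `1 + 1.5 * 20.25 < 32`, contradiction. -/
theorem Cls.lemmaA (hw : Cls w) (hκ : 0 < κ) (ht : 2 * κ ≤ t) (hF : Flat w x t t 1 P h)
    (h0 : Ach (fun y => w y t) x t a0) :
    ∃ a, Ach (fun y => Tup w κ y t) x t a ∧ a0 + κ * (h - 32) ≤ a := by
  by_contra hcon
  have ht0 : 0 < t := by linarith
  have hc : ∀ a, Ach (fun y => Tup w κ y t) x t a → a ≤ a0 + κ * (h - 32) := fun a ha => by
    by_contra h1
    exact hcon ⟨a, ha, (not_le.1 h1).le⟩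
  have hcont : Continuous fun y : E => Tup w κ y t :=
    (hw.Tup_cont hκ).comp (continuous_id.prodMk continuous_const)
  obtain ⟨p, hp⟩ := ach_strong hcont hc
  have ha0 : a0 ≤ w x t + 2 * t := hw.lam_two x t t a0 ht0 h0
  have h1 : ‖P - p‖ ≤ 9 / 2 := by
    refine norm_le_of_inner ht0 (by norm_num) fun ξ hξ => ?_
    have e1 := hw.Tup_ge hF hκ (by linarith) ξ
    have e2 := hp ξ
    rw [hξ] at e1 e2
    have e3 : t ^ 2 / t = t := by field_simp
    have e4 : t ^ 2 / (2 * t) = t / 2 := by field_simp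
    rw [e3] at e1
    rw [e4] at e2
    rw [inner_sub_left]
    linarith
  have h2 : Tup w (t + κ) (x - t • p) 0 ≤ a0 + κ * (h - 32) - t * ‖p‖ ^ 2 / 2 := by
    obtain ⟨v, hv⟩ := hw.exists_max' (r := t + κ) (by linarith) (x - t • p) 0
    have e1 := hw.le_Tup_vel hκ (x + t • (v - p)) t v
    have e2 := hp (t • (v - p))
    have e3 : x + t • (v - p) + κ • v = x - t • p + (t + κ) • v := by module
    have e4 : ‖t • (v - p)‖ ^ 2 / (2 * t) + inner ℝ p (t • (v - p)) =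
        t * ‖v‖ ^ 2 / 2 - t * ‖p‖ ^ 2 / 2 := by
      rw [norm_smul, mul_pow, Real.norm_eq_abs, sq_abs, norm_sub_sq_real, inner_smul_right,
        inner_sub_right, real_inner_self_eq_norm_sq, real_inner_comm v p]
      field_simp
      ring
    rw [e3] at e1
    rw [hv, zero_add]
    linarith
  have h3 : a0 ≤ Tup w t (x - t • p) 0 + t * ‖p‖ ^ 2 / 2 := by
    refine h0.weak p fun ξ => ?_
    have e1 := hw.le_Tup ht0 (x - t • p) 0 (x + ξ) (t' := t) (zero_add t).symm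
    have e3 : x + ξ - (x - t • p) = ξ + t • p := by module
    have e4 : ‖ξ + t • p‖ ^ 2 / (2 * t) =
        ‖ξ‖ ^ 2 / (2 * t) + inner ℝ p ξ + t * ‖p‖ ^ 2 / 2 := by
      rw [norm_add_sq_real, norm_smul, mul_pow, Real.norm_eq_abs, sq_abs, inner_smul_right,
        real_inner_comm ξ p]
      field_simp
    rw [e3, e4] at e1
    linarith
  have h4 : h - 1 - 3 / 2 * ‖P - p‖ ^ 2 ≤ Sp w t (x - t • p) 0 := by
    have e1 := hw.le_Tup ht0 (x - t • p) 0 x (t' := t) (zero_add t).symm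
    have e2 := (abs_le.1 (hF (-(t • p)) (-t) (by rw [abs_neg, abs_of_pos ht0]))).2
    have e3 : ‖x - (x - t • p)‖ ^ 2 / (2 * t) = t * ‖p‖ ^ 2 / 2 := by
      rw [sub_sub_cancel, norm_smul, mul_pow, Real.norm_eq_abs, sq_abs]
      field_simp
    have e4 : ‖-(t • p) - (-t) • P‖ ^ 2 / t = t * ‖P - p‖ ^ 2 := by
      rw [show -(t • p) - (-t) • P = t • (P - p) by module, norm_smul, mul_pow, Real.norm_eq_abs,
        sq_abs]
      field_simp
    rw [e4, ← sub_eq_add_neg x, add_neg_cancel, inner_neg_right, inner_smul_right] at e2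
    rw [e3, Tup_eq w ht0] at e1
    have e5 := norm_sub_sq_real P p
    refine le_of_mul_le_mul_left ?_ ht0
    have e6 : t * ‖P - p‖ ^ 2 = t * (‖P‖ ^ 2 - 2 * inner ℝ P p + ‖p‖ ^ 2) := by rw [e5]
    nlinarith
  have h5 := hw.Sp_mono (ρ := t + κ) ht0 (by linarith) (x - t • p) 0
  have h6 := Tup_eq w (r := t + κ) (by linarith) (x - t • p) 0
  have h7 := Tup_eq w ht0 (x - t • p) 0
  have h8 := mul_le_mul_of_nonneg_left h5 (show 0 ≤ t + κ by linarith)
  have h9 : ‖P - p‖ ^ 2 ≤ (9 / 2) ^ 2 := pow_le_pow_left₀ (norm_nonneg _) h1 2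
  have h10 : h - 251 / 8 ≤ Sp w t (x - t • p) 0 := by linarith
  have h11 := mul_le_mul_of_nonneg_left h10 hκ.le
  nlinarith

/-- `a` from `lemmaA`, so `a ≥ w x t + lam t + κ (h - 33)`; `p, B` from `Cls.move`; `Cls.speed` with
`Y = 37` (`Cls.Tup_le_frame`, `lam ≤ 2`); the head configuration, `B ≤ w x t + lam t` (`hl`) and
`Tlo w κ (x+κ•p) (t+κ) ≤ w x t + κ‖p‖²/2` give the bound `2(H-h) + 66 + 2 lam`. -/
theorem Cls.start (hw : Cls w) (hl : Lam w lam) (hl2 : lam ≤ 2) (hκ : 0 < κ) (ht : 2 * κ ≤ t)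
    (hF : Flat w x t t 1 P h) (h0 : Ach (fun y => w y t) x t a0)
    (ha : w x t + lam * t - κ ≤ a0) (H : ℝ) :
    ∃ p : E, ‖p - P‖ ≤ 45 ∧ G w lam κ H (x + κ • p) (t + κ) (2 * (H - h) + 70) := by
  have ht0 : 0 < t := by linarith
  obtain ⟨a, hA, hle⟩ := hw.lemmaA hκ ht hF h0
  obtain ⟨p, B, hB, hhead, -, -, hv⟩ := hw.move hκ (by linarith) hA
  have h1 := hw.Tup_le_frame hF hκ ht
  have h2 := mul_le_mul_of_nonneg_right hl2 hκ.le
  have h3 := hw.speed (Y := 37) hl hl2 hκ ht hF (by norm_num) (by linarith) hv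
  refine ⟨p, by linarith, _, hhead, ?_⟩
  have h4 := hw.Tlo_le_vel hκ (x + κ • p) (t + κ) p
  rw [add_sub_cancel_right, add_sub_cancel_right] at h4
  have h5 := hl x t t B ht0 hB
  linarith

/-- Frame `(P,h)` at `(x,t)`, scale `t`. Note `p` in `Cls.start` is needed before `H`: get `p` from the
proof pattern `G` is affine in `H`: `G w lam κ H z s y ↔ G w lam κ H' z s (y + 2 (H' - H))`; so take `H = h`,
`x0 = x + κ•p`, a frame `(P0,h0)` at scale `4 (2^q (t+κ))` and a frame `(P1,h1)` at `(x0,t+κ)`, scale `t/4`.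
`reg_big` (`ρ = t/4`, offset `κ‖p-P‖ ≤ 45κ`) and `Cls.Sp_ge` give `h1 ≤ h + 10`; `Cls.chain` with
`n = q + 5` gives `h0 ≤ h1 + 41 (q+6)`. Finish with `G.mono`. -/
theorem Cls.start2 (hw : Cls w) (hl : Lam w lam) (hl2 : lam ≤ 2) (hκ : 0 < κ) (ht : 200 * κ ≤ t)
    (h0 : Ach (fun y => w y t) x t a0) (ha : w x t + lam * t - κ ≤ a0) (q : ℕ) :
    ∃ (x0 P0 : E) (h0 : ℝ), Flat w x0 (t + κ) (4 * (2 ^ q * (t + κ))) 1 P0 h0 ∧
      G w lam κ (h0 + 9) x0 (t + κ) (82 * q + 600) := by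
  have ht0 : 0 < t := by linarith
  obtain ⟨P, h, hF⟩ := hw.flat x t t ht0
  obtain ⟨p, hp, a, hA, hG⟩ := hw.start hl hl2 hκ (by linarith) hF h0 ha h
  have hq : (1 : ℝ) ≤ 2 ^ q := one_le_pow₀ (by norm_num)
  obtain ⟨P0, h0', hF0⟩ := hw.flat (x + κ • p) (t + κ) (4 * (2 ^ q * (t + κ))) (by positivity)
  obtain ⟨P1, h1, hF1⟩ := hw.flat (x + κ • p) (t + κ) (t / 4) (by positivity)
  have hreg : Reg w (t / 4) (h + 9) (x + κ • p) (t + κ) := by
    refine reg_big (x := x) (t := t) (P := P) (by rwa [show 4 * (t / 4) = t by ring])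
      (by positivity) ?_ ?_
    · rw [add_sub_cancel_left, abs_of_pos hκ]
      linarith
    · rw [show x + κ • p - x - (t + κ - t) • P = κ • (p - P) by module, norm_smul,
        Real.norm_of_nonneg hκ.le]
      have := mul_le_mul_of_nonneg_left hp hκ.le
      linarith
  have e1 := hw.Sp_ge (by positivity) hF1
  have e2 := hreg.1
  have e3 := (hw.chain (q + 5) hF1 hF0 (by positivity) (by nlinarith) (by
    rw [pow_add]
    have := mul_le_mul_of_nonneg_left (show t + κ ≤ 2 * t by linarith)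
      (show (0 : ℝ) ≤ 2 ^ q by positivity)
    linarith)).2
  have e4 := (abs_le.1 e3).1
  push_cast at e4
  refine ⟨x + κ • p, P0, h0', hF0, a, hA, ?_⟩
  have e5 : h0' - h ≤ 41 * q + 256 := by linarith
  have e6 := mul_le_mul_of_nonneg_left e5 hκ.le
  linarith

end Crest.Agent.R94
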