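import Crest.Agent.R94.LStep
import Crest.Agent.R94.RL
import Crest.Agent.R94.Start
import Crest.Agent.R94.Liou

/-! # Row 94: the defect vanishes; Liouville theorem -/

set_option autoImplicit false

namespace Crest.Agent.R94

variable {E : Type*} [NormedAddCommGroup E] [InnerProductSpace ℝ E] [FiniteDimensional ℝ E]

/-- The tube of a level. -/
def Tube (R σ : ℝ) (x P x' : E) (t' : ℝ) : Prop :=
  0 ≤ t' ∧ t' ≤ 2 * σ ∧ ‖x' - x - (t' - σ) • P‖ ≤ (R + 1) * σ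

/-- The data of a level that the final contradiction needs. -/
def Lev (w : E → ℝ → ℝ) (lam κ H Y : ℝ) (q : ℕ) (σ : ℝ) (x P : E) : Prop :=
  ∃ h y : ℝ, Flat w x σ (4 * (2 ^ q * σ)) 1 P h ∧ G w lam κ H x σ y ∧ y ≤ Y ∧ Reg w κ H x σ

/-- The scale of level `i`. -/
def sig (q N0 : ℕ) (κ : ℝ) (i : ℕ) : ℝ := (((2 ^ q) ^ i * N0 : ℕ) : ℝ) * κ

theorem sig_succ (q N0 : ℕ) (κ : ℝ) (i : ℕ) : sig q N0 κ (i + 1) = 2 ^ q * sig q N0 κ i := by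
  unfold sig; push_cast; ring

theorem sig_ge (q : ℕ) {N0 : ℕ} {κ : ℝ} (hκ : 0 < κ) (i : ℕ) : N0 * κ ≤ sig q N0 κ i := by
  unfold sig
  refine mul_le_mul_of_nonneg_right ?_ hκ.le
  exact_mod_cast Nat.le_mul_of_pos_left _ (by positivity)

theorem sig_mono (q N0 : ℕ) {κ : ℝ} (hκ : 0 < κ) {i j : ℕ} (h : i ≤ j) :
    sig q N0 κ i ≤ sig q N0 κ j := by
  unfold sig
  refine mul_le_mul_of_nonneg_right ?_ hκ.le
  exact_mod_cast Nat.mul_le_mul_right _ (Nat.pow_le_pow_right (by positivity) h)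

omit [FiniteDimensional ℝ E] in
theorem tube_self {R σ : ℝ} (hR : 0 ≤ R) (hσ : 0 ≤ σ) (x P : E) : Tube R σ x P x σ := by
  refine ⟨hσ, by linarith, ?_⟩
  simp only [sub_self, zero_smul, norm_zero]
  positivity

theorem psi0_nonneg {Y : ℝ} (hY : 0 ≤ Y) (V R : ℝ) : 0 ≤ psi0 Y V R := by
  unfold psi0; positivity

theorem Cls.iter {w : E → ℝ → ℝ} (hw : Cls w) {lam κ H R V Y0 ρ0 : ℝ} (hl : Lam w lam)
    (hl2 : lam ≤ 2) (q N0 J : ℕ) (hκ : 0 < κ) (hq : 1 ≤ q) (hN0 : 1 ≤ N0) (hV1 : 1 ≤ V)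
    (hY0 : 0 < Y0) (hYV : 5 * Y0 ≤ V ^ 2) (hR0 : 0 ≤ R) (hR : 3000 * V ^ 2 ≤ R ^ 2)
    (hk : 4 * V ≤ N0) (hθ : 3 * R ≤ 2 ^ q) (hV : 2 * (5 * Y0) + 10 * q + 33 ≤ V)
    (he : 3 * J * (3 * psi0 (5 * Y0) V R + 110 * (5 * Y0) / 2 ^ q) ≤ Y0) (hρ0 : κ ≤ ρ0)
    {x0 P0 : E} {h0 : ℝ} (hF0 : Flat w x0 (sig q N0 κ J) (4 * (2 ^ q * sig q N0 κ J)) 1 P0 h0)
    (hG0 : G w lam κ H x0 (sig q N0 κ J) Y0)
    (hreg0 : ∀ x' t', Tube R (sig q N0 κ J) x0 P0 x' t' → Reg w ρ0 H x' t') (k : ℕ) :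
    ∀ i : ℕ, i + k = J → ∃ (x P : E) (h y η : ℝ),
      Flat w x (sig q N0 κ i) (4 * (2 ^ q * sig q N0 κ i)) 1 P h ∧
      G w lam κ H x (sig q N0 κ i) y ∧ 0 ≤ η ∧
      y + 2 * η ≤ 3 * Y0 + 3 * k * (3 * psi0 (5 * Y0) V R + 110 * (5 * Y0) / 2 ^ q) ∧
      (∀ (x' : E) (y' : ℝ), ‖x' - x - sig q N0 κ i • P‖ ≤ (R + 1) * sig q N0 κ i →
        G w lam κ H x' (2 * sig q N0 κ i) y' → y - η ≤ y') ∧
      (∀ x' t', Tube R (sig q N0 κ i) x P x' t' → Reg w ρ0 H x' t') ∧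
      ∀ j : ℕ, i ≤ j → j ≤ J → ∃ xj Pj : E, Lev w lam κ H (5 * Y0) q (sig q N0 κ j) xj Pj ∧
        ∀ x' t', Tube R (sig q N0 κ i) x P x' t' → Tube R (sig q N0 κ j) xj Pj x' t' := by
  have hN0' : (1 : ℝ) ≤ N0 := by exact_mod_cast hN0
  have hpos : ∀ i, 0 < sig q N0 κ i := fun i =>
    lt_of_lt_of_le (mul_pos (by linarith) hκ) (sig_ge q hκ i)
  have hψ : 0 ≤ psi0 (5 * Y0) V R := psi0_nonneg (by linarith) V R
  have hd : 0 ≤ 110 * (5 * Y0) / 2 ^ q := by positivity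
  set e0 := 3 * psi0 (5 * Y0) V R + 110 * (5 * Y0) / 2 ^ q with he0
  have he0' : 0 ≤ e0 := by linarith
  induction k with
  | zero =>
    intro i hi
    obtain rfl : i = J := by simpa using hi
    refine ⟨x0, P0, h0, Y0, Y0, hF0, hG0, hY0.le, by simp; linarith, ?_, hreg0, ?_⟩
    · intro x' y' hx' hG'
      have hT : Tube R (sig q N0 κ i) x0 P0 x' (2 * sig q N0 κ i) := by
        refine ⟨by linarith [hpos i], le_rfl, ?_⟩
        rwa [show 2 * sig q N0 κ i - sig q N0 κ i = sig q N0 κ i by ring]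
      have := hG'.nonneg hw hl hκ (by linarith [hpos i]) (hw.reg_mono hκ hρ0 (hreg0 _ _ hT))
      linarith
    · intro j hij hji
      obtain rfl : j = i := le_antisymm hji hij
      exact ⟨x0, P0, ⟨h0, Y0, hF0, hG0, by linarith,
        hw.reg_mono hκ hρ0 (hreg0 _ _ (tube_self hR0 (hpos j).le _ _))⟩, fun _ _ h => h⟩
  | succ k ih =>
    intro i hi
    obtain ⟨x, P, h, y, η, hF, hG, hη, hyη, htop, hreg, hall⟩ := ih (i + 1) (by omega)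
    have hkJ : (k : ℝ) + 1 ≤ J := by exact_mod_cast (by omega : k + 1 ≤ J)
    have hk0 : (0 : ℝ) ≤ k := Nat.cast_nonneg k
    have hke : 3 * ((k : ℝ) + 1) * e0 ≤ Y0 :=
      le_trans (mul_le_mul_of_nonneg_right (by linarith) he0') he
    have hke' : 0 ≤ 3 * (k : ℝ) * e0 := by positivity
    have hsum : y + η + 3 * psi0 (5 * Y0) V R ≤ 5 * Y0 := by nlinarith
    have hk' : 4 * V ≤ 2 ^ q * (((2 ^ q) ^ i * N0 : ℕ) : ℝ) := by
      have h1 : (N0 : ℝ) ≤ (((2 ^ q) ^ i * N0 : ℕ) : ℝ) := by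
        exact_mod_cast Nat.le_mul_of_pos_left _ (by positivity)
      have h2 : (1 : ℝ) ≤ 2 ^ q := one_le_pow₀ (by norm_num)
      nlinarith
    obtain ⟨x1, P1, h1, y1, hF1, hG1, hy1, htop1, hsub⟩ :=
      hw.lstep (σ := sig q N0 κ (i + 1)) (σ' := sig q N0 κ i) hl hl2 q ((2 ^ q) ^ i * N0) hκ hq
        (Nat.mul_pos (by positivity) hN0) rfl (sig_succ q N0 κ i) hV1 (by linarith) hYV hR0 hR hk'
        hθ hV hF
        (fun x' t' a b c => hw.reg_mono hκ hρ0 (hreg x' t' ⟨a, b, c⟩)) hG hη htop hsum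
    have hsub' : ∀ x' t', Tube R (sig q N0 κ i) x1 P1 x' t' → Tube R (sig q N0 κ (i + 1)) x P x' t' :=
      fun x' t' ht => ⟨ht.1, le_trans ht.2.1 (by linarith [sig_mono q N0 hκ (Nat.le_succ i)]),
        hsub x' t' ht.1 ht.2.1 ht.2.2⟩
    refine ⟨x1, P1, h1, y1, η / 2 + 2 * psi0 (5 * Y0) V R + 110 * (5 * Y0) / 2 ^ q, hF1, hG1,
      by linarith, ?_, htop1, fun x' t' ht => hreg x' t' (hsub' x' t' ht), ?_⟩
    · push_cast
      nlinarith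
    · intro j hij hjJ
      rcases Nat.eq_or_lt_of_le hij with rfl | hlt
      · exact ⟨x1, P1, ⟨h1, y1, hF1, hG1, by linarith, hw.reg_mono hκ hρ0
          (hreg _ _ (hsub' _ _ (tube_self hR0 (hpos i).le _ _)))⟩, fun _ _ h => h⟩
      · obtain ⟨xj, Pj, hL, hT⟩ := hall j hlt hjJ
        exact ⟨xj, Pj, hL, fun x' t' ht => hT x' t' (hsub' x' t' ht)⟩

theorem lam_pigeon (g : ℕ → ℝ) (J : ℕ) (hJ : 1 ≤ J) {Y : ℝ} (h : g J - g 0 ≤ Y) :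
    ∃ i < J, g (i + 1) ≤ g i + Y / J := by
  by_contra hc
  push Not at hc
  have hJ' : (0 : ℝ) < J := by exact_mod_cast hJ
  have h1 : ∑ i ∈ Finset.range J, (Y / J) < ∑ i ∈ Finset.range J, (g (i + 1) - g i) :=
    Finset.sum_lt_sum_of_nonempty (by simp; omega) fun i hi => by
      have := hc i (Finset.mem_range.1 hi); linarith
  rw [Finset.sum_range_sub, Finset.sum_const, Finset.card_range, nsmul_eq_mul,
    mul_div_cancel₀ _ hJ'.ne'] at h1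
  linarith

theorem Cls.lam_bound {w : E → ℝ → ℝ} (hw : Cls w) {lam κ R V Y0 T t a0 : ℝ} {x : E}
    (hl : Lam w lam) (hl0 : 0 ≤ lam) (hl2 : lam ≤ 2) (q N0 J : ℕ) (hκ : 0 < κ) (hq : 1 ≤ q)
    (hN0 : 1 ≤ N0) (hJ : 1 ≤ J) (hV1 : 1 ≤ V) (hY0 : 82 * q + 600 ≤ Y0) (hYV : 5 * Y0 ≤ V ^ 2)
    (hR : 3000 * V ^ 2 ≤ R ^ 2) (hk : 4 * V ≤ N0) (hV : 2 * (5 * Y0) + 10 * q + 33 ≤ V)
    (he : 3 * J * (3 * psi0 (5 * Y0) V R + 110 * (5 * Y0) / 2 ^ q) ≤ Y0)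
    (hR' : 25 * q + 65 ≤ R) (hT1 : 4 * R ≤ T) (hT2 : 4 * T ≤ 2 ^ q)
    (ht : t + κ = sig q N0 κ J) (h200 : 200 * κ ≤ t) (h0 : Ach (fun y => w y t) x t a0)
    (ha : w x t + lam * t - κ ≤ a0) :
    lam ≤ 5 * Y0 / N0 + 7 * (5 * Y0 / J + 400 * (q + 3) ^ 2 * R / 2 ^ q) * T + 16 * R ^ 2 / T := by
  have hq0 : (0 : ℝ) ≤ q := Nat.cast_nonneg q
  have hY0' : 0 < Y0 := by linarith
  have hR0 : 0 ≤ R := by linarith
  have hN0' : (1 : ℝ) ≤ N0 := by exact_mod_cast hN0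
  have hpos : ∀ i, 0 < sig q N0 κ i := fun i =>
    lt_of_lt_of_le (mul_pos (by linarith) hκ) (sig_ge q hκ i)
  have hκs : ∀ i, κ ≤ sig q N0 κ i := fun i => le_trans (by nlinarith) (sig_ge q hκ i)
  have h2q : (1 : ℝ) ≤ 2 ^ q := one_le_pow₀ (by norm_num)
  obtain ⟨x0, P0, h0', hF0, hG0⟩ := hw.start2 hl hl2 hκ h200 h0 ha q
  rw [ht] at hF0 hG0
  have hsJ := hpos J
  have hρ0 : sig q N0 κ J ≤ 2 ^ q * sig q N0 κ J := by nlinarith
  obtain ⟨xs, Ps, hs, ys, ηs, -, hGs, hηs, hyη, -, hregs, hall⟩ :=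
    hw.iter (H := h0' + 9) (R := R) (V := V) (Y0 := Y0) (ρ0 := 2 ^ q * sig q N0 κ J) hl hl2 q N0 J
      hκ hq hN0 hV1 hY0' hYV hR0 hR hk (by linarith) hV he (le_trans (hκs J) hρ0) hF0
      (hG0.mono hκ hY0)
      (fun x' t' hT => reg_big hF0 (by positivity)
        (by rw [abs_le]; constructor <;> linarith [hT.1, hT.2.1])
        (le_trans hT.2.2 (mul_le_mul_of_nonneg_right (by linarith) hsJ.le))) J 0 (by simp)
  have hys : ys ≤ 5 * Y0 := by linarith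
  have hself : Tube R (sig q N0 κ 0) xs Ps xs (sig q N0 κ 0) := tube_self hR0 (hpos 0).le _ _
  have hrs := hregs _ _ hself
  have hlow := hGs.sum_ge hw hl hκ (hpos 0)
  obtain ⟨i, hi, hgap⟩ := lam_pigeon
    (fun i => Sp w (sig q N0 κ i) xs (sig q N0 κ 0) + Sm w (sig q N0 κ i) xs (sig q N0 κ 0)) J hJ
    (Y := 5 * Y0) (by
      have a1 := hw.Sp_mono hκ (hκs 0) xs (sig q N0 κ 0)
      have a2 := hw.Sm_mono hκ (hκs 0) xs (sig q N0 κ 0)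
      have a3 := hw.Sp_mono hsJ hρ0 xs (sig q N0 κ 0)
      have a4 := hw.Sm_mono hsJ hρ0 xs (sig q N0 κ 0)
      have a5 := hrs.1
      have a6 := hrs.2
      linarith)
  obtain ⟨xi, Pi, ⟨hi', yi, hFi, hGi, hyi, hregi⟩, hTi⟩ := hall i (Nat.zero_le i) hi.le
  have hT := hTi _ _ hself
  have hsi := hpos i
  have hTσ : sig q N0 κ i ≤ T * sig q N0 κ i := by nlinarith
  have hJ' : (0 : ℝ) < J := by exact_mod_cast hJ
  have key := hw.window (ε := 5 * Y0 / J) (T := T) hl0 q hκ (hκs i) hGi hregi hyi hFi (hpos 0).le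
    (sig_mono q N0 hκ (Nat.zero_le i)) hT.2.2 hR' hT1 hT2 (by positivity) (by
      have a1 := hw.Sp_mono hsi hTσ xs (sig q N0 κ 0)
      have a2 := hw.Sm_mono hsi hTσ xs (sig q N0 κ 0)
      simp only [sig_succ] at hgap
      linarith)
  have hfin : 5 * Y0 * κ / sig q N0 κ i ≤ 5 * Y0 / N0 := by
    rw [div_le_div_iff₀ hsi (by linarith)]
    have := sig_ge q (N0 := N0) hκ i
    nlinarith
  linarith

theorem lam_exists_m {lam : ℝ} (hl : 0 < lam) :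
    ∃ m : ℕ, 1 ≤ m ∧ 10 ^ 13 * ((m : ℝ) + 1) ^ 2 ≤ lam * 2 ^ m := by
  have h := tendsto_pow_const_div_const_pow_of_one_lt 2 (r := 2) (by norm_num)
  have h2 := h.eventually (gt_mem_nhds (show (0 : ℝ) < lam / (4 * 10 ^ 13) by positivity))
  obtain ⟨m, hm1, hm2⟩ := (h2.and (Filter.eventually_ge_atTop 1)).exists
  refine ⟨m, hm2, ?_⟩
  have hm : (1 : ℝ) ≤ m := by exact_mod_cast hm2
  rw [div_lt_div_iff₀ (by positivity) (by positivity)] at hm1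
  nlinarith

theorem lam_he {X M : ℝ} (hM : 1 ≤ M) (hX : 5 * 10 ^ 12 * M ^ 2 ≤ X) :
    3 * X ^ 6 * (3 * psi0 (5 * (656 * M)) (6700 * M) (X ^ 2) + 110 * (5 * (656 * M)) / X ^ 8) ≤
      656 * M := by
  have hM2 : 1 ≤ M ^ 2 := one_le_pow₀ hM
  have hX0 : 0 < X := by linarith
  have h1 : 3 * X ^ 6 * (3 * psi0 (5 * (656 * M)) (6700 * M) (X ^ 2) +
      110 * (5 * (656 * M)) / X ^ 8) =
      656 * M * ((405 * 10 ^ 6 * 6700 ^ 4 * (M ^ 2) ^ 2 + 1650) / X ^ 2) := by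
    unfold psi0
    field_simp
    ring
  have h2 : (5 * 10 ^ 12 * M ^ 2) ^ 2 ≤ X ^ 2 := pow_le_pow_left₀ (by positivity) hX 2
  have h3 : 1 ≤ (M ^ 2) ^ 2 := one_le_pow₀ hM2
  have h4 : (405 * 10 ^ 6 * 6700 ^ 4 * (M ^ 2) ^ 2 + 1650) / X ^ 2 ≤ 1 := by
    rw [div_le_one (by positivity)]
    rw [mul_pow] at h2
    linarith
  rw [h1]
  exact mul_le_of_le_one_right (by linarith) h4

theorem lam_fin {X M lam : ℝ} (hM : 1 ≤ M) (hX0 : 0 < X) (hX : 10 ^ 13 * M ^ 2 ≤ lam * X)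
    (h : lam ≤ 5 * (656 * M) / X + 7 * (5 * (656 * M) / X ^ 6 +
      400 * (8 * (M - 1) + 3) ^ 2 * X ^ 2 / X ^ 8) * X ^ 5 + 16 * (X ^ 2) ^ 2 / X ^ 5) : False := by
  have h1 : 5 * (656 * M) / X + 7 * (5 * (656 * M) / X ^ 6 +
      400 * (8 * (M - 1) + 3) ^ 2 * X ^ 2 / X ^ 8) * X ^ 5 + 16 * (X ^ 2) ^ 2 / X ^ 5 =
      (26240 * M + 2800 * (8 * (M - 1) + 3) ^ 2 + 16) / X := by
    field_simp
    ring
  rw [h1, le_div_iff₀ hX0] at h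
  nlinarith

theorem Cls.lam_zero {w : E → ℝ → ℝ} (hw : Cls w) : Lam w 0 := by
  obtain ⟨lam, hl0, hl2, hl, hne⟩ := hw.exists_lam
  rcases hl0.eq_or_lt with rfl | hpos
  · exact hl
  exfalso
  obtain ⟨m, hm1, hm⟩ := lam_exists_m hpos
  have hm0 : (0 : ℝ) ≤ m := Nat.cast_nonneg m
  obtain ⟨M, hM⟩ : ∃ M : ℝ, M = m + 1 := ⟨_, rfl⟩
  obtain ⟨X, hX⟩ : ∃ X : ℝ, X = 2 ^ m := ⟨_, rfl⟩
  rw [← hM, ← hX] at hm
  have hM1 : 1 ≤ M := by linarith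
  have hX0 : 0 < X := by rw [hX]; positivity
  have hM2 : M ≤ M ^ 2 := by nlinarith
  have hXM : 5 * 10 ^ 12 * M ^ 2 ≤ X := by nlinarith
  have hX4 : 4 ≤ X := by linarith
  have hq : (2 : ℝ) ^ (8 * m) = X ^ 8 := by rw [hX, ← pow_mul, mul_comm]
  have hN0 : ((2 ^ m : ℕ) : ℝ) = X := by rw [hX]; push_cast; rfl
  have hJ : ((2 ^ (6 * m) : ℕ) : ℝ) = X ^ 6 := by rw [hX, ← pow_mul, mul_comm]; push_cast; rfl
  have hqm : ((8 * m : ℕ) : ℝ) = 8 * (M - 1) := by rw [hM]; push_cast; ring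
  obtain ⟨NJ, hNJ⟩ : ∃ NJ : ℝ, NJ = (((2 ^ (8 * m)) ^ (2 ^ (6 * m)) * 2 ^ m : ℕ) : ℝ) := ⟨_, rfl⟩
  have hNJX : X ≤ NJ := by
    rw [hNJ, ← hN0]
    exact_mod_cast Nat.le_mul_of_pos_left _ (by positivity)
  have hNJ1 : 200 ≤ NJ - 1 := by linarith
  obtain ⟨x, t0, s, a, hs, hA, ha⟩ := hne (1 / (NJ - 1)) (by positivity)
  have hκ : 0 < s / (NJ - 1) := by positivity
  have hX2 : X ≤ X ^ 2 := by nlinarith
  have hX3 : 4 ≤ X ^ 3 := le_trans hX4 (le_self_pow₀ (by linarith) (by norm_num))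
  have hX5 : 0 < X ^ 5 := by positivity
  have key := (hw.shift (t0 - s)).lam_bound (κ := s / (NJ - 1)) (R := X ^ 2) (V := 6700 * M)
    (Y0 := 656 * M) (T := X ^ 5) (t := s) (a0 := a) (x := x) (hl.shift (t0 - s)) hl0 hl2 (8 * m)
    (2 ^ m) (2 ^ (6 * m)) hκ (by omega) Nat.one_le_two_pow Nat.one_le_two_pow (by linarith)
    (by rw [hqm]; linarith) (by nlinarith) (by nlinarith) (by rw [hN0]; linarith)
    (by rw [hqm]; linarith) (by rw [hJ, hq]; exact lam_he hM1 hXM) (by rw [hqm]; linarith)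
    (by rw [show X ^ 5 = X ^ 3 * X ^ 2 by ring]
        exact mul_le_mul_of_nonneg_right hX3 (by positivity))
    (by rw [hq, show X ^ 8 = X ^ 3 * X ^ 5 by ring]
        exact mul_le_mul_of_nonneg_right hX3 hX5.le)
    (by unfold sig; rw [← hNJ]; field_simp; ring)
    (by rw [← mul_div_assoc, div_le_iff₀ (by linarith)]; nlinarith)
    (by simpa using hA)
    (by have : s / (NJ - 1) = 1 / (NJ - 1) * s := by ring
        simp only [add_sub_cancel]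
        linarith)
  rw [hN0, hJ, hq, hqm] at key
  exact lam_fin hM1 hX0 hm key

theorem Cls.affine {w : E → ℝ → ℝ} (hw : Cls w) :
    ∃ (P : E) (k c : ℝ), ∀ x t, w x t = inner ℝ P x + k * t + c := by
  refine hw.affine_of_mid fun x ξ t => le_antisymm (hw.lam_zero.midpoint x ξ t) ?_
  have h := hw.mir.lam_zero.midpoint x ξ (-t)
  simp only [Crest.Agent.R94.mir, neg_neg] at h
  linarith

end Crest.Agent.R94
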