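import Crest.Agent.R94.Imp1
import Crest.Agent.R94.Lam

/-! # Row 94: compactness and improvement of flatness -/

set_option autoImplicit false

namespace Crest.Agent.R94

open Filter Topology

variable {E : Type*} [NormedAddCommGroup E] [InnerProductSpace ℝ E] [FiniteDimensional ℝ E]

/-- A sequence eventually bounded along an ultrafilter converges along it (finite dimension;
`IsCompact.ultrafilter_le_nhds` on a closed ball). Use it also with `F = ℝ`. -/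
theorem ultra_lim {F : Type*} [NormedAddCommGroup F] [NormedSpace ℝ F] [FiniteDimensional ℝ F]
    (U : Ultrafilter ℕ) (f : ℕ → F) (C : ℝ) (hf : ∀ᶠ n in (U : Filter ℕ), ‖f n‖ ≤ C) :
    ∃ z : F, Tendsto f U (𝓝 z) := by
  have : ProperSpace F := FiniteDimensional.proper ℝ F
  have hc : IsCompact (Metric.closedBall (0 : F) C) := isCompact_closedBall 0 C
  have hle : ((U.map f : Ultrafilter F) : Filter F) ≤ 𝓟 (Metric.closedBall (0 : F) C) := by
    rw [Filter.le_principal_iff, Ultrafilter.coe_map, Filter.mem_map]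
    filter_upwards [hf] with n hn
    simpa using hn
  obtain ⟨z, -, hz⟩ := hc.ultrafilter_le_nhds (U.map f) hle
  exact ⟨z, hz⟩

/-- Ultralimit. `U = hyperfilter ℕ` (`hyperfilter_le_cofinite`, `Nat.cofinite_eq_atTop`), so `(n : ℝ) ≥ M0`
holds `U`-eventually. `W n x t` is eventually bounded (`growth`), let `w x t` be its limit (`ultra_lim`, `choose`).
The moving point statement follows from `equi`. `flat`: choose frames of `W n` at `(x,t,r)` (for large `n`;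
junk otherwise), bounded by `frame_bdd`, take their limits and pass to the limit in the inequality for each
fixed `(η,τ)` (`le_of_tendsto_of_tendsto`). `mp`, `mm`: the witnesses `η' n` are eventually bounded
(`mp_bdd`, `mm_bdd`, the left side converges so is eventually `≥ -B`), take the limit and use the moving point
statement. -/
theorem exists_ulim (W : ℕ → E → ℝ → ℝ) (h1 : ∀ n : ℕ, LocCls (W n) n)
    (h2 : ∀ n, Flat (W n) 0 0 1 1 0 0) (h3 : ∀ n, W n 0 0 = 0) :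
    ∃ (U : Ultrafilter ℕ) (w : E → ℝ → ℝ), (U : Filter ℕ) ≤ atTop ∧ Cls w ∧
      ∀ (xs : ℕ → E) (ts : ℕ → ℝ) (x : E) (t : ℝ), Tendsto xs U (𝓝 x) → Tendsto ts U (𝓝 t) →
        Tendsto (fun n => W n (xs n) (ts n)) U (𝓝 (w x t)) := by
  classical
  set U : Ultrafilter ℕ := hyperfilter ℕ with hU
  have hUle : (U : Filter ℕ) ≤ atTop := by
    rw [← Nat.cofinite_eq_atTop]; exact hyperfilter_le_cofinite
  have hev : ∀ M0 : ℝ, ∀ᶠ n : ℕ in (U : Filter ℕ), M0 ≤ (n : ℝ) := fun M0 =>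
    hUle (tendsto_natCast_atTop_atTop.eventually_ge_atTop M0)
  have hex : ∀ (x : E) (t : ℝ), ∃ z : ℝ, Tendsto (fun n => W n x t) U (𝓝 z) := by
    intro x t
    obtain ⟨K, -, hK⟩ := growth (E := E) (|t| + 1) (by linarith [abs_nonneg t])
    refine ultra_lim U _ (K * (1 + ‖x‖ ^ 2)) ?_
    filter_upwards [hev (|t| + 1)] with n hn
    have := hK (W n) n hn (h1 n) (h2 n) x t (by linarith)
    rwa [h3 n, sub_zero] at this
  choose w hw using hex
  have hmov : ∀ (xs : ℕ → E) (ts : ℕ → ℝ) (x : E) (t : ℝ), Tendsto xs U (𝓝 x) → Tendsto ts U (𝓝 t) →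
      Tendsto (fun n => W n (xs n) (ts n)) U (𝓝 (w x t)) := by
    intro xs ts x t hx ht
    rw [Metric.tendsto_nhds]
    intro ε hε
    obtain ⟨δ, hδ, M0, hM⟩ := equi (E := E) x t (ε / 3) (by positivity)
    filter_upwards [hev M0, Metric.tendsto_nhds.1 hx δ hδ, Metric.tendsto_nhds.1 ht δ hδ,
      Metric.tendsto_nhds.1 (hw x t) (ε / 3) (by positivity)] with n hn hxn htn hwn
    rw [dist_eq_norm] at hxn
    rw [Real.dist_eq] at htn hwn ⊢
    have h4 := hM (W n) n hn (h1 n) (h2 n) (xs n) (ts n) hxn.le htn.le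
    have h5 : W n (xs n) (ts n) - w x t = (W n (xs n) (ts n) - W n x t) + (W n x t - w x t) := by ring
    rw [h5]
    refine (abs_add_le _ _).trans_lt ?_
    linarith
  refine ⟨U, w, hUle, ⟨?_, ?_, ?_⟩, hmov⟩
  · intro x t r hr
    obtain ⟨C, M0, hC⟩ := frame_bdd (E := E) x t r hr
    have hfr : ∀ n : ℕ, ∃ (P : E) (h : ℝ), (‖x‖ ≤ n ∧ |t| ≤ n ∧ r ≤ n) → Flat (W n) x t r 1 P h := by
      intro n
      by_cases hn : ‖x‖ ≤ n ∧ |t| ≤ n ∧ r ≤ n
      · obtain ⟨P, h, hP⟩ := (h1 n x t hn.1 hn.2.1).1 r hr hn.2.2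
        exact ⟨P, h, fun _ => hP⟩
      · exact ⟨0, 0, fun h => absurd h hn⟩
    choose Ps hs hPs using hfr
    have hfl : ∀ᶠ n : ℕ in (U : Filter ℕ), Flat (W n) x t r 1 (Ps n) (hs n) := by
      filter_upwards [hev ‖x‖, hev |t|, hev r] with n a b c
      exact hPs n ⟨a, b, c⟩
    have hbd : ∀ᶠ n : ℕ in (U : Filter ℕ), ‖Ps n‖ ≤ C ∧ |hs n| ≤ C := by
      filter_upwards [hfl, hev M0] with n a b
      exact hC (W n) n b (h1 n) (h2 n) _ _ a
    obtain ⟨P, hP⟩ := ultra_lim U Ps C (hbd.mono fun n h => h.1)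
    obtain ⟨h, hh⟩ := ultra_lim U hs C (hbd.mono fun n h => h.2)
    refine ⟨P, h, fun η τ hτ => ?_⟩
    have hL : Tendsto (fun n => |W n (x + η) (t + τ) - W n x t - inner ℝ (Ps n) η -
        (hs n - ‖Ps n‖ ^ 2 / 2) * τ|) U
        (𝓝 |w (x + η) (t + τ) - w x t - inner ℝ P η - (h - ‖P‖ ^ 2 / 2) * τ|) :=
      ((((hw _ _).sub (hw _ _)).sub (hP.inner tendsto_const_nhds)).sub
        ((hh.sub ((hP.norm.pow 2).div_const 2)).mul_const τ)).abs
    have hR : Tendsto (fun n => 1 * r + ‖η - τ • Ps n‖ ^ 2 / r) U (𝓝 (1 * r + ‖η - τ • P‖ ^ 2 / r)) :=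
      tendsto_const_nhds.add (((tendsto_const_nhds.sub (hP.const_smul τ)).norm.pow 2).div_const r)
    exact le_of_tendsto_of_tendsto hL hR (hfl.mono fun n hn => hn η τ hτ)
  · intro x t r ρ hr hρ η
    have hL : Tendsto (fun n => (W n (x + η) (t + r) - W n x t - ‖η‖ ^ 2 / (2 * r)) / r) U
        (𝓝 ((w (x + η) (t + r) - w x t - ‖η‖ ^ 2 / (2 * r)) / r)) :=
      (((hw _ _).sub (hw _ _)).sub tendsto_const_nhds).div_const r
    set a := (w (x + η) (t + r) - w x t - ‖η‖ ^ 2 / (2 * r)) / r with ha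
    obtain ⟨C, M0, hC⟩ := mp_bdd (E := E) x t ρ (1 - a) (hr.trans hρ)
    have hfr : ∀ n : ℕ, ∃ η' : E, (‖x‖ ≤ n ∧ |t| ≤ n ∧ ρ ≤ n) →
        (W n (x + η) (t + r) - W n x t - ‖η‖ ^ 2 / (2 * r)) / r ≤
          (W n (x + η') (t + ρ) - W n x t - ‖η'‖ ^ 2 / (2 * ρ)) / ρ := by
      intro n
      by_cases hn : ‖x‖ ≤ n ∧ |t| ≤ n ∧ ρ ≤ n
      · obtain ⟨η', hη'⟩ := ((h1 n x t hn.1 hn.2.1).2 r ρ hr hρ hn.2.2).1 η
        exact ⟨η', fun _ => hη'⟩
      · exact ⟨0, fun h => absurd h hn⟩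
    choose es hes using hfr
    have hfl : ∀ᶠ n : ℕ in (U : Filter ℕ), (W n (x + η) (t + r) - W n x t - ‖η‖ ^ 2 / (2 * r)) / r ≤
          (W n (x + es n) (t + ρ) - W n x t - ‖es n‖ ^ 2 / (2 * ρ)) / ρ := by
      filter_upwards [hev ‖x‖, hev |t|, hev ρ] with n a b c
      exact hes n ⟨a, b, c⟩
    have hbd : ∀ᶠ n : ℕ in (U : Filter ℕ), ‖es n‖ ≤ C := by
      filter_upwards [hfl, hev M0, hL.eventually_const_le (show a - 1 < a by linarith)] with n a1 b c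
      exact hC (W n) n b (h1 n) (h2 n) _ (by linarith)
    obtain ⟨η', hη'⟩ := ultra_lim U es C hbd
    refine ⟨η', ?_⟩
    have hR : Tendsto (fun n => (W n (x + es n) (t + ρ) - W n x t - ‖es n‖ ^ 2 / (2 * ρ)) / ρ) U
        (𝓝 ((w (x + η') (t + ρ) - w x t - ‖η'‖ ^ 2 / (2 * ρ)) / ρ)) :=
      (((hmov _ (fun _ => t + ρ) _ _ (tendsto_const_nhds.add hη') tendsto_const_nhds).sub
        (hw _ _)).sub ((hη'.norm.pow 2).div_const _)).div_const ρ
    exact le_of_tendsto_of_tendsto hL hR hfl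
  · intro x t r ρ hr hρ η
    have hL : Tendsto (fun n => (W n x t - W n (x + η) (t - r) - ‖η‖ ^ 2 / (2 * r)) / r) U
        (𝓝 ((w x t - w (x + η) (t - r) - ‖η‖ ^ 2 / (2 * r)) / r)) :=
      (((hw _ _).sub (hw _ _)).sub tendsto_const_nhds).div_const r
    set a := (w x t - w (x + η) (t - r) - ‖η‖ ^ 2 / (2 * r)) / r with ha
    obtain ⟨C, M0, hC⟩ := mm_bdd (E := E) x t ρ (1 - a) (hr.trans hρ)
    have hfr : ∀ n : ℕ, ∃ η' : E, (‖x‖ ≤ n ∧ |t| ≤ n ∧ ρ ≤ n) →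
        (W n x t - W n (x + η) (t - r) - ‖η‖ ^ 2 / (2 * r)) / r ≤
          (W n x t - W n (x + η') (t - ρ) - ‖η'‖ ^ 2 / (2 * ρ)) / ρ := by
      intro n
      by_cases hn : ‖x‖ ≤ n ∧ |t| ≤ n ∧ ρ ≤ n
      · obtain ⟨η', hη'⟩ := ((h1 n x t hn.1 hn.2.1).2 r ρ hr hρ hn.2.2).2 η
        exact ⟨η', fun _ => hη'⟩
      · exact ⟨0, fun h => absurd h hn⟩
    choose es hes using hfr
    have hfl : ∀ᶠ n : ℕ in (U : Filter ℕ), (W n x t - W n (x + η) (t - r) - ‖η‖ ^ 2 / (2 * r)) / r ≤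
          (W n x t - W n (x + es n) (t - ρ) - ‖es n‖ ^ 2 / (2 * ρ)) / ρ := by
      filter_upwards [hev ‖x‖, hev |t|, hev ρ] with n a b c
      exact hes n ⟨a, b, c⟩
    have hbd : ∀ᶠ n : ℕ in (U : Filter ℕ), ‖es n‖ ≤ C := by
      filter_upwards [hfl, hev M0, hL.eventually_const_le (show a - 1 < a by linarith)] with n a1 b c
      exact hC (W n) n b (h1 n) (h2 n) _ (by linarith)
    obtain ⟨η', hη'⟩ := ultra_lim U es C hbd
    refine ⟨η', ?_⟩
    have hR : Tendsto (fun n => (W n x t - W n (x + es n) (t - ρ) - ‖es n‖ ^ 2 / (2 * ρ)) / ρ) U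
        (𝓝 ((w x t - w (x + η') (t - ρ) - ‖η'‖ ^ 2 / (2 * ρ)) / ρ)) :=
      (((hw _ _).sub (hmov _ (fun _ => t - ρ) _ _ (tendsto_const_nhds.add hη') tendsto_const_nhds)).sub
        ((hη'.norm.pow 2).div_const _)).div_const ρ
    exact le_of_tendsto_of_tendsto hL hR hfl

/-- By contradiction: for `M = n + 2` get `W n` (`LocCls.mono` to size `n`); `exists_ulim`, `Cls.affine`:
`w x t = ⟪P,x⟫ + k t + c`, `c = 0` (limit of `W n 0 0`). With `h = k + ‖P‖²/2`, `Flat (W n) 0 0 1 (1/2) P h`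
fails at some `(η n, τ n)`; `tail` makes `η n` eventually bounded; pass to the limit (`ultra_lim`):
`0 ≥ 1/2 + ‖η - τ•P‖²`. -/
theorem imp : ∃ M : ℝ, 2 ≤ M ∧ ∀ w : E → ℝ → ℝ, LocCls w M → Flat w 0 0 1 1 0 0 → w 0 0 = 0 →
    ∃ (P : E) (h : ℝ), Flat w 0 0 1 (1 / 2) P h := by
  by_contra hcon
  have hW : ∀ n : ℕ, ∃ w : E → ℝ → ℝ, LocCls w n ∧ Flat w 0 0 1 1 0 0 ∧ w 0 0 = 0 ∧
      ∀ (P : E) (h : ℝ), ¬ Flat w 0 0 1 (1 / 2) P h := by
    intro n
    by_contra hn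
    refine hcon ⟨(n : ℝ) + 2, by linarith [n.cast_nonneg (α := ℝ)], fun w a b c => ?_⟩
    by_contra hd
    exact hn ⟨w, a.mono (by linarith), b, c, fun P h hF => hd ⟨P, h, hF⟩⟩
  choose W h1 h2 h3 h4 using hW
  obtain ⟨U, w, hUle, hcls, hmov⟩ := exists_ulim W h1 h2 h3
  obtain ⟨P, k, c, hw⟩ := hcls.affine
  have hev : ∀ M0 : ℝ, ∀ᶠ n : ℕ in (U : Filter ℕ), M0 ≤ (n : ℝ) := fun M0 =>
    hUle (tendsto_natCast_atTop_atTop.eventually_ge_atTop M0)
  have hc : c = 0 := by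
    have h5 := hmov (fun _ => 0) (fun _ => 0) 0 0 tendsto_const_nhds tendsto_const_nhds
    simp only [h3] at h5
    have h6 : w 0 0 = 0 := tendsto_nhds_unique h5 tendsto_const_nhds
    rw [hw] at h6
    simpa using h6
  have hf : ∀ n : ℕ, ∃ (η : E) (τ : ℝ), |τ| ≤ 1 ∧ 1 / 2 + ‖η - τ • P‖ ^ 2 <
      |W n η τ - W n 0 0 - inner ℝ P η - (k + ‖P‖ ^ 2 / 2 - ‖P‖ ^ 2 / 2) * τ| := by
    intro n
    by_contra hn
    refine h4 n P (k + ‖P‖ ^ 2 / 2) fun η τ hτ => ?_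
    by_contra hd
    refine hn ⟨η, τ, hτ, ?_⟩
    simpa using lt_of_not_ge hd
  choose es ts hts hes using hf
  obtain ⟨L, M0, hL⟩ := tail (E := E) P (k + ‖P‖ ^ 2 / 2)
  have hbd : ∀ᶠ n : ℕ in (U : Filter ℕ), ‖es n‖ ≤ L := by
    filter_upwards [hev M0] with n hn
    by_contra hd
    have h5 := hL (W n) n hn (h1 n) (h2 n) (es n) (ts n) (hts n) (lt_of_not_ge hd).le
    linarith [hes n]
  obtain ⟨η, hη⟩ := ultra_lim U es L hbd
  obtain ⟨τ, hτ⟩ := ultra_lim U ts 1 (Eventually.of_forall hts)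
  have hlim : Tendsto (fun n => |W n (es n) (ts n) - W n 0 0 - inner ℝ P (es n) -
      (k + ‖P‖ ^ 2 / 2 - ‖P‖ ^ 2 / 2) * ts n|) U
      (𝓝 |w η τ - 0 - inner ℝ P η - (k + ‖P‖ ^ 2 / 2 - ‖P‖ ^ 2 / 2) * τ|) := by
    refine ((((hmov es ts η τ hη hτ).sub ?_).sub (tendsto_const_nhds.inner hη)).sub
      (hτ.const_mul _)).abs
    simp only [h3]
    exact tendsto_const_nhds
  have h0 : |w η τ - 0 - inner ℝ P η - (k + ‖P‖ ^ 2 / 2 - ‖P‖ ^ 2 / 2) * τ| = 0 := by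
    rw [hw, hc, abs_eq_zero]; ring
  rw [h0] at hlim
  have h7 : (1 / 2 : ℝ) ≤ 0 := ge_of_tendsto hlim (Eventually.of_forall fun n => by
    have := hes n
    have h8 := sq_nonneg ‖es n - ts n • P‖
    linarith)
  linarith

end Crest.Agent.R94
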