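import Crest.Agent.R94.Level
import Crest.Agent.R94.Step

/-! # Row 94: one level of the nested localisation -/

set_option autoImplicit false

namespace Crest.Agent.R94

variable {E : Type*} [NormedAddCommGroup E] [InnerProductSpace ℝ E] [FiniteDimensional ℝ E]
variable {w : E → ℝ → ℝ} {x P : E}

/-- Apply `level` with `N = 2^q N'` (so `σ = N κ`) and
`Γ ζ n y := G w lam κ H (x + (n κ - σ)•P + σ•ζ) (n κ) y`.
`h0`: `G.nonneg` + `hreg`. `hs`: at `z = x + (t - σ)•P + σ•ζ`, `t = (n+1)κ ∈ [σ', 2σ]` take frames `(P',h')`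
at scale `t` and `(P'',h'')` at scale `4 (2^q σ)`; `Flat.two` gives `‖P - P''‖ ≤ 9`, `Cls.chain` with
`2q+2` gives `‖P' - P''‖ ≤ 5(2q+3)`; `G.step` gives velocities `a, b`; return `a - P`, `b - P`
(`σ • (1/N) • v = κ • v`). Output: `x1 = x + (σ' - σ)•P + σ•ζ1`, `(P1,h1)` a frame at scale `4 (2^q σ') = 4σ`;
`‖P1 - P‖ ≤ 9 + 5(q+1) ≤ V ≤ R`; for `x'` in the new tube at time `2σ'` take
`ζ = σ⁻¹ • (x' - x - (2σ' - σ)•P)`, `‖ζ - ζ1‖ ≤ (2R+1)/2^q`. -/
theorem Cls.lstep (hw : Cls w) {lam κ H R V Y y0 η0 h σ σ' : ℝ} (hl : Lam w lam) (hl2 : lam ≤ 2)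
    (q N' : ℕ) (hκ : 0 < κ) (hq : 1 ≤ q) (hN' : 1 ≤ N') (hσ' : σ' = N' * κ) (hσ : σ = 2 ^ q * σ')
    (hV1 : 1 ≤ V) (hY : 0 < Y) (hYV : Y ≤ V ^ 2) (hR0 : 0 ≤ R) (hR : 3000 * V ^ 2 ≤ R ^ 2)
    (hk : 4 * V ≤ 2 ^ q * N') (hθ : 3 * R ≤ 2 ^ q) (hV : 2 * Y + 10 * q + 33 ≤ V)
    (hF : Flat w x σ (4 * (2 ^ q * σ)) 1 P h)
    (hreg : ∀ (x' : E) (t' : ℝ), 0 ≤ t' → t' ≤ 2 * σ → ‖x' - x - (t' - σ) • P‖ ≤ (R + 1) * σ →
      Reg w κ H x' t')
    (hG : G w lam κ H x σ y0) (hη : 0 ≤ η0)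
    (htop : ∀ (x' : E) (y : ℝ), ‖x' - x - σ • P‖ ≤ (R + 1) * σ → G w lam κ H x' (2 * σ) y →
      y0 - η0 ≤ y)
    (hsum : y0 + η0 + 3 * psi0 Y V R ≤ Y) :
    ∃ (x1 P1 : E) (h1 y1 : ℝ), Flat w x1 σ' (4 * (2 ^ q * σ')) 1 P1 h1 ∧
      G w lam κ H x1 σ' y1 ∧ y1 ≤ y0 + η0 + 3 * psi0 Y V R ∧
      (∀ (x' : E) (y : ℝ), ‖x' - x1 - σ' • P1‖ ≤ (R + 1) * σ' → G w lam κ H x' (2 * σ') y →
        y1 - (η0 / 2 + 2 * psi0 Y V R + 110 * Y / 2 ^ q) ≤ y) ∧
      (∀ (x' : E) (t' : ℝ), 0 ≤ t' → t' ≤ 2 * σ' → ‖x' - x1 - (t' - σ') • P1‖ ≤ (R + 1) * σ' →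
        ‖x' - x - (t' - σ) • P‖ ≤ (R + 1) * σ) := by
  set Q : ℝ := 2 ^ q with hQ
  have hQ2 : 2 ≤ Q := by
    calc (2 : ℝ) = 2 ^ 1 := by norm_num
      _ ≤ 2 ^ q := pow_le_pow_right₀ (by norm_num) hq
  have hN'1 : (1 : ℝ) ≤ N' := by exact_mod_cast hN'
  have hσ'κ : κ ≤ σ' := by rw [hσ']; nlinarith
  have hσ'0 : 0 < σ' := by linarith
  have hσ'σ : 2 * σ' ≤ σ := by rw [hσ]; nlinarith
  have hσ0 : 0 < σ := by linarith
  set N : ℕ := 2 ^ q * N' with hN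
  have hNc : (N : ℝ) = Q * N' := by rw [hN]; push_cast; rfl
  have hN0 : (0 : ℝ) < N := by rw [hNc]; positivity
  have hσN : σ = N * κ := by rw [hσ, hσ', hNc]; ring
  have hVR : V ≤ R := by
    refine (abs_le_of_sq_le_sq' ?_ hR0).2
    nlinarith [sq_nonneg V]
  have hq0 : (0 : ℝ) ≤ q := Nat.cast_nonneg _
  have hsm : ∀ v : E, σ • (1 / (N : ℝ)) • v = κ • v := fun v => by
    rw [smul_smul, hσN]
    congr 1
    field_simp
  have hnσ : ∀ ζ : E, ‖σ • ζ‖ = σ * ‖ζ‖ := fun ζ => by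
    rw [norm_smul, Real.norm_eq_abs, abs_of_pos hσ0]
  have hbig : σ ≤ Q * σ := by nlinarith
  -- the big frame at a point of the tube
  have htwo : ∀ (t : ℝ) (ζ P'' : E) (h'' : ℝ), 0 ≤ t → t ≤ 2 * σ → ‖ζ‖ ≤ R →
      Flat w (x + (t - σ) • P + σ • ζ) t (4 * (Q * σ)) 1 P'' h'' → ‖P - P''‖ ≤ 9 := by
    intro t ζ P'' h'' ht0 ht2 hζ hF''
    refine Flat.two hF hF'' (by positivity) ?_ ?_
    · rw [abs_le]; constructor <;> linarith
    · have e1 : x + (t - σ) • P + σ • ζ - x - (t - σ) • P = σ • ζ := by abel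
      rw [e1, hnσ]
      have : σ * ‖ζ‖ ≤ σ * R := mul_le_mul_of_nonneg_left hζ hσ0.le
      nlinarith
  obtain ⟨ζ1, y1, hζ1, hΓ1, hy1, hlast⟩ := level
    (fun (ζ : E) (n : ℕ) (y : ℝ) => G w lam κ H (x + ((n : ℝ) * κ - σ) • P + σ • ζ) ((n : ℝ) * κ) y)
    N N' (R := R) (V := V) (Y := Y) (y0 := y0) (η0 := η0) hN'
    (by
      rw [hN]
      refine Nat.mul_le_mul_right _ ?_
      calc 2 = 2 ^ 1 := by norm_num
        _ ≤ 2 ^ q := Nat.pow_le_pow_right (by norm_num) hq)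
    hV1 hY hYV hR0 hR (by rw [hNc]; exact hk)
    (by rw [hNc]; exact mul_le_mul_of_nonneg_right hθ (by linarith))
    (by
      intro ζ n y hζ hn1 hn2 hΓ
      have a1 : (N' : ℝ) ≤ n := by exact_mod_cast hn1
      have a2 : (n : ℝ) ≤ 2 * N := by exact_mod_cast hn2
      have a3 : 0 < (n : ℝ) * κ := mul_pos (by linarith) hκ
      refine hΓ.nonneg hw hl hκ a3 (hreg _ _ a3.le ?_ ?_)
      · rw [hσN]; nlinarith
      · have e1 : x + ((n : ℝ) * κ - σ) • P + σ • ζ - x - ((n : ℝ) * κ - σ) • P = σ • ζ := by abel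
        rw [e1, hnσ]
        nlinarith)
    (by
      intro ζ n y hζ hn1 hn2 hyY hΓ
      have a1 : (N' : ℝ) ≤ n := by exact_mod_cast hn1
      have a2 : (n : ℝ) + 2 ≤ 2 * N := by exact_mod_cast hn2
      set t : ℝ := ((n + 1 : ℕ) : ℝ) * κ with ht
      have ht' : t = ((n : ℝ) + 1) * κ := by rw [ht]; push_cast; ring
      have ht2 : 2 * κ ≤ t := by rw [ht']; nlinarith
      have ht0 : 0 < t := by linarith
      have ht3 : t ≤ 2 * σ := by rw [ht', hσN]; nlinarith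
      have ht4 : σ' ≤ t := by rw [ht', hσ']; nlinarith
      set z : E := x + (t - σ) • P + σ • ζ with hz
      obtain ⟨P', h', hF'⟩ := hw.flat z t t ht0
      obtain ⟨P'', h'', hF''⟩ := hw.flat z t (4 * (Q * σ)) (by positivity)
      have b1 : ‖P - P''‖ ≤ 9 := htwo t ζ P'' h'' ht0.le ht3 hζ hF''
      have b2 : ‖P' - P''‖ ≤ 5 * (((2 * q + 2 : ℕ) : ℝ) + 1) := by
        refine (hw.chain (2 * q + 2) hF' hF'' ht0 (by linarith) ?_).1
        have e1 : (2 : ℝ) ^ (2 * q + 2) = 4 * (Q * Q) := by rw [hQ]; ring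
        rw [e1, hσ]
        have : Q * Q * σ' ≤ Q * Q * t := mul_le_mul_of_nonneg_left ht4 (by positivity)
        nlinarith
      push_cast at b2
      have hσζ : σ * ‖ζ‖ ≤ σ * R := mul_le_mul_of_nonneg_left hζ hσ0.le
      obtain ⟨a, b, y1, y2, c1, c2, c3, c4, c5, c6⟩ := hΓ.step hw hl hl2 hκ ht2 hF'
        (hreg _ _ ht0.le ht3 (by
          have e1 : z - x - (t - σ) • P = σ • ζ := by rw [hz]; abel
          rw [e1, hnσ]
          nlinarith))
        (fun η hη' => hreg _ _ ht0.le ht3 (by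
          have e1 : z + κ • η - x - (t - σ) • P = σ • ζ + κ • η := by rw [hz]; abel
          rw [e1]
          refine (norm_add_le _ _).trans ?_
          rw [hnσ, norm_smul, Real.norm_eq_abs, abs_of_pos hκ]
          have : κ * ‖η‖ ≤ κ * 1 := mul_le_mul_of_nonneg_left hη' hκ.le
          nlinarith))
      have hv : ∀ v : E, ‖v - P'‖ ≤ 2 * y + 9 → ‖v - P‖ ≤ V := fun v hv => by
        have e1 : v - P = (v - P') + (P' - P'') - (P - P'') := by abel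
        rw [e1]
        have d1 := norm_sub_le ((v - P') + (P' - P'')) (P - P'')
        have d2 := norm_add_le (v - P') (P' - P'')
        linarith
      refine ⟨a - P, b - P, y1, y2, hv a c1, hv b c2, ?_, ?_, c5, fun η => ?_⟩
      · have e1 : ((n + 2 : ℕ) : ℝ) * κ = t + κ := by rw [ht']; push_cast; ring
        have e2 : x + (t + κ - σ) • P + σ • (ζ + (1 / (N : ℝ)) • (a - P)) = z + κ • a := by
          rw [smul_add, hsm, hz]; module
        simp only [e1, e2]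
        exact c3
      · have e1 : (n : ℝ) * κ = t - κ := by rw [ht']; ring
        have e2 : x + (t - κ - σ) • P + σ • (ζ - (1 / (N : ℝ)) • (b - P)) = z - κ • b := by
          rw [smul_sub, hsm, hz]; module
        simp only [e1, e2]
        exact c4
      · have e2 : x + (t - σ) • P + σ • (ζ + (1 / (N : ℝ)) • η) = z + κ • η := by
          rw [smul_add, hsm, hz]; module
        have e3 : a - P - (b - P) = a - b := by abel
        simp only [e2, e3]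
        exact c6 η)
    (by
      simp only [← hσN, sub_self, zero_smul, smul_zero, add_zero]
      exact hG)
    hη
    (by
      intro ζ y hζ hΓ
      have e1 : ((2 * N : ℕ) : ℝ) * κ = 2 * σ := by rw [hσN]; push_cast; ring
      simp only [e1] at hΓ
      refine htop _ y ?_ hΓ
      have e2 : x + (2 * σ - σ) • P + σ • ζ - x - σ • P = σ • ζ := by module
      rw [e2, hnσ]
      nlinarith)
    hsum
  simp only [← hσ'] at hΓ1
  set x1 : E := x + (σ' - σ) • P + σ • ζ1 with hx1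
  obtain ⟨P1, h1, hF1⟩ := hw.flat x1 σ' (4 * (Q * σ')) (by positivity)
  obtain ⟨P'', h'', hF''⟩ := hw.flat x1 σ' (4 * (Q * σ)) (by positivity)
  have b1 : ‖P - P''‖ ≤ 9 := htwo σ' ζ1 P'' h'' hσ'0.le (by linarith) hζ1 hF''
  have b2 : ‖P1 - P''‖ ≤ 5 * ((q : ℝ) + 1) := by
    refine (hw.chain q hF1 hF'' (by positivity) ?_ ?_).1
    · rw [← hσ]; linarith
    · rw [← hσ, ← hQ]; linarith
  have b3 : ‖P1 - P‖ ≤ R := by
    have e1 : P1 - P = (P1 - P'') - (P - P'') := by abel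
    rw [e1]
    have d1 := norm_sub_le (P1 - P'') (P - P'')
    linarith
  have hR1 : 1 ≤ R := hV1.trans hVR
  have hθ' : (N' : ℝ) / N = 1 / Q := by
    rw [hNc]; field_simp
  refine ⟨x1, P1, h1, y1, hF1, hΓ1, hy1, fun x' y hx' hG' => ?_, fun x' t' ht0 ht2 hx' => ?_⟩
  · have e0 : 110 * Y / Q = 110 * Y * ((N' : ℝ) / N) := by rw [hθ']; ring
    rw [e0]
    refine hlast (σ⁻¹ • (x' - x - (2 * σ' - σ) • P)) y ?_ ?_
    · have e1 : σ • (σ⁻¹ • (x' - x - (2 * σ' - σ) • P) - ζ1) =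
          (x' - x1 - σ' • P1) + σ' • (P1 - P) := by
        rw [smul_sub, smul_inv_smul₀ hσ0.ne', hx1]; module
      have e2 := hnσ (σ⁻¹ • (x' - x - (2 * σ' - σ) • P) - ζ1)
      rw [e1] at e2
      have d1 := norm_add_le (x' - x1 - σ' • P1) (σ' • (P1 - P))
      rw [norm_smul, Real.norm_eq_abs, abs_of_pos hσ'0] at d1
      have d2 : σ' * ‖P1 - P‖ ≤ σ' * R := mul_le_mul_of_nonneg_left b3 hσ'0.le
      have d3 : σ * (3 * R * (1 / Q)) = 3 * R * σ' := by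
        rw [hσ]; field_simp
      rw [hθ']
      refine le_of_mul_le_mul_left ?_ hσ0
      rw [d3]
      nlinarith
    · have e1 : ((2 * N' : ℕ) : ℝ) * κ = 2 * σ' := by rw [hσ']; push_cast; ring
      have e2 : x + (2 * σ' - σ) • P + σ • σ⁻¹ • (x' - x - (2 * σ' - σ) • P) = x' := by
        rw [smul_inv_smul₀ hσ0.ne']; abel
      simp only [e1, e2]
      exact hG'
  · have e1 : x' - x - (t' - σ) • P =
        (x' - x1 - (t' - σ') • P1) + (t' - σ') • (P1 - P) + σ • ζ1 := by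
      rw [hx1]; module
    rw [e1]
    have d1 := norm_add_le ((x' - x1 - (t' - σ') • P1) + (t' - σ') • (P1 - P)) (σ • ζ1)
    have d2 := norm_add_le (x' - x1 - (t' - σ') • P1) ((t' - σ') • (P1 - P))
    rw [hnσ] at d1
    rw [norm_smul, Real.norm_eq_abs] at d2
    have d3 : |t' - σ'| ≤ σ' := by rw [abs_le]; constructor <;> linarith
    have d4 : |t' - σ'| * ‖P1 - P‖ ≤ σ' * R := mul_le_mul d3 b3 (norm_nonneg _) hσ'0.le
    have d5 : σ * ‖ζ1‖ ≤ σ * R := mul_le_mul_of_nonneg_left hζ1 hσ0.le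
    have d6 : 3 * R * σ' ≤ σ := by
      rw [hσ]; exact mul_le_mul_of_nonneg_right hθ hσ'0.le
    nlinarith

end Crest.Agent.R94
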