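import Crest.Agent.R94.Pen

/-! # Row 94: the abstract level lemma (penalised discrete concavity) -/

set_option autoImplicit false

namespace Crest.Agent.R94

variable {E : Type*} [NormedAddCommGroup E] [InnerProductSpace ℝ E]

theorem Level_inf {α : Type*} (P : α → ℝ → Prop) (ψ : α → ℝ) {Y : ℝ} (hY : 0 ≤ Y)
    (h0 : ∀ ζ y, P ζ y → 0 ≤ y + ψ ζ) :
    ∃ f : ℝ, f ≤ Y ∧ (∀ ζ y, P ζ y → f ≤ y + ψ ζ) ∧
      ∀ c, f < c → c ≤ Y → ∃ ζ y, P ζ y ∧ y + ψ ζ < c := by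
  have hb : BddBelow {v : ℝ | v = Y ∨ ∃ ζ y, P ζ y ∧ v = y + ψ ζ} := by
    refine ⟨0, ?_⟩
    rintro v (rfl | ⟨ζ, y, h, rfl⟩)
    · exact hY
    · exact h0 ζ y h
  refine ⟨sInf {v : ℝ | v = Y ∨ ∃ ζ y, P ζ y ∧ v = y + ψ ζ}, csInf_le hb (Or.inl rfl),
    fun ζ y h => csInf_le hb (Or.inr ⟨ζ, y, h, rfl⟩), fun c h1 h2 => ?_⟩
  obtain ⟨v, hv, h3⟩ := exists_lt_of_csInf_lt ⟨Y, Or.inl rfl⟩ h1
  rcases hv with rfl | ⟨ζ, y, h, rfl⟩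
  · exact absurd h2 (not_le.2 h3)
  · exact ⟨ζ, y, h, h3⟩

theorem Level_tau {N n : ℕ} (hN : 0 < N) (h : n ≤ 2 * N) : |((n : ℝ) - N) / N| ≤ 1 := by
  have h1 : (0 : ℝ) < N := by exact_mod_cast hN
  have h2 : (n : ℝ) ≤ 2 * N := by exact_mod_cast h
  have h3 : (0 : ℝ) ≤ n := Nat.cast_nonneg n
  rw [abs_div, abs_of_pos h1, div_le_one h1]
  exact abs_le.2 ⟨by linarith, by linarith⟩

/-- Put `ψ ζ n = pen (Y/R⁴) V ζ ((n - N)/N)`, `S n = {v | v = Y ∨ ∃ ζ y, ‖ζ‖ ≤ R+1 ∧ Γ ζ n y ∧ v = y + ψ ζ n}`,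
`f n = sInf (S n)`; for `N' ≤ n ≤ 2N` the set is bounded below by `0` (`h0`, `pen_nonneg`), `f n ≤ Y`.
Concavity `f (n+2) + f n ≤ 2 f (n+1)`: trivial if `f (n+1) = Y`; otherwise for small `ε > 0` pick `(ζ,y)`
with `y + ψ ζ (n+1) < f (n+1) + ε ≤ Y`; `norm_le_of_pen_le`, `hs`, `pen_step` (`k = 1/N`) ; the translated
configuration at `ζ + k•g` gives `⟪a-b,g⟫ ≤ ε + 3‖g‖²`, so `f (n+2) + f n ≤ 2 f (n+1) + 3ε`.
`f N ≤ y0 + ψ0` (`pen_zero_le`), `f (2N) ≥ y0 - η0`, so `disc_concave` gives `f N' ≤ y0 + η0 + 2ψ0` and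
`f (2N') ≥ f N' - (N'/N)(η0 + ψ0)`. Pick `(ζ1,y1)` with `y1 + ψ ζ1 N' < f N' + ψ0 ≤ Y` (`ψ0 > 0`); finish with
`pen_osc` (`θ = N'/N ≤ 1/2`). -/
theorem level (Γ : E → ℕ → ℝ → Prop) (N N' : ℕ) {R V Y y0 η0 : ℝ} (hN' : 1 ≤ N')
    (hNN : 2 * N' ≤ N) (hV1 : 1 ≤ V) (hY : 0 < Y) (hYV : Y ≤ V ^ 2) (hR0 : 0 ≤ R)
    (hR : 3000 * V ^ 2 ≤ R ^ 2) (hk : 4 * V ≤ N) (hθ : 3 * R * N' ≤ N)
    (h0 : ∀ (ζ : E) (n : ℕ) (y : ℝ), ‖ζ‖ ≤ R + 1 → N' ≤ n → n ≤ 2 * N → Γ ζ n y → 0 ≤ y)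
    (hs : ∀ (ζ : E) (n : ℕ) (y : ℝ), ‖ζ‖ ≤ R → N' ≤ n → n + 2 ≤ 2 * N → y ≤ Y → Γ ζ (n + 1) y →
      ∃ (a b : E) (y1 y2 : ℝ), ‖a‖ ≤ V ∧ ‖b‖ ≤ V ∧ Γ (ζ + (1 / (N : ℝ)) • a) (n + 2) y1 ∧
        Γ (ζ - (1 / (N : ℝ)) • b) n y2 ∧ y1 + y2 ≤ 2 * y ∧
        ∀ η : E, Γ (ζ + (1 / (N : ℝ)) • η) (n + 1) (y - inner ℝ (a - b) η + ‖η‖ ^ 2))
    (hc : Γ 0 N y0) (hη : 0 ≤ η0)
    (htop : ∀ (ζ : E) (y : ℝ), ‖ζ‖ ≤ R + 1 → Γ ζ (2 * N) y → y0 - η0 ≤ y)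
    (hsum : y0 + η0 + 3 * psi0 Y V R ≤ Y) :
    ∃ (ζ1 : E) (y1 : ℝ), ‖ζ1‖ ≤ R ∧ Γ ζ1 N' y1 ∧ y1 ≤ y0 + η0 + 3 * psi0 Y V R ∧
      ∀ (ζ : E) (y : ℝ), ‖ζ - ζ1‖ ≤ 3 * R * ((N' : ℝ) / N) → Γ ζ (2 * N') y →
        y1 - (η0 / 2 + 2 * psi0 Y V R + 110 * Y * ((N' : ℝ) / N)) ≤ y := by
  have hN : 0 < N := by omega
  have hNr : (0 : ℝ) < N := by exact_mod_cast hN
  have hN'r : (0 : ℝ) < N' := by exact_mod_cast hN'
  have hNNr : 2 * (N' : ℝ) ≤ N := by exact_mod_cast hNN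
  have hRp : 0 < R := by
    rcases hR0.eq_or_lt with rfl | h
    · nlinarith
    · exact h
  have hA : 0 ≤ Y / R ^ 4 := by positivity
  have hψ0 : 0 < psi0 Y V R := by
    unfold psi0
    positivity
  have hk0 : (0 : ℝ) < 1 / N := by positivity
  have hkV : 4 * (1 / (N : ℝ)) * V ≤ 1 := by
    rw [mul_one_div, div_mul_eq_mul_div, div_le_one hNr]
    exact hk
  have key : ∀ n : ℕ, ∃ f : ℝ, N' ≤ n → n ≤ 2 * N → f ≤ Y ∧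
      (∀ (ζ : E) (y : ℝ), ‖ζ‖ ≤ R + 1 ∧ Γ ζ n y →
        f ≤ y + pen (Y / R ^ 4) V ζ (((n : ℝ) - N) / N)) ∧
      ∀ c, f < c → c ≤ Y → ∃ (ζ : E) (y : ℝ), (‖ζ‖ ≤ R + 1 ∧ Γ ζ n y) ∧
        y + pen (Y / R ^ 4) V ζ (((n : ℝ) - N) / N) < c := fun n => by
    by_cases hn : N' ≤ n ∧ n ≤ 2 * N
    · obtain ⟨f, hf⟩ := Level_inf (fun (ζ : E) (y : ℝ) => ‖ζ‖ ≤ R + 1 ∧ Γ ζ n y)
        (fun ζ => pen (Y / R ^ 4) V ζ (((n : ℝ) - N) / N)) hY.le fun ζ y h =>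
          add_nonneg (h0 ζ n y h.1 hn.1 hn.2 h.2) (pen_nonneg hA _ _ _)
      exact ⟨f, fun _ _ => hf⟩
    · exact ⟨0, fun h1 h2 => absurd ⟨h1, h2⟩ hn⟩
  choose f hf using key
  have hconc : ∀ n, N' ≤ n → n + 2 ≤ 2 * N → f (n + 2) + f n ≤ 2 * f (n + 1) := fun n h1 h2 => by
    obtain ⟨a0, a1, -⟩ := hf n h1 (by omega)
    obtain ⟨-, b1, b2⟩ := hf (n + 1) (by omega) (by omega)
    obtain ⟨c0, c1, -⟩ := hf (n + 2) (by omega) h2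
    rcases le_or_gt Y (f (n + 1)) with h3 | h3
    · linarith
    refine le_of_forall_pos_le_add fun ε hε => ?_
    obtain ⟨δ, hδ0, hδ1, hδ2⟩ : ∃ δ : ℝ, 0 < δ ∧ 3 * δ ≤ ε ∧ f (n + 1) + δ ≤ Y :=
      ⟨min (ε / 3) (Y - f (n + 1)), lt_min (by linarith) (by linarith),
        by linarith [min_le_left (ε / 3) (Y - f (n + 1))],
        by linarith [min_le_right (ε / 3) (Y - f (n + 1))]⟩
    obtain ⟨ζ, y, ⟨hζ, hΓ⟩, h4⟩ := b2 (f (n + 1) + δ) (by linarith) hδ2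
    have hτ := Level_tau hN (show n + 1 ≤ 2 * N by omega)
    have hy0 := h0 ζ (n + 1) y hζ (by omega) (by omega) hΓ
    have hp0 := pen_nonneg hA V ζ ((((n + 1 : ℕ) : ℝ) - N) / N)
    have hpY : pen (Y / R ^ 4) V ζ ((((n + 1 : ℕ) : ℝ) - N) / N) ≤ Y := by linarith
    have hζR := norm_le_of_pen_le hY hRp hτ hpY
    obtain ⟨a, b, y1, y2, ha, hb, g1, g2, g3, g4⟩ := hs ζ n y hζR h1 h2 (by linarith) hΓ
    obtain ⟨-, g, k1, k2, k3⟩ := pen_step hV1 hY hYV hR0 hR hk0 hkV hτ ha hb hpY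
    have hn : ∀ v : E, ‖(1 / (N : ℝ)) • v‖ = 1 / (N : ℝ) * ‖v‖ := fun v => by
      rw [norm_smul, Real.norm_of_nonneg hk0.le]
    have hv : ∀ v : E, ‖v‖ ≤ V → ‖(1 / (N : ℝ)) • v‖ ≤ 1 := fun v h => by
      rw [hn]
      have := mul_le_mul_of_nonneg_left h hk0.le
      have h5 : 0 ≤ 1 / (N : ℝ) * V := by positivity
      linarith
    have e1 : (((n + 2 : ℕ) : ℝ) - N) / N = (((n + 1 : ℕ) : ℝ) - N) / N + 1 / N := by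
      push_cast
      ring
    have e2 : ((n : ℝ) - N) / N = (((n + 1 : ℕ) : ℝ) - N) / N - 1 / N := by
      push_cast
      ring
    have l1 := c1 _ y1 ⟨(norm_add_le _ _).trans (add_le_add hζR (hv a ha)), g1⟩
    have l2 := a1 _ y2 ⟨(norm_sub_le _ _).trans (add_le_add hζR (hv b hb)), g2⟩
    have l3 := b1 _ _ ⟨(norm_add_le _ _).trans (add_le_add hζR ((hn g).trans_le k1)), g4 g⟩
    rw [e1] at l1
    rw [e2] at l2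
    linarith
  have hfN : f N ≤ y0 + psi0 Y V R := by
    have h1 := (hf N (by omega) (by omega)).2.1 0 y0 ⟨by rw [norm_zero]; linarith, hc⟩
    have h2 := pen_zero_le (E := E) (V := V) (R := R) hY.le
      (Level_tau hN (show N ≤ 2 * N by omega))
    linarith
  have hf2N : y0 - η0 ≤ f (2 * N) := by
    by_contra h1
    obtain ⟨ζ, y, ⟨h2, h3⟩, h4⟩ :=
      (hf (2 * N) (by omega) le_rfl).2.2 (y0 - η0) (not_le.1 h1) (by linarith)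
    have h5 := htop ζ y h2 h3
    have h6 := pen_nonneg hA V ζ ((((2 * N : ℕ) : ℝ) - N) / N)
    linarith
  have hsl : -((η0 + psi0 Y V R) / N) ≤ (f (2 * N) - f N) / N := by
    rw [← neg_div]
    exact div_le_div_of_nonneg_right (by linarith) hNr.le
  have hq0 : 0 ≤ (η0 + psi0 Y V R) / N := by positivity
  have hqN : (N : ℝ) * ((η0 + psi0 Y V R) / N) = η0 + psi0 Y V R := by field_simp
  have d1 := disc_concave f N' N hN hconc N' N le_rfl (by omega) le_rfl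
  have d2 := disc_concave f N' N hN hconc N' (2 * N') le_rfl (by omega) hNN
  have d3 : f N' ≤ y0 + η0 + 2 * psi0 Y V R := by
    have h1 := mul_le_mul_of_nonneg_left hsl (show (0 : ℝ) ≤ (N : ℝ) - N' by linarith)
    have h2 := mul_nonneg hN'r.le hq0
    linarith
  have d4 : f N' - (η0 + psi0 Y V R) / 2 ≤ f (2 * N') := by
    have h1 := mul_le_mul_of_nonneg_left hsl hN'r.le
    have h2 := mul_le_mul_of_nonneg_right hNNr hq0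
    push_cast at d2
    linarith
  obtain ⟨ζ1, y1, ⟨h1, h2⟩, h3⟩ :=
    (hf N' le_rfl (by omega)).2.2 (f N' + psi0 Y V R) (by linarith) (by linarith)
  have h4 := h0 ζ1 N' y1 h1 le_rfl (by omega) h2
  have h5 := pen_nonneg hA V ζ1 (((N' : ℝ) - N) / N)
  have h6 : ‖ζ1‖ ≤ R :=
    norm_le_of_pen_le hY hRp (Level_tau hN (show N' ≤ 2 * N by omega)) (by linarith)
  refine ⟨ζ1, y1, h6, h2, by linarith, fun ζ y h7 h8 => ?_⟩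
  have hθ' : 3 * R * ((N' : ℝ) / N) ≤ 1 := by
    rw [← mul_div_assoc, div_le_one hNr]
    exact hθ
  have h9 : ‖ζ‖ ≤ R + 1 := (norm_le_norm_add_norm_sub' ζ ζ1).trans (by linarith)
  have h10 := (hf (2 * N') (by omega) (by omega)).2.1 ζ y ⟨h9, h8⟩
  have h11 := pen_osc hV1 hY hR0 hR (show 0 < (N' : ℝ) / N by positivity) hθ' h6 h7
  have e1 : (((2 * N' : ℕ) : ℝ) - N) / N = 2 * ((N' : ℝ) / N) - 1 := by
    push_cast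
    field_simp
  have e2 : ((N' : ℝ) - N) / N = (N' : ℝ) / N - 1 := by field_simp
  rw [e1] at h10
  rw [e2] at h3
  linarith

end Crest.Agent.R94
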