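import Crest.Agent.R94.Defs

/-! # Row 94: Lipschitz extension and monotone slopes from comparison with cones -/

set_option autoImplicit false

namespace Crest.Agent.R94

variable {E : Type*} [NormedAddCommGroup E] [InnerProductSpace ℝ E]

theorem CC.smul {u : E → ℝ} {Ω : Set E} (h : CC u Ω) {c : ℝ} (hc : 0 < c) :
    CC (fun y => c * u y) Ω := by
  intro x R a hR hΩ hy y hyR
  have h1 := h x R (a / c) hR hΩ (fun z hz => by
    refine le_of_mul_le_mul_left ?_ hc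
    have e : c * (u x + a / c * R) = c * u x + a * R := by field_simp
    rw [e]
    exact hy z hz) y hyR
  have e : c * (u x + a / c * ‖y - x‖) = c * u x + a * ‖y - x‖ := by field_simp
  exact (mul_le_mul_of_nonneg_left h1 hc.le).trans_eq e

omit [InnerProductSpace ℝ E] in
theorem Loc_norm {x y : E} {R : ℝ} (h : ‖y - x‖ ≤ R) : ‖y‖ ≤ ‖x‖ + R :=
  (norm_le_norm_add_norm_sub' y x).trans (by linarith)

omit [InnerProductSpace ℝ E] in
theorem Loc_sub {x : E} {R : ℝ} (h : ‖x‖ + R < 1) : Metric.closedBall x R ⊆ Metric.ball 0 1 :=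
  fun _ hy => mem_ball_zero_iff.2 ((Loc_norm (mem_closedBall_iff_norm.1 hy)).trans_lt h)

/-- `‖x - y‖ ≤ 1/8`: `CC` on `closedBall x (1/8)` with `a = 2`; otherwise the oscillation bound. -/
theorem CC.lip {u : E → ℝ} (h : CC u (Metric.ball 0 1))
    (hosc : ∀ x ∈ Metric.ball (0 : E) 1, ∀ y ∈ Metric.ball (0 : E) 1, u x - u y ≤ 1 / 4) :
    LipschitzOnWith 2 u (Metric.closedBall 0 (3 / 4)) := by
  refine LipschitzOnWith.of_le_add_mul 2 fun y hy x hx => ?_
  rw [mem_closedBall_zero_iff] at hx hy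
  have hb : Metric.closedBall x (1 / 8) ⊆ Metric.ball 0 1 := Loc_sub (by linarith)
  have hx1 : x ∈ Metric.ball (0 : E) 1 := mem_ball_zero_iff.2 (by linarith)
  rw [dist_eq_norm, NNReal.coe_ofNat]
  rcases le_total ‖y - x‖ (1 / 8) with h1 | h1
  · refine h x (1 / 8) 2 (by norm_num) hb (fun z hz => ?_) y h1
    have := hosc z (hb (mem_closedBall_iff_norm.2 hz.le)) x hx1
    linarith
  · have := hosc y (mem_ball_zero_iff.2 (by linarith)) x hx1
    linarith

/-- Let `R1 = ‖η‖`. If `R1 = 0` or `R1 ≥ 4r` the left quotient is `≤ 0` (Lipschitz), take `η' = 0`. Otherwise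
`R2 = R1 ρ/r ≤ 4ρ ≤ 1/20`; maximise `u` on the compact nonempty `sphere x R2` at `x + η'`,
`a = (u (x+η') - u x)/R2`; `CC` gives `u (x+η) ≤ u x + a R1`; `R1/r = R2/ρ`. All points lie in
`closedBall 0 (3/4)`, where `v = u`. -/
theorem CC.mp [FiniteDimensional ℝ E] {u v : E → ℝ} (hc : ContinuousOn u (Metric.ball 0 1))
    (h : CC u (Metric.ball 0 1)) (hv : LipschitzWith 2 v) (hvu : ∀ x : E, ‖x‖ ≤ 3 / 4 → v x = u x)
    {x : E} (hx : ‖x‖ ≤ 5 / 8) (t : ℝ) {r ρ : ℝ} (hr : 0 < r) (hρ : r < ρ) (hρ' : ρ ≤ 1 / 80) :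
    MP (fun y _ => v y) x t r ρ := by
  have _ := hc
  intro η
  have hρ0 : 0 < ρ := hr.trans hρ
  by_cases h1 : ‖η‖ = 0 ∨ 4 * r ≤ ‖η‖
  · refine ⟨0, ?_⟩
    have h2 := hv.le_add_mul (x + η) x
    rw [dist_self_add_left, NNReal.coe_ofNat] at h2
    have h3 : 2 * ‖η‖ ≤ ‖η‖ ^ 2 / (2 * r) := by
      rw [le_div_iff₀ (by positivity)]
      rcases h1 with h1 | h1
      · simp [h1]
      · nlinarith [norm_nonneg η]
    simp only [add_zero, sub_self, norm_zero, ne_eq, OfNat.ofNat_ne_zero, not_false_eq_true,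
      zero_pow, zero_div]
    exact div_nonpos_of_nonpos_of_nonneg (by linarith) hr.le
  · rw [not_or, not_le] at h1
    have h0 : 0 < ‖η‖ := lt_of_le_of_ne (norm_nonneg η) (Ne.symm h1.1)
    set q := ‖η‖ / r with hq
    have hq0 : 0 < q := by positivity
    have hq4 : q < 4 := by rw [hq, div_lt_iff₀ hr]; exact h1.2
    have hη : ‖η‖ = q * r := by rw [hq]; field_simp
    have hR : q * ρ ≤ 1 / 20 := by nlinarith
    have hR0 : 0 < q * ρ := by positivity
    have hle : ‖η‖ ≤ q * ρ := by rw [hη]; gcongr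
    have hne : (Metric.sphere x (q * ρ)).Nonempty := by
      refine ⟨x + (ρ / r) • η, ?_⟩
      rw [mem_sphere_iff_norm, add_sub_cancel_left, norm_smul, Real.norm_of_nonneg (by positivity),
        hη]
      field_simp
    obtain ⟨z, hz, hmax⟩ := (isCompact_sphere x (q * ρ)).exists_isMaxOn hne hv.continuous.continuousOn
    rw [mem_sphere_iff_norm] at hz
    have hvu' : ∀ y : E, ‖y - x‖ ≤ q * ρ → v y = u y := fun y hy =>
      hvu y ((Loc_norm hy).trans (by linarith))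
    obtain ⟨a, ha⟩ : ∃ a, v z = v x + a * (q * ρ) := ⟨(v z - v x) / (q * ρ), by field_simp; ring⟩
    have hxx := hvu x (by linarith)
    have h2 := h x (q * ρ) a hR0 (Loc_sub (by linarith)) (fun y hy => by
      rw [← hvu' y hy.le, ← hxx, ← ha]
      exact hmax (mem_sphere_iff_norm.2 hy)) (x + η) (by rwa [add_sub_cancel_left])
    rw [← hvu' _ (by rwa [add_sub_cancel_left]), ← hxx, add_sub_cancel_left] at h2
    refine ⟨z - x, ?_⟩
    simp only [add_sub_cancel]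
    rw [hz, ha]
    calc (v (x + η) - v x - ‖η‖ ^ 2 / (2 * r)) / r ≤ (a * ‖η‖ - ‖η‖ ^ 2 / (2 * r)) / r := by
          gcongr
          linarith
      _ = _ := by
          rw [hη]
          field_simp
          ring

/-- `LipschitzOnWith.extend_real`; `MM` for `v` is `MP` for `-v` (`LipschitzWith.neg`). -/
theorem loc_ext [FiniteDimensional ℝ E] {u : E → ℝ} (hc : ContinuousOn u (Metric.ball 0 1))
    (h1 : CC u (Metric.ball 0 1)) (h2 : CC (fun y => -u y) (Metric.ball 0 1))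
    (hosc : ∀ x ∈ Metric.ball (0 : E) 1, ∀ y ∈ Metric.ball (0 : E) 1, u x - u y ≤ 1 / 4) :
    ∃ v : E → ℝ, LipschitzWith 2 v ∧ (∀ x : E, ‖x‖ ≤ 3 / 4 → v x = u x) ∧
      ∀ x : E, ‖x‖ ≤ 5 / 8 → ∀ t r ρ : ℝ, 0 < r → r < ρ → ρ ≤ 1 / 80 →
        MP (fun y _ => v y) x t r ρ ∧ MM (fun y _ => v y) x t r ρ := by
  obtain ⟨v, hv, hvu⟩ := (h1.lip hosc).extend_real
  have hvu' : ∀ x : E, ‖x‖ ≤ 3 / 4 → v x = u x := fun x hx =>
    (hvu (mem_closedBall_zero_iff.2 hx)).symm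
  refine ⟨v, hv, hvu', fun x hx t r ρ hr hρ hρ' => ⟨h1.mp hc hv hvu' hx t hr hρ hρ', fun η => ?_⟩⟩
  obtain ⟨η', h⟩ := CC.mp (v := fun y => -v y) hc.neg h2 hv.neg
    (fun x hx => congrArg Neg.neg (hvu' x hx)) hx t hr hρ hρ' η
  refine ⟨η', ?_⟩
  simp only [neg_sub_neg] at h
  exact h

end Crest.Agent.R94
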