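import Crest.Agent.R94.Defs
import Crest.Prelude.Def_InfHarmonic

/-! # Row 94: viscosity solutions enjoy comparison with cones (Crandall-Evans-Gariepy) -/

set_option autoImplicit false

namespace Crest.Agent.R94

open Crest.AnalysisR.PDE

variable {ι : Type*} [Fintype ι]

/-- `iteratedFDeriv_neg_apply`-type lemma, gradient of `-φ`, and `iteratedFDeriv_two_apply` with
linearity (`map_neg`). -/
theorem infLaplacian_neg (φ : EuclideanSpace ℝ ι → ℝ) (z : EuclideanSpace ℝ ι) :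
    infLaplacian (fun y => -φ y) z = -infLaplacian φ z := by
  have h1 : gradient (fun y => -φ y) z = -gradient φ z := by
    simp only [gradient, fderiv_fun_neg, map_neg]
  have h2 : iteratedFDeriv ℝ 2 (fun y => -φ y) z = -iteratedFDeriv ℝ 2 φ z :=
    iteratedFDeriv_neg_apply (f := φ)
  unfold infLaplacian
  rw [h1, h2, _root_.neg_apply, iteratedFDeriv_two_apply,
    iteratedFDeriv_two_apply]
  simp

theorem Visc_norm {E : Type*} [NormedAddCommGroup E] [InnerProductSpace ℝ E] {x y : E} (h : y ≠ x) :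
    HasFDerivAt (fun y : E => ‖y - x‖) (‖y - x‖⁻¹ • innerSL ℝ (y - x)) y := by
  have h0 : ‖y - x‖ ≠ 0 := norm_ne_zero_iff.2 (sub_ne_zero.2 h)
  have h1 := (((hasFDerivAt_id y).sub_const x).norm_sq).sqrt (pow_ne_zero 2 h0)
  simp only [id, Real.sqrt_sq (norm_nonneg _)] at h1
  refine h1.congr_fderiv ?_
  ext v
  simp only [_root_.smul_apply, ContinuousLinearMap.comp_apply,
    ContinuousLinearMap.id_apply, smul_eq_mul, nsmul_eq_mul, Nat.cast_ofNat]
  field_simp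

theorem Visc_phi {E : Type*} [NormedAddCommGroup E] [InnerProductSpace ℝ E] {x y : E} (h : y ≠ x)
    (a ε : ℝ) : HasFDerivAt (fun y : E => a * ‖y - x‖ - ε * ‖y - x‖ ^ 2)
      ((a * ‖y - x‖⁻¹ - 2 * ε) • innerSL ℝ (y - x)) y := by
  have h1 := ((Visc_norm h).const_mul a).sub
    ((((hasFDerivAt_id y).sub_const x).norm_sq).const_mul ε)
  refine h1.congr_fderiv ?_
  ext v
  simp only [_root_.smul_apply, ContinuousLinearMap.comp_apply,
    _root_.sub_apply, ContinuousLinearMap.id_apply, smul_eq_mul, nsmul_eq_mul,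
    Nat.cast_ofNat, id]
  ring

/-- `φ y = a‖y - x‖ - ε‖y - x‖²` is smooth near `z ≠ x` (`ContDiffAt.norm`). With `s = ‖z - x‖`,
`e = s⁻¹•(z - x)`: near `z`, `fderiv φ y = (a/‖y-x‖ - 2ε) • ⟪y - x, ·⟫`, so `∇φ z = (a - 2εs)•e =: v`.
`iteratedFDeriv_two_apply`; `fderiv (fderiv φ) z v v` is the derivative at `0` of
`τ ↦ fderiv φ (z + τ•v) v = (a - 2ε(s + τ c)) c` (`c = a - 2εs`, `τ` small), which is `-2ε c²`. -/
theorem infLaplacian_cone (x z : EuclideanSpace ℝ ι) (hz : z ≠ x) (a ε : ℝ) :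
    ContDiffAt ℝ 2 (fun y : EuclideanSpace ℝ ι => a * ‖y - x‖ - ε * ‖y - x‖ ^ 2) z ∧
    infLaplacian (fun y : EuclideanSpace ℝ ι => a * ‖y - x‖ - ε * ‖y - x‖ ^ 2) z =
      -(2 * ε) * (a - 2 * ε * ‖z - x‖) ^ 2 := by
  have h0 : z - x ≠ 0 := sub_ne_zero.2 hz
  have hs : ‖z - x‖ ≠ 0 := norm_ne_zero_iff.2 h0
  have hn : ContDiffAt ℝ 2 (fun y : EuclideanSpace ℝ ι => ‖y - x‖) z :=
    (contDiffAt_id.sub contDiffAt_const).norm ℝ h0
  have hc : ContDiffAt ℝ 2
      (fun y : EuclideanSpace ℝ ι => a * ‖y - x‖ - ε * ‖y - x‖ ^ 2) z :=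
    (contDiffAt_const.mul hn).sub (contDiffAt_const.mul (hn.pow 2))
  refine ⟨hc, ?_⟩
  obtain ⟨φ, hφ⟩ : ∃ φ, φ = fun y : EuclideanSpace ℝ ι => a * ‖y - x‖ - ε * ‖y - x‖ ^ 2 := ⟨_, rfl⟩
  have hd : ∀ y, y ≠ x → HasFDerivAt φ ((a * ‖y - x‖⁻¹ - 2 * ε) • innerSL ℝ (y - x)) y :=
    fun y hy => hφ ▸ Visc_phi hy a ε
  rw [← hφ] at hc ⊢
  obtain ⟨v, hv⟩ : ∃ v, v = (a * ‖z - x‖⁻¹ - 2 * ε) • (z - x) := ⟨_, rfl⟩
  have hg : gradient φ z = v := by
    refine HasGradientAt.gradient (hasGradientAt_iff_hasFDerivAt.2 ((hd z hz).congr_fderiv ?_))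
    ext w
    simp only [hv, _root_.smul_apply, innerSL_apply_apply, smul_eq_mul,
      InnerProductSpace.toDual_apply_apply, real_inner_smul_left]
  have h1 : HasFDerivAt (fderiv ℝ φ) (fderiv ℝ (fderiv ℝ φ) z) z :=
    ((hc.fderiv_right (m := 1) (by norm_num)).differentiableAt (by norm_num)).hasFDerivAt
  have h2 := h1.clm_apply (hasFDerivAt_const v z)
  have h3 := ((((hasDerivAt_inv hs).comp_hasFDerivAt z (Visc_norm hz)).const_mul a).sub_const
    (2 * ε)).mul ((innerSL ℝ v).hasFDerivAt.comp z ((hasFDerivAt_id z).sub_const x))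
  have h4 : (fun y => fderiv ℝ φ y v) =ᶠ[nhds z]
      ((fun y => a * ((fun s : ℝ => s⁻¹) ∘ fun y => ‖y - x‖) y - 2 * ε) *
        (innerSL ℝ v ∘ fun y => id y - x)) := by
    filter_upwards [isOpen_ne.mem_nhds hz] with y hy
    rw [(hd y hy).fderiv]
    simp only [_root_.smul_apply, innerSL_apply_apply, smul_eq_mul, Pi.mul_apply,
      Function.comp_apply, id, real_inner_comm]
  have h5 := congrArg (fun L : EuclideanSpace ℝ ι →L[ℝ] ℝ => L v)
    (h2.unique (h3.congr_of_eventuallyEq h4))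
  simp only [_root_.add_apply, ContinuousLinearMap.comp_apply,
    _root_.zero_apply, map_zero, zero_add, ContinuousLinearMap.flip_apply,
    _root_.smul_apply, innerSL_apply_apply, smul_eq_mul, Function.comp_apply, id,
    ContinuousLinearMap.id_apply] at h5
  unfold infLaplacian
  rw [hg, iteratedFDeriv_two_apply]
  simp only [Matrix.cons_val_zero, Matrix.cons_val_one]
  rw [h5, hv]
  simp only [real_inner_smul_left, real_inner_smul_right]
  rw [real_inner_self_eq_norm_sq]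
  field_simp
  ring

/-- If `u y0 - u x - a‖y0 - x‖ = m > 0`, choose `ε > 0` with `ε R² < m` and (`a ≤ 0` or `2 ε R < a`). A maximum
point `z` of `u - φ` on the compact closed ball (`φ` as in `infLaplacian_cone`) has value `≥ u x + m`, so it is
neither `x` nor on the sphere; it is a local maximum; `a - 2ε‖z-x‖ ≠ 0`; contradiction. -/
theorem cc_of_sub {u : EuclideanSpace ℝ ι → ℝ} {Ω : Set (EuclideanSpace ℝ ι)}
    (hc : ContinuousOn u Ω)
    (hs : ∀ z ∈ Ω, ∀ φ : EuclideanSpace ℝ ι → ℝ, ContDiffAt ℝ 2 φ z →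
      IsLocalMax (fun y => u y - φ y) z → 0 ≤ infLaplacian φ z) : CC u Ω := by
  intro x R a hR hsub hb y0 hy0
  by_contra hcon
  obtain ⟨m, hm⟩ : ∃ m, m = u y0 - u x - a * ‖y0 - x‖ := ⟨_, rfl⟩
  have hm0 : 0 < m := by rw [hm]; linarith [not_le.1 hcon]
  obtain ⟨ε, hε, hε1, hε2⟩ : ∃ ε : ℝ, 0 < ε ∧ ε * R ^ 2 < m ∧ (a ≤ 0 ∨ 2 * ε * R < a) := by
    rcases le_or_gt a 0 with ha | ha
    · refine ⟨m / (2 * R ^ 2), by positivity, ?_, Or.inl ha⟩
      have : m / (2 * R ^ 2) * R ^ 2 = m / 2 := by field_simp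
      linarith
    · refine ⟨min (m / (2 * R ^ 2)) (a / (4 * R)), by positivity, ?_, Or.inr ?_⟩
      · have h1 : m / (2 * R ^ 2) * R ^ 2 = m / 2 := by field_simp
        have h2 : min (m / (2 * R ^ 2)) (a / (4 * R)) * R ^ 2 ≤ m / (2 * R ^ 2) * R ^ 2 :=
          mul_le_mul_of_nonneg_right (min_le_left _ _) (by positivity)
        linarith
      · have h1 : a / (4 * R) * R = a / 4 := by field_simp
        have h2 : min (m / (2 * R ^ 2)) (a / (4 * R)) * R ≤ a / (4 * R) * R :=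
          mul_le_mul_of_nonneg_right (min_le_right _ _) hR.le
        linarith
  have hcont : ContinuousOn (fun y => u y - (a * ‖y - x‖ - ε * ‖y - x‖ ^ 2))
      (Metric.closedBall x R) := (hc.mono hsub).sub (by fun_prop)
  obtain ⟨z, hz, hmax⟩ := (isCompact_closedBall x R).exists_isMaxOn
    (Metric.nonempty_closedBall.2 hR.le) hcont
  have hy : u y0 - (a * ‖y0 - x‖ - ε * ‖y0 - x‖ ^ 2) ≤ u z - (a * ‖z - x‖ - ε * ‖z - x‖ ^ 2) :=
    hmax (mem_closedBall_iff_norm.2 hy0)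
  have hge : u x + m ≤ u z - (a * ‖z - x‖ - ε * ‖z - x‖ ^ 2) := by
    have : 0 ≤ ε * ‖y0 - x‖ ^ 2 := by positivity
    linarith
  have hzx : z ≠ x := by
    rintro rfl
    simp only [sub_self, norm_zero, mul_zero, ne_eq, OfNat.ofNat_ne_zero, not_false_eq_true,
      zero_pow, sub_zero] at hge
    linarith
  have hzR : ‖z - x‖ < R := by
    refine lt_of_le_of_ne (mem_closedBall_iff_norm.1 hz) fun h => ?_
    have := hb z h
    rw [h] at hge
    linarith
  have hloc : IsLocalMax (fun y => u y - (a * ‖y - x‖ - ε * ‖y - x‖ ^ 2)) z :=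
    hmax.isLocalMax (Filter.mem_of_superset
      (Metric.isOpen_ball.mem_nhds (mem_ball_iff_norm.2 hzR)) Metric.ball_subset_closedBall)
  obtain ⟨k1, k2⟩ := infLaplacian_cone x z hzx a ε
  have h1 := hs z (hsub hz) _ k1 hloc
  rw [k2] at h1
  have hs0 : 0 < ‖z - x‖ := norm_pos_iff.2 (sub_ne_zero.2 hzx)
  have h2 : a - 2 * ε * ‖z - x‖ ≠ 0 := by
    rcases hε2 with h | h
    · have : 0 < 2 * ε * ‖z - x‖ := by positivity
      linarith
    · have : 2 * ε * ‖z - x‖ ≤ 2 * ε * R := by gcongr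
      linarith
  have h3 : 0 < 2 * ε * (a - 2 * ε * ‖z - x‖) ^ 2 := by positivity
  linarith

/-- For `-u` test with `-φ` (`IsLocalMax.neg`, `infLaplacian_neg`). -/
theorem cc_of_visc {u : EuclideanSpace ℝ ι → ℝ} {Ω : Set (EuclideanSpace ℝ ι)}
    (hu : IsInfinityHarmonicOn u Ω) : CC u Ω ∧ CC (fun y => -u y) Ω := by
  refine ⟨cc_of_sub hu.1 fun z hz φ hφ h => (hu.2 z hz φ hφ).1 h,
    cc_of_sub hu.1.neg fun z hz φ hφ h => ?_⟩
  have h1 : IsLocalMin (fun y => u y - -φ y) z := by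
    have := h.neg
    refine (this.congr (Filter.Eventually.of_forall fun y => ?_))
    show -(-u y - φ y) = u y - -φ y
    ring
  have h2 := (hu.2 z hz (fun y => -φ y) hφ.neg).2 h1
  rw [infLaplacian_neg] at h2
  linarith

end Crest.Agent.R94
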