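import Crest.Agent.R94.Gal
import Crest.Agent.R94.Camp
import Crest.Agent.R94.Visc
import Crest.Agent.R94.Loc

/-! # Row 94: assembly -/

set_option autoImplicit false

namespace Crest.Agent.R94

open scoped Gradient

/-- `M0` from `decay`, `α, C` from `campanato` (`r0 = 1/80`); the constant is `4 C`. For `M > 0` apply
`loc_ext` to `fun y => (4 M)⁻¹ * u y` (`cc_of_visc`, `CC.smul`; note `-(c * u y) = c * (-u y)`), so
`u = 4 M * v` near points of the ball of radius `1/2` (`HasGradientAt.congr_of_eventuallyEq`), and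
`∇ u x = (4 M) • g x`. `M ≥ 0` (take `x = y = 0`); for `M = 0`, `u` is constant on the unit ball, so its gradient
is `0` there. -/
theorem main (d : ℕ) :
    ∃ α : ℝ, 0 < α ∧ α ≤ 1 / 3 ∧ ∃ C : ℝ,
      ∀ u : EuclideanSpace ℝ (Fin d) → ℝ,
        Crest.AnalysisR.PDE.IsInfinityHarmonicOn u (Metric.ball 0 1) →
        ∀ M : ℝ, (∀ x ∈ Metric.ball (0 : EuclideanSpace ℝ (Fin d)) 1,
            ∀ y ∈ Metric.ball (0 : EuclideanSpace ℝ (Fin d)) 1, u x - u y ≤ M) →
          (∀ x ∈ Metric.ball (0 : EuclideanSpace ℝ (Fin d)) 2⁻¹, DifferentiableAt ℝ u x) ∧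
          ∀ x ∈ Metric.ball (0 : EuclideanSpace ℝ (Fin d)) 2⁻¹,
            ∀ y ∈ Metric.ball (0 : EuclideanSpace ℝ (Fin d)) 2⁻¹,
              ‖∇ u x‖ ≤ C * M ∧ ‖∇ u x - ∇ u y‖ ≤ C * M * ‖x - y‖ ^ α := by
  obtain ⟨M0, hM0, hdec⟩ := decay (E := EuclideanSpace ℝ (Fin d))
  obtain ⟨α, hα0, hα1, C, hC, hcamp⟩ :=
    campanato (E := EuclideanSpace ℝ (Fin d)) hM0 (r0 := 1 / 80) (by norm_num)
  refine ⟨α, hα0, hα1, 4 * C, fun u hu M hM => ?_⟩
  have hM0' : 0 ≤ M := by
    have := hM 0 (Metric.mem_ball_self one_pos) 0 (Metric.mem_ball_self one_pos)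
    simpa using this
  have hsub : ∀ x ∈ Metric.ball (0 : EuclideanSpace ℝ (Fin d)) 2⁻¹,
      x ∈ Metric.ball (0 : EuclideanSpace ℝ (Fin d)) 1 := fun x hx =>
    Metric.ball_subset_ball (by norm_num) hx
  rcases hM0'.eq_or_lt with hz | hpos
  · -- `u` is constant on the unit ball
    subst hz
    have hgr : ∀ x ∈ Metric.ball (0 : EuclideanSpace ℝ (Fin d)) 2⁻¹, HasGradientAt u 0 x := by
      intro x hx
      have hev : u =ᶠ[nhds x] fun _ => u 0 := by
        filter_upwards [Metric.isOpen_ball.mem_nhds (hsub x hx)] with y hy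
        have h1 := hM y hy 0 (Metric.mem_ball_self one_pos)
        have h2 := hM 0 (Metric.mem_ball_self one_pos) y hy
        linarith
      exact (hasGradientAt_const x (u 0)).congr_of_eventuallyEq hev
    refine ⟨fun x hx => (hgr x hx).differentiableAt, fun x hx y hy => ?_⟩
    rw [(hgr x hx).gradient, (hgr y hy).gradient]
    simp
  · have hc : 0 < (4 * M)⁻¹ := by positivity
    obtain ⟨hcc1, hcc2⟩ := cc_of_visc hu
    have h1 : CC (fun y => (4 * M)⁻¹ * u y) (Metric.ball 0 1) := hcc1.smul hc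
    have h2 : CC (fun y => -((4 * M)⁻¹ * u y)) (Metric.ball 0 1) := by
      have := hcc2.smul hc
      simpa only [mul_neg] using this
    have hcont : ContinuousOn (fun y => (4 * M)⁻¹ * u y) (Metric.ball 0 1) :=
      continuousOn_const.mul hu.1
    have hosc : ∀ x ∈ Metric.ball (0 : EuclideanSpace ℝ (Fin d)) 1,
        ∀ y ∈ Metric.ball (0 : EuclideanSpace ℝ (Fin d)) 1,
          (4 * M)⁻¹ * u x - (4 * M)⁻¹ * u y ≤ 1 / 4 := by
      intro x hx y hy
      have := hM x hx y hy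
      rw [← mul_sub]
      calc (4 * M)⁻¹ * (u x - u y) ≤ (4 * M)⁻¹ * M := by gcongr
        _ = 1 / 4 := by field_simp
    obtain ⟨v, hv, hvu, hmp⟩ := loc_ext hcont h1 h2 hosc
    obtain ⟨g, hg1, hg2⟩ := hcamp v hv (hdec v hv hmp)
    have hn : ∀ x ∈ Metric.ball (0 : EuclideanSpace ℝ (Fin d)) 2⁻¹, ‖x‖ ≤ 1 / 2 := by
      intro x hx
      rw [mem_ball_zero_iff] at hx
      linarith
    have hgr : ∀ x ∈ Metric.ball (0 : EuclideanSpace ℝ (Fin d)) 2⁻¹,
        HasGradientAt u ((4 * M) • g x) x := by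
      intro x hx
      have hev : u =ᶠ[nhds x] fun y => (4 * M) * v y := by
        filter_upwards [Metric.isOpen_ball.mem_nhds hx] with y hy
        rw [hvu y (by have := hn y hy; linarith)]
        field_simp
      have h3 : HasGradientAt (fun y => (4 * M) * v y) ((4 * M) • g x) x := by
        have h4 := (hg1 x (hn x hx)).1
        rw [hasGradientAt_iff_hasFDerivAt] at h4 ⊢
        have h5 := h4.const_mul (4 * M)
        simpa only [map_smul] using h5
      exact h3.congr_of_eventuallyEq hev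
    refine ⟨fun x hx => (hgr x hx).differentiableAt, fun x hx y hy => ?_⟩
    rw [(hgr x hx).gradient, (hgr y hy).gradient, ← smul_sub, norm_smul, norm_smul,
      Real.norm_of_nonneg (by positivity : (0 : ℝ) ≤ 4 * M)]
    constructor
    · have := (hg1 x (hn x hx)).2
      calc 4 * M * ‖g x‖ ≤ 4 * M * C := by gcongr
        _ = 4 * C * M := by ring
    · have := hg2 x y (hn x hx) (hn y hy)
      calc 4 * M * ‖g x - g y‖ ≤ 4 * M * (C * ‖x - y‖ ^ α) := by gcongr
        _ = 4 * C * M * ‖x - y‖ ^ α := by ring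

end Crest.Agent.R94
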