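import Crest.Agent.R94.HL2
import Crest.Agent.R94.Cfg

/-! # Row 94: moving the atoms of a configuration

Throughout, for atoms `y i` at time `t` choose (`Cls.exists_max'`, `choose`) velocities `p i` with
`Tup w κ (y i) t = w (y i + κ • p i) (t+κ) - κ ‖p i‖²/2`, and `p = ∑ c i • p i`. -/

set_option autoImplicit false

namespace Crest.Agent.R94

variable {E : Type*} [NormedAddCommGroup E] [InnerProductSpace ℝ E] [FiniteDimensional ℝ E]
variable {w : E → ℝ → ℝ} {x : E} {t κ a lam : ℝ}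

section aux
variable {ι : Type} [Fintype ι] {c : ι → ℝ} {y p : ι → E} {q : E}

omit [FiniteDimensional ℝ E] in
theorem move_sum_le (h0 : ∀ i, 0 ≤ c i) (h1 : ∑ i, c i = 1) {A B : ι → ℝ} {k : ℝ} {v : E} {z : ι → E}
    (h : ∀ i, A i + k + inner ℝ v (z i) ≤ B i) :
    ∑ i, c i * A i + k + inner ℝ v (∑ i, c i • z i) ≤ ∑ i, c i * B i := by
  have h2 := Finset.sum_le_sum fun i (_ : i ∈ Finset.univ) => mul_le_mul_of_nonneg_left (h i) (h0 i)
  simpa only [mul_add, Finset.sum_add_distrib, ← Finset.sum_mul, h1, one_mul, sum_inner_eq] using h2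

omit [FiniteDimensional ℝ E] in
theorem move_bary (hx : ∑ i, c i • y i = x) (hq : ∑ i, c i • p i = q) (k : ℝ) :
    ∑ i, c i • (y i + k • p i) = x + k • q := by
  simp only [smul_add, Finset.sum_add_distrib, smul_comm _ k, ← Finset.smul_sum, hx, hq]

omit [FiniteDimensional ℝ E] in
theorem move_const (h1 : ∑ i, c i = 1) (v : E) : ∑ i, c i • v = v := by
  rw [← Finset.sum_smul, h1, one_smul]

omit [FiniteDimensional ℝ E] in
theorem move_cent (h1 : ∑ i, c i = 1) (hx : ∑ i, c i • y i = x) : ∑ i, c i • (y i - x) = 0 := by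
  simp only [smul_sub, Finset.sum_sub_distrib, hx, move_const h1, sub_self]

omit [FiniteDimensional ℝ E] in
theorem move_shift (hw : Cls w) (hκ : 0 < κ) {y p : E}
    (hp : Tup w κ y t = w (y + κ • p) (t + κ) - κ * ‖p‖ ^ 2 / 2) (η : E) :
    Tup w κ y t + inner ℝ η p - ‖η‖ ^ 2 / (2 * κ) ≤ Tup w κ (y + η) t := by
  have h := hw.le_Tup hκ (y + η) t (y + κ • p) rfl
  rw [add_sub_add_left_eq_sub, norm_sub_sq_real, norm_smul, Real.norm_of_nonneg hκ.le,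
    real_inner_smul_left, real_inner_comm] at h
  have e : ((κ * ‖p‖) ^ 2 - 2 * (κ * inner ℝ η p) + ‖η‖ ^ 2) / (2 * κ) =
      κ * ‖p‖ ^ 2 / 2 - inner ℝ η p + ‖η‖ ^ 2 / (2 * κ) := by
    field_simp
  linarith

variable (hw : Cls w) (hκ : 0 < κ) (h0 : ∀ i, 0 ≤ c i) (h1 : ∑ i, c i = 1) (hx : ∑ i, c i • y i = x)
  (ha : a ≤ ∑ i, c i * (Tup w κ (y i) t - ‖y i - x‖ ^ 2 / (2 * t)))
  (hp : ∀ i, Tup w κ (y i) t = w (y i + κ • p i) (t + κ) - κ * ‖p i‖ ^ 2 / 2)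
  (hq : ∑ i, c i • p i = q)

include hw hκ h0 h1 hx ha hp hq in
theorem move_head (ht : 0 < t) : Ach (fun y => Tup w κ y (t + κ)) (x + κ • q) (t + κ)
    (2 * a - ∑ i, c i * (w (y i) t - ‖y i - x‖ ^ 2 / (2 * t)) + κ * ‖q‖ ^ 2 / 2) := by
  refine ⟨ι, inferInstance, c, fun i => y i + κ • p i, h0, h1, move_bary hx hq κ, ?_⟩
  have h2 := var_split (x := x) (y := y) h0 h1 hq ht hκ
  have h3 : ∀ i, 2 * Tup w κ (y i) t - w (y i) t + κ / 2 * ‖p i‖ ^ 2 ≤
      Tup w κ (y i + κ • p i) (t + κ) := by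
    intro i
    have h4 := mul_le_mul_of_nonneg_left (hw.is_up hκ (hp i)) hκ.le
    linarith [Tup_eq w hκ (y i) t, Tup_eq w hκ (y i + κ • p i) (t + κ), hp i]
  have h4 := Finset.sum_le_sum fun i (_ : i ∈ Finset.univ) => mul_le_mul_of_nonneg_left (h3 i) (h0 i)
  simp only [mul_add, mul_sub, Finset.sum_add_distrib, Finset.sum_sub_distrib, mul_left_comm _ (2 : ℝ),
    mul_left_comm _ (κ / 2), ← Finset.mul_sum] at h2 h4 ha ⊢
  linarith

omit [FiniteDimensional ℝ E] in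
include hw hκ h0 h1 hx in
theorem move_tail (ht : κ < t) (b : E) : Ach (fun y => Tup w κ y (t - κ)) (x - κ • b) (t - κ)
    (∑ i, c i * (w (y i) t - ‖y i - x‖ ^ 2 / (2 * t)) - κ * ‖b‖ ^ 2 / 2) := by
  have ht0 : 0 < t := hκ.trans ht
  have hm : ∑ i, c i • (b + t⁻¹ • (y i - x)) = b := by
    rw [move_bary (move_const h1 b) (move_cent h1 hx), smul_zero, add_zero]
  refine ⟨ι, inferInstance, c, fun i => y i + (-κ) • (b + t⁻¹ • (y i - x)), h0, h1, ?_, ?_⟩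
  · rw [move_bary hx hm, neg_smul, sub_eq_add_neg]
  · refine le_trans ?_ (move_sum_le h0 h1 (A := fun i => w (y i) t - ‖y i - x‖ ^ 2 / (2 * t))
      (k := -(κ * ‖b‖ ^ 2 / 2)) (v := (-(κ / t)) • b) (z := fun i => y i - x) fun i => ?_)
    · rw [move_cent h1 hx, inner_zero_right]
      linarith
    · have h2 := hw.le_Tup hκ (y i + (-κ) • (b + t⁻¹ • (y i - x))) (t - κ) (y i)
        (sub_add_cancel t κ).symm
      have e1 : y i + (-κ) • (b + t⁻¹ • (y i - x)) - (x - κ • b) = (1 - κ * t⁻¹) • (y i - x) := by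
        module
      rw [sub_add_cancel_left, norm_neg, norm_smul, mul_pow, norm_add_sq_real, norm_smul, mul_pow,
        real_inner_smul_right, Real.norm_eq_abs, Real.norm_eq_abs, sq_abs, sq_abs] at h2
      rw [e1, norm_smul, mul_pow, Real.norm_eq_abs, sq_abs, real_inner_smul_left]
      have htκ : t - κ ≠ 0 := (sub_pos.2 ht).ne'
      have e2 : (-κ) ^ 2 * (‖b‖ ^ 2 + 2 * (t⁻¹ * inner ℝ b (y i - x)) + t⁻¹ ^ 2 * ‖y i - x‖ ^ 2) /
          (2 * κ) + (1 - κ * t⁻¹) ^ 2 * ‖y i - x‖ ^ 2 / (2 * (t - κ)) =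
          ‖y i - x‖ ^ 2 / (2 * t) + κ * ‖b‖ ^ 2 / 2 + κ / t * inner ℝ b (y i - x) := by
        field_simp
        ring
      linarith

omit [FiniteDimensional ℝ E] in
include hw hκ h0 h1 hx ha hp hq in
theorem move_trans (η : E) : Ach (fun y => Tup w κ y t) (x + κ • η) t
    (a + κ * (inner ℝ q η - ‖η‖ ^ 2 / 2)) := by
  refine ⟨ι, inferInstance, c, fun i => y i + κ • η, h0, h1, move_bary hx (move_const h1 η) κ, ?_⟩
  refine le_trans ?_ (move_sum_le h0 h1 (A := fun i => Tup w κ (y i) t - ‖y i - x‖ ^ 2 / (2 * t))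
    (k := -(κ * ‖η‖ ^ 2 / 2)) (v := κ • η) (z := p) fun i => ?_)
  · rw [hq, real_inner_smul_left, real_inner_comm]
    linarith
  · have h2 := move_shift hw hκ (hp i) (κ • η)
    rw [norm_smul, Real.norm_of_nonneg hκ.le] at h2
    have e : (κ * ‖η‖) ^ 2 / (2 * κ) = κ * ‖η‖ ^ 2 / 2 := by field_simp
    rw [add_sub_add_right_eq_sub]
    linarith

omit [FiniteDimensional ℝ E] in
include hw hκ h0 h1 hx ha hp hq in
theorem move_mass (ht : 0 < t) (ξ : E) {e : ℝ} (he : 0 < e) (he' : e ≤ 1 / 2) :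
    Ach (fun y => Tup w κ y t) x t
      ((1 - e) * a + e * (Tup w κ (x + ξ) t - inner ℝ q ξ - ‖ξ‖ ^ 2 / (2 * t)) -
        e ^ 2 * ‖ξ‖ ^ 2 * (1 / κ + 1 / t)) := by
  have he1 : 0 < 1 - e := by linarith
  obtain ⟨η, hη⟩ : ∃ η : E, (1 - e) • η = -(e • ξ) :=
    ⟨(1 - e)⁻¹ • -(e • ξ), by rw [smul_smul, mul_inv_cancel₀ he1.ne', one_smul]⟩
  refine ⟨Option ι, inferInstance, fun o => o.elim e fun i => (1 - e) * c i,
    fun o => o.elim (x + ξ) fun i => y i + η, fun o => ?_, ?_, ?_, ?_⟩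
  · cases o with
    | none => exact he.le
    | some i => exact mul_nonneg he1.le (h0 i)
  · simp only [Fintype.sum_option, Option.elim, ← Finset.mul_sum, h1]
    ring
  · simp only [Fintype.sum_option, Option.elim, mul_smul, ← Finset.smul_sum, smul_add,
      Finset.sum_add_distrib, hx, move_const h1, hη]
    module
  · have h2 := move_sum_le h0 h1 (A := fun i => Tup w κ (y i) t - ‖y i - x‖ ^ 2 / (2 * t))
      (B := fun i => Tup w κ (y i + η) t - ‖y i + η - x‖ ^ 2 / (2 * t))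
      (k := -(‖η‖ ^ 2 * (1 / κ + 1 / t) / 2)) (v := η) (z := fun i => p i + (-t⁻¹) • (y i - x))
      fun i => by
        have h3 := move_shift hw hκ (hp i) η
        rw [add_sub_right_comm (y i) η x, norm_add_sq_real, inner_add_right, real_inner_smul_right,
          real_inner_comm η (y i - x)]
        have e1 : (‖y i - x‖ ^ 2 + 2 * inner ℝ η (y i - x) + ‖η‖ ^ 2) / (2 * t) + ‖η‖ ^ 2 / (2 * κ) =
            ‖y i - x‖ ^ 2 / (2 * t) + t⁻¹ * inner ℝ η (y i - x) + ‖η‖ ^ 2 * (1 / κ + 1 / t) / 2 := by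
          field_simp
          ring
        linarith
    rw [move_bary hq (move_cent h1 hx), smul_zero, add_zero] at h2
    have h3 : (1 - e) * inner ℝ η q = -(e * inner ℝ q ξ) := by
      rw [← real_inner_smul_left, hη, inner_neg_left, real_inner_smul_left, real_inner_comm]
    have h4 : (1 - e) ^ 2 * ‖η‖ ^ 2 = e ^ 2 * ‖ξ‖ ^ 2 := by
      have h5 := congrArg (fun v => ‖v‖ ^ 2) hη
      simpa only [norm_neg, norm_smul, mul_pow, Real.norm_eq_abs, sq_abs] using h5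
    have h5 : (1 - e) * ‖η‖ ^ 2 / 2 ≤ e ^ 2 * ‖ξ‖ ^ 2 := by
      nlinarith [mul_nonneg (mul_nonneg he1.le (sq_nonneg ‖η‖)) (sub_nonneg.2 he')]
    have h6 := mul_le_mul_of_nonneg_right h5 (show 0 ≤ 1 / κ + 1 / t by positivity)
    have h7 := mul_le_mul_of_nonneg_left (ha.trans_eq' rfl) he1.le
    have h8 := mul_le_mul_of_nonneg_left h2 he1.le
    simp only [Fintype.sum_option, Option.elim, mul_assoc (1 - e), ← Finset.mul_sum,
      add_sub_cancel_left]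
    linarith

end aux

/-- Apply `hl` at `(x + κ•p, t+κ)`, scale `t+κ`, to the atoms `y i + κ • p i`; use `var_split` and
`Cls.le_Tup_vel hw hκ x t p`. -/
theorem Cls.ach_le (hw : Cls w) (hl : Lam w lam) (hκ : 0 < κ) (ht : 0 < t)
    (h : Ach (fun y => Tup w κ y t) x t a) : a ≤ lam * (t + κ) + Tup w κ x t := by
  obtain ⟨ι, _, c, y, h0, h1, hx, ha⟩ := h
  choose p hp using fun i => hw.exists_max' hκ (y i) t
  have h2 := var_split (x := x) (y := y) (p := p) h0 h1 rfl ht hκ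
  have h3 := hl _ (t + κ) (t + κ) _ (add_pos ht hκ)
    ⟨ι, inferInstance, c, fun i => y i + κ • p i, h0, h1, move_bary hx rfl κ, le_rfl⟩
  have h4 := hw.le_Tup_vel hκ x t (∑ i, c i • p i)
  have e : ∀ i, κ * ‖p i‖ ^ 2 / 2 = κ / 2 * ‖p i‖ ^ 2 := fun i => by ring
  simp only [hp, e, mul_sub, Finset.sum_sub_distrib, mul_left_comm _ (κ / 2), ← Finset.mul_sum]
    at h2 h3 ha
  linarith

/-- `B = ∑ c i * (w (y i) t - ‖y i - x‖²/(2t))`.
* head: atoms `y i + κ • p i`; `Cls.is_up` and `Tup_eq` give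
  `Tup w κ (y i + κ•p i) (t+κ) ≥ 2 Tup w κ (y i) t - w (y i) t + κ‖p i‖²/2`; then `var_split`.
* tail: atoms `y i - κ • m i`, `m i = b + t⁻¹ • (y i - x)`; `Cls.le_Tup` gives
  `Tup w κ (y i - κ•m i) (t-κ) ≥ w (y i) t - κ‖m i‖²/2`; `∑ c i ‖m i‖² = ‖b‖² + Var/t²` (`sum_sq_shift`),
  the new centred atoms are `(1 - κ/t) • (y i - x)`, and
  `(1-κ/t)²/(2(t-κ)) + κ/(2t²) = 1/(2t)`.
* translation: atoms `y i + κ • η`;
  `Tup w κ (y i + κ•η) t ≥ w (y i + κ•p i) (t+κ) - κ‖p i - η‖²/2`.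
* mass transfer: index type `Option ι`, weight `e` at `x + ξ`, weights `(1-e) c i` at `y i + η0` with
  `η0 = -(e/(1-e)) • ξ`; `Tup w κ (y i + η0) t ≥ Tup w κ (y i) t + ⟪p i, η0⟫ - ‖η0‖²/(2κ)`,
  `sum_sq_shift`, and `1/(1-e) ≤ 2`. -/
theorem Cls.move (hw : Cls w) (hκ : 0 < κ) (ht : κ < t)
    (h : Ach (fun y => Tup w κ y t) x t a) : ∃ (p : E) (B : ℝ),
    Ach (fun y => w y t) x t B ∧
    Ach (fun y => Tup w κ y (t + κ)) (x + κ • p) (t + κ) (2 * a - B + κ * ‖p‖ ^ 2 / 2) ∧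
    (∀ b : E, Ach (fun y => Tup w κ y (t - κ)) (x - κ • b) (t - κ) (B - κ * ‖b‖ ^ 2 / 2)) ∧
    (∀ η : E, Ach (fun y => Tup w κ y t) (x + κ • η) t
      (a + κ * (inner ℝ p η - ‖η‖ ^ 2 / 2))) ∧
    (∀ (ξ : E) (e : ℝ), 0 < e → e ≤ 1 / 2 → Ach (fun y => Tup w κ y t) x t
      ((1 - e) * a + e * (Tup w κ (x + ξ) t - inner ℝ p ξ - ‖ξ‖ ^ 2 / (2 * t)) -
        e ^ 2 * ‖ξ‖ ^ 2 * (1 / κ + 1 / t))) := by
  obtain ⟨ι, _, c, y, h0, h1, hx, ha⟩ := h
  choose p hp using fun i => hw.exists_max' hκ (y i) t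
  have ht0 : 0 < t := hκ.trans ht
  exact ⟨∑ i, c i • p i, ∑ i, c i * (w (y i) t - ‖y i - x‖ ^ 2 / (2 * t)),
    ⟨ι, inferInstance, c, y, h0, h1, hx, le_rfl⟩, move_head hw hκ h0 h1 hx ha hp rfl ht0,
    move_tail hw hκ h0 h1 hx ht, move_trans hw hκ h0 h1 hx ha hp rfl,
    fun ξ e he he' => move_mass hw hκ h0 h1 hx ha hp rfl ht0 ξ he he'⟩

end Crest.Agent.R94
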