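import Crest.Agent.R94.Defs

/-! # Row 94: algebra of the quartic penalty and discrete concavity -/

set_option autoImplicit false

namespace Crest.Agent.R94

variable {E : Type*} [NormedAddCommGroup E] [InnerProductSpace ℝ E]

theorem pen_nonneg {A : ℝ} (hA : 0 ≤ A) (V : ℝ) (ζ : E) (τ : ℝ) : 0 ≤ pen A V ζ τ := by
  exact mul_nonneg hA (sq_nonneg _)

/-- `0 ≤ V² (3000 - 18 τ²) ≤ 3000 V²` for `|τ| ≤ 1`. -/
theorem pen_zero_le {Y V R τ : ℝ} (hY : 0 ≤ Y) (hτ : |τ| ≤ 1) :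
    pen (Y / R ^ 4) V (0 : E) τ ≤ psi0 Y V R := by
  have h1 : τ ^ 2 ≤ 1 := (sq_le_one_iff_abs_le_one τ).2 hτ
  unfold pen psi0
  refine mul_le_mul_of_nonneg_left (pow_le_pow_left₀ ?_ ?_ 2) (by positivity)
  · exact add_nonneg (sq_nonneg _) (mul_nonneg (sq_nonneg _) (by linarith))
  · rw [norm_zero]
    nlinarith [mul_nonneg (sq_nonneg V) (sq_nonneg τ)]

theorem Pen_Q_le {Y V R τ : ℝ} (hY : 0 < Y) (hR : 0 < R) {ζ : E}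
    (hζ : pen (Y / R ^ 4) V ζ τ ≤ Y) : ‖ζ‖ ^ 2 + V ^ 2 * (3000 - 18 * τ ^ 2) ≤ R ^ 2 := by
  unfold pen at hζ
  rw [div_mul_eq_mul_div, div_le_iff₀ (by positivity), mul_le_mul_iff_right₀ hY] at hζ
  exact le_of_sq_le_sq (by linarith) (sq_nonneg R)

theorem Pen_tr {A Q c n : ℝ} (hA : 0 ≤ A) (hc0 : 0 ≤ c) (hc : c ≤ 1 / 4) (hn0 : 0 ≤ n) (hn : n ≤ Q) :
    A * (Q + (2 * c + c ^ 2) * n) ^ 2 ≤ A * Q ^ 2 + 2 * (4 * A * Q * c * n) := by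
  have hQ := hn0.trans hn
  have h1 : c * (2 + c) ^ 2 ≤ 1 / 4 * (2 + 1 / 4) ^ 2 := by gcongr
  have h2 := mul_le_mul h1 hn hn0 (by norm_num)
  have h3 := mul_le_mul_of_nonneg_left hc hQ
  have h4 : 2 * Q * (2 + c) + c * (2 + c) ^ 2 * n ≤ 8 * Q := by linarith
  linear_combination mul_le_mul_of_nonneg_left h4 (show 0 ≤ A * c * n by positivity)

theorem Pen_del {k τ α V p n Q : ℝ} (hk0 : 0 < k) (hk1 : k ≤ 1) (hτ : |τ| ≤ 1) (hα0 : 0 ≤ α)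
    (hα : α ≤ V) (hp : |p| ≤ n * V) (hn : n ^ 2 ≤ Q) (hV : 2982 * V ^ 2 ≤ Q) :
    (2 * k * p + k ^ 2 * α ^ 2 - 18 * V ^ 2 * (2 * τ * k + k ^ 2)) ^ 2 ≤ 10 * k ^ 2 * V ^ 2 * Q := by
  obtain ⟨h1, h2⟩ := abs_le.1 hτ
  obtain ⟨h3, h4⟩ := abs_le.1 hp
  have h5 := pow_le_pow_left₀ hα0 hα 2
  have h6 := mul_le_mul hk1 h5 (sq_nonneg _) zero_le_one
  have h7 := mul_le_mul_of_nonneg_left hk1 (sq_nonneg V)
  have h8 := mul_le_mul_of_nonneg_left h1 (sq_nonneg V)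
  have h9 := mul_le_mul_of_nonneg_left h2 (sq_nonneg V)
  have h10 := mul_nonneg hk0.le (sq_nonneg α)
  have h11 := mul_nonneg hk0.le (sq_nonneg V)
  have h12 : (2 * p + k * α ^ 2 - 18 * V ^ 2 * (2 * τ + k)) ^ 2 ≤ (2 * n * V + 54 * V ^ 2) ^ 2 :=
    sq_le_sq' (by nlinarith [sq_nonneg V]) (by nlinarith [sq_nonneg V])
  have h13 : (2 * n + 54 * V) ^ 2 ≤ 10 * Q := by nlinarith [sq_nonneg (2 * n - 54 * V), sq_nonneg V]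
  linear_combination mul_le_mul_of_nonneg_left h12 (sq_nonneg k) +
    mul_le_mul_of_nonneg_left h13 (mul_nonneg (sq_nonneg k) (sq_nonneg V))

/-- Write `Q = ‖ζ‖² + V²(3000 - 18τ²)`, `A = Y/R⁴`, `g = (4 A Q k) • ζ`. `A Q² ≤ Y` gives `Q ≤ R²`, so
`‖ζ‖ ≤ R`, `‖g‖ ≤ 4 Y k / R`, `k‖g‖ ≤ 4 V² k² ≤ 1/4` (`R ≥ 1`).
Translation: `Q' = Q + Δ`, `Δ = 2k⟪ζ,g⟫ + k²‖g‖²`, `2 A Q · 2k⟪ζ,g⟫ = ‖g‖²`, and
`2AQk²‖g‖² + AΔ² ≤ 11 (Y k²/R²) ‖g‖² ≤ ‖g‖²`.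
Two-sided step: `Q₁ = Q + Δ₁`, `Q₂ = Q + Δ₂`, `Δ₁ + Δ₂ = 2k⟪ζ, a-b⟫ + k²(‖a‖²+‖b‖² - 36V²) ≤ 2k⟪ζ,a-b⟫ - 34 k²V²`,
`|Δᵢ| ≤ k (2‖ζ‖V + 54 V²)`, so `Δᵢ² ≤ k²V²(8‖ζ‖² + 5832 V²) ≤ k²V² (8 Q + 2 Q)` as `2982 V² ≤ Q`;
`‖g‖² = 16A²Q²k²‖ζ‖² ≤ 16 A k² V² Q` (`A Q² ≤ Y ≤ V²`, `‖ζ‖² ≤ Q`); finally `68 - 20 = 48 = 3 * 16`. -/
theorem pen_step {Y V R k τ : ℝ} (hV1 : 1 ≤ V) (hY : 0 < Y) (hYV : Y ≤ V ^ 2) (hR0 : 0 ≤ R)
    (hR : 3000 * V ^ 2 ≤ R ^ 2) (hk0 : 0 < k) (hk : 4 * k * V ≤ 1) (hτ : |τ| ≤ 1) {ζ a b : E}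
    (ha : ‖a‖ ≤ V) (hb : ‖b‖ ≤ V) (hζ : pen (Y / R ^ 4) V ζ τ ≤ Y) :
    ‖ζ‖ ≤ R ∧ ∃ g : E, k * ‖g‖ ≤ 1 ∧
      pen (Y / R ^ 4) V (ζ + k • g) τ ≤ pen (Y / R ^ 4) V ζ τ + 2 * ‖g‖ ^ 2 ∧
      pen (Y / R ^ 4) V (ζ + k • a) (τ + k) + pen (Y / R ^ 4) V (ζ - k • b) (τ - k) ≤
        2 * pen (Y / R ^ 4) V ζ τ + inner ℝ (a - b) g - 3 * ‖g‖ ^ 2 := by
  have h1 : τ ^ 2 ≤ 1 := (sq_le_one_iff_abs_le_one τ).2 hτ
  have hR1 : 1 ≤ R := by nlinarith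
  have hR2 : 0 < R := by linarith
  have hQR := Pen_Q_le hY hR2 hζ
  have hk1 : k ≤ 1 := by nlinarith
  have hkV : V ^ 2 * k ^ 2 ≤ 1 / 16 := by nlinarith [mul_pos hk0 (one_pos.trans_le hV1)]
  have hA : 0 ≤ Y / R ^ 4 := by positivity
  have hAR : Y / R ^ 4 * R ^ 2 * R ^ 2 = Y := by field_simp
  unfold pen at hζ ⊢
  obtain ⟨Q, hQ⟩ : ∃ Q, Q = ‖ζ‖ ^ 2 + V ^ 2 * (3000 - 18 * τ ^ 2) := ⟨_, rfl⟩
  rw [← hQ] at hζ hQR ⊢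
  generalize Y / R ^ 4 = A at hA hAR hζ ⊢
  have hVQ : 2982 * V ^ 2 ≤ Q := by nlinarith [sq_nonneg ‖ζ‖, mul_nonneg (sq_nonneg V) (sub_nonneg.2 h1)]
  have hnQ : ‖ζ‖ ^ 2 ≤ Q := by nlinarith [sq_nonneg V, mul_nonneg (sq_nonneg V) (sub_nonneg.2 h1)]
  have hQ0 : 0 ≤ Q := (sq_nonneg _).trans hnQ
  have hn : ‖ζ‖ ≤ R := le_of_sq_le_sq (hnQ.trans hQR) hR0
  have hc0 : 0 ≤ 4 * A * Q * k ^ 2 := by positivity
  have hcR : 4 * A * Q * k ^ 2 * R ≤ 1 / 4 := by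
    have h2 : A * Q * R ≤ A * R ^ 2 * R ^ 2 := by gcongr; nlinarith
    nlinarith [mul_le_mul_of_nonneg_right (h2.trans (hAR.le.trans hYV)) (sq_nonneg k)]
  have hg : ‖(4 * A * Q * k) • ζ‖ = 4 * A * Q * k * ‖ζ‖ := by
    rw [norm_smul, Real.norm_of_nonneg (by positivity)]
  refine ⟨hn, (4 * A * Q * k) • ζ, ?_, ?_, ?_⟩
  · rw [hg]
    nlinarith [mul_le_mul_of_nonneg_left hn hc0]
  · have e : ζ + k • (4 * A * Q * k) • ζ = (1 + 4 * A * Q * k ^ 2) • ζ := by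
      rw [smul_smul, add_smul, one_smul]
      congr 2
      ring
    rw [e, hg, norm_smul, Real.norm_of_nonneg (by positivity)]
    have := Pen_tr hA hc0 (by nlinarith) (sq_nonneg ‖ζ‖) hnQ
    convert this using 2
    · rw [hQ]
      ring
    · ring
  · have e1 : ‖ζ + k • a‖ ^ 2 + V ^ 2 * (3000 - 18 * (τ + k) ^ 2) =
        Q + (2 * k * inner ℝ ζ a + k ^ 2 * ‖a‖ ^ 2 - 18 * V ^ 2 * (2 * τ * k + k ^ 2)) := by
      rw [norm_add_sq_real, real_inner_smul_right, norm_smul, Real.norm_of_nonneg hk0.le, hQ]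
      ring
    have e2 : ‖ζ - k • b‖ ^ 2 + V ^ 2 * (3000 - 18 * (τ - k) ^ 2) =
        Q + (2 * k * -inner ℝ ζ b + k ^ 2 * ‖b‖ ^ 2 - 18 * V ^ 2 * (2 * -τ * k + k ^ 2)) := by
      rw [norm_sub_sq_real, real_inner_smul_right, norm_smul, Real.norm_of_nonneg hk0.le, hQ]
      ring
    have d1 := Pen_del (p := inner ℝ ζ a) hk0 hk1 hτ (norm_nonneg a) ha
      ((abs_real_inner_le_norm ζ a).trans (mul_le_mul_of_nonneg_left ha (norm_nonneg ζ))) hnQ hVQ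
    have d2 := Pen_del (p := -inner ℝ ζ b) (τ := -τ) hk0 hk1 (by rwa [abs_neg]) (norm_nonneg b) hb
      ((abs_neg _).trans_le ((abs_real_inner_le_norm ζ b).trans
        (mul_le_mul_of_nonneg_left hb (norm_nonneg ζ)))) hnQ hVQ
    rw [e1, e2, hg, real_inner_smul_right, real_inner_comm ζ (a - b), inner_sub_right]
    have a1 := mul_le_mul_of_nonneg_left (add_le_add d1 d2) hA
    have a2 := mul_le_mul_of_nonneg_left (add_le_add (pow_le_pow_left₀ (norm_nonneg a) ha 2)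
      (pow_le_pow_left₀ (norm_nonneg b) hb 2)) (show 0 ≤ A * Q * k ^ 2 by positivity)
    have a3 := mul_le_mul_of_nonneg_left (mul_le_mul (hζ.trans hYV) hnQ (sq_nonneg _) (sq_nonneg _))
      (show 0 ≤ A * k ^ 2 by positivity)
    linear_combination a1 + 2 * a2 + 48 * a3

/-- `pen ≤ Y` forces `‖ζ‖ ≤ R` (first part of `pen_step`, without velocities). -/
theorem norm_le_of_pen_le {Y V R τ : ℝ} (hY : 0 < Y) (hR : 0 < R) (hτ : |τ| ≤ 1) {ζ : E}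
    (hζ : pen (Y / R ^ 4) V ζ τ ≤ Y) : ‖ζ‖ ≤ R := by
  have h1 : τ ^ 2 ≤ 1 := (sq_le_one_iff_abs_le_one τ).2 hτ
  have h2 := Pen_Q_le hY hR hζ
  have h3 := mul_nonneg (sq_nonneg V) (show 0 ≤ 3000 - 18 * τ ^ 2 by linarith)
  exact le_of_sq_le_sq (by linarith) hR.le

/-- `Q - Q₁ ≤ 9 R² θ + 36 V² θ ≤ 10 R² θ`, `0 ≤ Q, Q₁`, `Q + Q₁ ≤ 7 R²`, `Q² - Q₁² = (Q - Q₁)(Q + Q₁)`. -/
theorem pen_osc {Y V R θ : ℝ} (hV1 : 1 ≤ V) (hY : 0 < Y) (hR0 : 0 ≤ R)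
    (hR : 3000 * V ^ 2 ≤ R ^ 2) (hθ0 : 0 < θ) (hθ : 3 * R * θ ≤ 1) {ζ ζ1 : E} (h1 : ‖ζ1‖ ≤ R)
    (h2 : ‖ζ - ζ1‖ ≤ 3 * R * θ) :
    pen (Y / R ^ 4) V ζ (2 * θ - 1) ≤ pen (Y / R ^ 4) V ζ1 (θ - 1) + 110 * Y * θ := by
  have hR1 : 1 ≤ R := by nlinarith
  have hθ1 : θ ≤ 1 / 3 := by nlinarith
  have h3 : ‖ζ‖ ≤ ‖ζ1‖ + 3 * R * θ := by linarith [norm_sub_norm_le ζ ζ1]
  have h4 := norm_nonneg ζ
  have h5 := norm_nonneg ζ1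
  have hV := sq_nonneg V
  have h6 : ‖ζ‖ ^ 2 - ‖ζ1‖ ^ 2 ≤ 9 * R ^ 2 * θ := by
    linear_combination mul_le_mul (show ‖ζ‖ - ‖ζ1‖ ≤ 3 * R * θ by linarith)
      (show ‖ζ‖ + ‖ζ1‖ ≤ 3 * R by linarith) (by positivity) (by positivity)
  have h7 := mul_le_mul_of_nonneg_right hR hθ0.le
  have h8 := mul_nonneg hV hθ0.le
  have h9 := mul_nonneg hV (sq_nonneg θ)
  have h10 : ‖ζ‖ ^ 2 ≤ (2 * R) ^ 2 := pow_le_pow_left₀ h4 (by linarith) 2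
  have h11 : ‖ζ1‖ ^ 2 ≤ R ^ 2 := pow_le_pow_left₀ h5 h1 2
  have h12 := mul_nonneg hV (sq_nonneg (2 * θ - 1))
  have h13 := mul_nonneg hV (sq_nonneg (θ - 1))
  have h14 := mul_nonneg hV (show 0 ≤ 3000 - 18 * (2 * θ - 1) ^ 2 by nlinarith)
  have h15 := mul_nonneg hV (show 0 ≤ 3000 - 18 * (θ - 1) ^ 2 by nlinarith)
  have hAR : Y / R ^ 4 * R ^ 4 = Y := by field_simp
  have hA : 0 ≤ Y / R ^ 4 := by positivity
  unfold pen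
  generalize Y / R ^ 4 = A at hA hAR ⊢
  have h16 := mul_le_mul
    (show ‖ζ‖ ^ 2 + V ^ 2 * (3000 - 18 * (2 * θ - 1) ^ 2) - (‖ζ1‖ ^ 2 + V ^ 2 * (3000 - 18 * (θ - 1) ^ 2)) ≤
      10 * R ^ 2 * θ by linarith)
    (show ‖ζ‖ ^ 2 + V ^ 2 * (3000 - 18 * (2 * θ - 1) ^ 2) + (‖ζ1‖ ^ 2 + V ^ 2 * (3000 - 18 * (θ - 1) ^ 2)) ≤
      7 * R ^ 2 by linarith) (by positivity) (by positivity)
  linear_combination mul_le_mul_of_nonneg_left h16 hA + 70 * θ * hAR + 40 * mul_pos hY hθ0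

/-- Increments `d n = f (n+1) - f n` are antitone on `[N', 2N)`; so every increment with index in `[N', N)`
is at least `d N ≥ (f (2N) - f N)/N` (the average of the increments with index in `[N, 2N)`). Sum up. -/
theorem disc_concave (f : ℕ → ℝ) (N' N : ℕ) (hN : 0 < N)
    (hc : ∀ n, N' ≤ n → n + 2 ≤ 2 * N → f (n + 2) + f n ≤ 2 * f (n + 1))
    (n m : ℕ) (hn : N' ≤ n) (hnm : n ≤ m) (hm : m ≤ N) :
    ((m : ℝ) - n) * ((f (2 * N) - f N) / N) ≤ f m - f n := by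
  have h1 : ∀ i j, N' ≤ i → i ≤ j → j + 1 ≤ 2 * N → f (j + 1) - f j ≤ f (i + 1) - f i := by
    intro i j hi hij
    induction j, hij using Nat.le_induction with
    | base => exact fun _ => le_rfl
    | succ j hij ih => exact fun hj => by linarith [ih (by omega), hc j (by omega) hj]
  have h2 : ∀ j, N ≤ j → j ≤ 2 * N → f j - f N ≤ ((j : ℝ) - N) * (f (N + 1) - f N) := by
    intro j hj
    induction j, hj using Nat.le_induction with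
    | base => exact fun _ => by simp
    | succ j hij ih =>
      intro hj
      have := h1 N j (by omega) hij hj
      push_cast
      linarith [ih (by omega)]
  have h3 : ∀ j, n ≤ j → j ≤ N → ((j : ℝ) - n) * (f (N + 1) - f N) ≤ f j - f n := by
    intro j hj
    induction j, hj using Nat.le_induction with
    | base => exact fun _ => by simp
    | succ j hij ih =>
      intro hj
      have := h1 j N (by omega) (by omega) (by omega)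
      push_cast
      linarith [ih (by omega)]
  refine le_trans (mul_le_mul_of_nonneg_left ?_ (sub_nonneg.2 (Nat.cast_le.2 hnm))) (h3 m hnm hm)
  rw [div_le_iff₀ (Nat.cast_pos.2 hN)]
  have := h2 (2 * N) (by omega) le_rfl
  push_cast at this
  linarith

end Crest.Agent.R94
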