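import Crest.Agent.R94.HL

/-! # Row 94: slopes at nearby points are bounded by the slope at a much larger scale -/

set_option autoImplicit false

namespace Crest.Agent.R94

variable {E : Type*} [NormedAddCommGroup E] [InnerProductSpace ℝ E]
variable {w : E → ℝ → ℝ} {x x' P : E} {t t' r h ρ l : ℝ}

/-- Reduced increment to a nearby point. Take a frame `(P',h')` at `(x,t)`, scale `l`; `Cls.chain` gives
`‖P' - P‖ ≤ D = 5(n+1)`, `|h' - h| ≤ 41(n+1)`. With `τ0 = t' - t`, `ξ0 = x' - x - τ0•P`, test it at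
`(x' - x, τ0)`; the difference of the affine parts is `⟪P'-P, ξ0⟫ + τ0 (h' - h - ‖P'-P‖²/2)`, the error is
`l + ‖ξ0 - τ0•(P'-P)‖²/l ≤ l (1 + (1+D)²)`. Total `≤ l (n+1)² (5 + 41 + 12.5 + 1 + 36)`. -/
theorem Cls.red_ge (hw : Cls w) (n : ℕ) (hF : Flat w x t (4 * ρ) 1 P h) (hl : 0 < l)
    (h1 : l ≤ 4 * ρ) (h2 : 4 * ρ ≤ 2 ^ n * l) (ht : |t' - t| ≤ l)
    (hx : ‖x' - x - (t' - t) • P‖ ≤ l) :
    -(96 * (n + 1) ^ 2 * l) ≤
      w x' t' - w x t - inner ℝ P (x' - x) - (h - ‖P‖ ^ 2 / 2) * (t' - t) := by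
  obtain ⟨P', h', hF'⟩ := hw.flat x t l hl
  obtain ⟨hP, hh⟩ := hw.chain n hF' hF hl h1 h2
  have hT := (abs_le.1 (hF' (x' - x) (t' - t) ht)).1
  rw [add_sub_cancel, add_sub_cancel] at hT
  obtain ⟨d, rfl⟩ : ∃ d, P' = P + d := ⟨P' - P, by abel⟩
  rw [add_sub_cancel_left] at hP
  set τ := t' - t with hτ
  obtain ⟨ξ, hξ⟩ : ∃ ξ, x' - x = ξ + τ • P := ⟨x' - x - τ • P, by abel⟩
  rw [hξ] at hT hx ⊢
  rw [add_sub_cancel_right] at hx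
  set N : ℝ := n + 1 with hN
  have hN1 : 1 ≤ N := by rw [hN]; linarith [Nat.cast_nonneg (α := ℝ) n]
  have e1 : ξ + τ • P - τ • (P + d) = ξ - τ • d := by rw [smul_add]; abel
  have e2 : inner ℝ (P + d) (ξ + τ • P) =
      inner ℝ P (ξ + τ • P) + (inner ℝ d ξ + τ * inner ℝ P d) := by
    rw [inner_add_left, inner_add_right d, inner_smul_right, real_inner_comm P d]
  rw [e1, e2, norm_add_sq_real] at hT
  have hd0 := norm_nonneg d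
  have b1 : |inner ℝ d ξ| ≤ 5 * N * l :=
    (abs_real_inner_le_norm d ξ).trans (mul_le_mul hP hx (norm_nonneg _) (by positivity))
  have b2 : |τ * (h' - h)| ≤ l * (41 * N) := by
    rw [abs_mul]; exact mul_le_mul ht hh (abs_nonneg _) hl.le
  have b3 : τ * ‖d‖ ^ 2 ≤ l * (5 * N) ^ 2 :=
    mul_le_mul ((le_abs_self _).trans ht) (pow_le_pow_left₀ hd0 hP 2) (by positivity) hl.le
  have b4 : ‖ξ - τ • d‖ ≤ 6 * N * l := by
    have h3 := norm_sub_le ξ (τ • d)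
    have h4 : ‖τ • d‖ ≤ l * (5 * N) := by
      rw [norm_smul, Real.norm_eq_abs]; exact mul_le_mul ht hP hd0 hl.le
    nlinarith
  have b5 : ‖ξ - τ • d‖ ^ 2 / l ≤ 36 * N ^ 2 * l := by
    rw [div_le_iff₀ hl]
    calc ‖ξ - τ • d‖ ^ 2 ≤ (6 * N * l) ^ 2 := pow_le_pow_left₀ (norm_nonneg _) b4 2
      _ = 36 * N ^ 2 * l * l := by ring
  have b6 : N * l ≤ N ^ 2 * l := by nlinarith [mul_nonneg (sub_nonneg.2 hN1) hl.le]
  have b7 : l ≤ N * l := le_mul_of_one_le_left hl.le hN1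
  have b1' := (abs_le.1 b1).1
  have b2' := (abs_le.1 b2).1
  nlinarith

theorem UB_alg {ρ ρ' l a b c F S : ℝ} (hl : 0 < l) (h1 : 4 * l ≤ ρ) (h2 : ρ - l ≤ ρ')
    (h3 : ρ' ≤ ρ + l) (ha : 0 ≤ a) (hb : 0 ≤ b) (hbl : b ≤ l) (_hc : 0 ≤ c) (hac : a ≤ c + b)
    (F1 : F ≤ ρ * S + a ^ 2 / (2 * ρ)) (F2 : F ≤ 4 * ρ + a ^ 2 / (4 * ρ)) (hS : -4 ≤ S) :
    F - c ^ 2 / (2 * ρ') ≤ ρ * S + 33 * l := by
  have hρ : 0 < ρ := by linarith
  have hρ' : 0 < ρ' := by linarith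
  set A := a ^ 2 / (2 * ρ) with hA
  set C := c ^ 2 / (2 * ρ') with hC
  have eA : a ^ 2 = 2 * ρ * A := by rw [hA]; field_simp
  have eC : c ^ 2 = 2 * ρ' * C := by rw [hC]; field_simp
  have eA' : a ^ 2 / (4 * ρ) = A / 2 := by rw [hA]; field_simp; ring
  rw [eA'] at F2
  have g1 : ρ * F ≤ ρ * (ρ * S) + 32 * l * ρ + (ρ - 2 * l) * A := by
    have k1 := mul_le_mul_of_nonneg_left F1 (by linarith : 0 ≤ ρ - 4 * l)
    have k2 := mul_le_mul_of_nonneg_left F2 (by linarith : 0 ≤ 4 * l)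
    have k3 := mul_le_mul_of_nonneg_left hS (by positivity : 0 ≤ 4 * l * ρ)
    nlinarith
  have g2 : (ρ - l) * a ^ 2 ≤ ρ * c ^ 2 + ρ ^ 2 * l := by
    refine le_of_mul_le_mul_left ?_ hl
    have k1 : a ^ 2 ≤ (c + b) ^ 2 := pow_le_pow_left₀ ha hac 2
    have k2 := mul_le_mul_of_nonneg_left k1 (mul_nonneg hl.le (by linarith : 0 ≤ ρ - l))
    have k3 : b ^ 2 ≤ l ^ 2 := pow_le_pow_left₀ hb hbl 2
    have k4 := mul_le_mul_of_nonneg_left k3 (mul_nonneg hρ.le (by linarith : 0 ≤ ρ - l))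
    have k5 : 0 ≤ ρ * l ^ 3 := by positivity
    nlinarith [sq_nonneg (l * c - (ρ - l) * b)]
  have g3 : (ρ - 2 * l) * A ≤ ρ * C + l * ρ := by
    refine le_of_mul_le_mul_left ?_ (by positivity : 0 < 2 * ρ * ρ')
    have k1 : (ρ - 2 * l) * ρ' ≤ ρ * (ρ - l) := by
      nlinarith [mul_le_mul_of_nonneg_left h3 (by linarith : 0 ≤ ρ - 2 * l)]
    have k2 := mul_le_mul_of_nonneg_right k1 (sq_nonneg a)
    have k3 := mul_le_mul_of_nonneg_left g2 hρ.le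
    have k4 := mul_le_mul_of_nonneg_left (by linarith : ρ ≤ 2 * ρ') (by positivity : 0 ≤ ρ ^ 2 * l)
    calc 2 * ρ * ρ' * ((ρ - 2 * l) * A) = (ρ - 2 * l) * ρ' * a ^ 2 := by rw [eA]; ring
      _ ≤ ρ ^ 2 * c ^ 2 + ρ ^ 2 * l * (2 * ρ') := by nlinarith
      _ = 2 * ρ * ρ' * (ρ * C + l * ρ) := by rw [eC]; ring
  refine le_of_mul_le_mul_left ?_ hρ
  nlinarith

/-- Let `τ0 = t' - t`, `ρ' = ρ - τ0 ∈ [3ρ/4, 5ρ/4]`, `ρ' ≥ r`; `Sp w r x' t' ≤ Sp w ρ' x' t'` (`Sp_mono`);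
bound `Tup w ρ' x' t'` by `Tup_le`. For a target `z = x' + η` at time `t + ρ` put `ξ = z - x - ρ•P`,
`ξ0 = x' - x - τ0•P`, `F = w z (t+ρ) - w x t - ⟪P, z - x⟫ - (h - ‖P‖²/2)ρ`, `F0` the quantity of `red_ge`,
`S = Sp w ρ x t - h ∈ [-4, 9]` (`le_Tup_vel` + `hF`; `reg_big`). By `lin_id`,
`w z (t+ρ) - w x' t' - ‖η‖²/(2ρ') = F - F0 + h ρ' - ‖ξ - ξ0‖²/(2ρ')`,
`F ≤ ρ S + ‖ξ‖²/(2ρ)` (`le_Tup`, `lin_id`) and `F ≤ 4ρ + ‖ξ‖²/(4ρ)` (`hF`). Average them with weights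
`1 - 4e`, `4e`, `e = l/ρ ≤ 1/4`, and use `‖ξ - ξ0‖² ≥ (1-e)‖ξ‖² - ‖ξ0‖²/e`, `ρ' ≤ (1+e)ρ`,
`(1-2e)(1+e) ≤ 1-e`: the total is `≤ h ρ' + ρ S + 32 l + (2/3) l + 96 (n+1)² l`, and `ρ S ≤ ρ' S + 9 l`. -/
theorem Cls.ub_up (hw : Cls w) (n : ℕ) (hF : Flat w x t (4 * ρ) 1 P h) (hl : 0 < l)
    (h1 : 4 * l ≤ ρ) (h2 : 4 * ρ ≤ 2 ^ n * l) (ht : |t' - t| ≤ l)
    (hx : ‖x' - x - (t' - t) • P‖ ≤ l) (hr : 0 < r) (hrρ : 2 * r ≤ ρ) :
    Sp w r x' t' ≤ Sp w ρ x t + 200 * (n + 1) ^ 2 * l / ρ := by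
  have hρ : 0 < ρ := by linarith
  have hτ := abs_le.1 ht
  set τ := t' - t with hτd
  have hρ' : 0 < ρ - τ := by linarith [hτ.2]
  have hF0 := hw.red_ge n hF hl (by linarith) h2 ht hx
  set N : ℝ := n + 1 with hN
  have hN1 : 1 ≤ N := by rw [hN]; linarith [Nat.cast_nonneg (α := ℝ) n]
  have hS1 : Sp w ρ x t ≤ h + 9 :=
    (reg_big (x' := x) (t' := t) hF hρ (by simp; positivity) (by simp; positivity)).1
  have hS2 : h - 4 ≤ Sp w ρ x t := by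
    have h3 := hw.le_Tup_vel hρ x t P
    have h4 := (abs_le.1 (hF (ρ • P) ρ (by rw [abs_of_pos hρ]; linarith))).1
    rw [Tup_eq w hρ] at h3
    rw [sub_self, norm_zero, inner_smul_right, real_inner_self_eq_norm_sq] at h4
    refine le_of_mul_le_mul_left ?_ hρ
    simp only [ne_eq, OfNat.ofNat_ne_zero, not_false_eq_true, zero_pow, zero_div] at h4
    nlinarith
  refine (hw.Sp_mono hr (by linarith [hτ.2] : r ≤ ρ - τ) x' t').trans ?_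
  rw [Sp, div_le_iff₀ hρ', sub_le_iff_le_add]
  refine Tup_le fun η => ?_
  have et : t' + (ρ - τ) = t + ρ := by rw [hτd]; ring
  rw [et]
  have l1 := lin_id P η h (ρ - τ) hρ'.ne'
  have l2 := lin_id P (x' + η - x) h ρ hρ.ne'
  have g1 := hw.le_Tup hρ x t (x' + η) rfl
  rw [Tup_eq w hρ] at g1
  have g2 := (abs_le.1 (hF (x' + η - x) ρ (by rw [abs_of_pos hρ]; linarith))).2
  rw [add_sub_cancel] at g2
  have e1 : inner ℝ P (x' + η - x) = inner ℝ P (x' - x) + inner ℝ P η := by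
    rw [← inner_add_right]; congr 1; abel
  have e2 : ‖x' + η - x - ρ • P‖ ≤ ‖η - (ρ - τ) • P‖ + ‖x' - x - τ • P‖ := by
    refine le_of_eq_of_le ?_ (norm_add_le _ _)
    congr 1
    rw [sub_smul]; abel
  have key := UB_alg (F := w (x' + η) (t + ρ) - w x t - inner ℝ P (x' + η - x) -
    (h - ‖P‖ ^ 2 / 2) * ρ) (S := Sp w ρ x t - h) (ρ' := ρ - τ) hl h1 (by linarith [hτ.2])
    (by linarith [hτ.1]) (norm_nonneg _) (norm_nonneg _) hx (norm_nonneg _) e2 (by linarith)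
    (by linarith) (by linarith)
  have b1 : τ * (Sp w ρ x t - h) ≤ l * 9 := by
    refine (le_abs_self _).trans ?_
    rw [abs_mul]
    exact mul_le_mul ht (abs_le.2 ⟨by linarith, by linarith⟩) (abs_nonneg _) hl.le
  have b2 : l ≤ N ^ 2 * l := le_mul_of_one_le_left hl.le (one_le_pow₀ hN1)
  have b3 : 150 * N ^ 2 * l ≤ 200 * N ^ 2 * l / ρ * (ρ - τ) := by
    rw [div_mul_eq_mul_div, le_div_iff₀ hρ]
    have : 0 ≤ N ^ 2 * l := by positivity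
    nlinarith [mul_le_mul_of_nonneg_left (by linarith [hτ.2] : 3 * ρ ≤ 4 * (ρ - τ)) this]
  rw [e1] at key
  nlinarith

/-- Mirror of `Cls.ub_up` (`Cls.mir`, `Flat.mir`, `Sp_mir`). -/
theorem Cls.ub_lo (hw : Cls w) (n : ℕ) (hF : Flat w x t (4 * ρ) 1 P h) (hl : 0 < l)
    (h1 : 4 * l ≤ ρ) (h2 : 4 * ρ ≤ 2 ^ n * l) (ht : |t' - t| ≤ l)
    (hx : ‖x' - x - (t' - t) • P‖ ≤ l) (hr : 0 < r) (hrρ : 2 * r ≤ ρ) :
    Sm w r x' t' ≤ Sm w ρ x t + 200 * (n + 1) ^ 2 * l / ρ := by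
  rw [← Sp_mir, ← Sp_mir]
  refine hw.mir.ub_up n hF.mir hl h1 h2 ?_ ?_ hr hrρ
  · rwa [neg_sub_neg, abs_sub_comm]
  · rwa [neg_sub_neg, smul_neg, ← neg_smul, neg_sub]

end Crest.Agent.R94
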